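import Vale.Agent.Lib.P064.Tok2

/-!
Real tokens on the edges of `H`, from Hall's theorem.
-/

namespace Vale.Agent.Lib.P064r

open Finset SimpleGraph Vale.Agent.Lib.P064
open scoped Classical Nat

set_option linter.unusedSectionVars false
set_option linter.unusedVariables false

variable {V : Type*} [Fintype V]

/-- The density hypothesis in logarithmic form. -/
lemma density_log {H : SimpleGraph V} {n : ℕ} {q : ℝ} (hn : 1 ≤ n) (hq : 0 < q)
    (hyp : ∀ F : H.Subgraph, 1 ≤ expCopies n q F.coe) (E' : Finset (Sym2 V))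
    (hE : ∀ e ∈ E', e ∈ H.edgeSet) :
    (E'.card : ℝ) * Real.log (1 / q) ≤ ((vertsOf E').card : ℝ) * Real.log n := by
  have h1 := one_le_of_edges hq hyp E' hE
  have hn0 : (0 : ℝ) < n := by exact_mod_cast hn
  have h2 := Real.log_nonneg h1
  rw [Real.log_mul (by positivity) (by positivity), Real.log_pow, Real.log_pow] at h2
  rw [one_div, Real.log_inv]
  linarith

/-- Real tokens exist as soon as the density condition holds, with an arbitrarily small loss. -/
theorem exists_real_tokens {H : SimpleGraph V} {N c Nt : ℝ} (hc : 0 < c) (hNt : N < Nt)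
    (hN : 0 ≤ N)
    (hden : ∀ E' : Finset (Sym2 V), (∀ e ∈ E', e ∈ H.edgeSet) →
      (E'.card : ℝ) * c ≤ ((vertsOf E').card : ℝ) * N) :
    ∃ T : V → V → ℝ, (∀ x y, H.Adj x y → 0 ≤ T x y) ∧ (∀ x y, H.Adj x y → T x y + T y x = c) ∧
      ∀ x, ∑ y ∈ Finset.univ.filter (H.Adj x), T x y ≤ Nt := by
  have hgap : 0 < Nt - N := by linarith
  obtain ⟨M₀, hM₀⟩ := exists_nat_gt (c / (Nt - N))
  set M : ℕ := M₀ + 1 with hM
  have hMpos : 0 < M := by omega
  have hMR : (0 : ℝ) < M := by exact_mod_cast hMpos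
  have hMgap : c / M < Nt - N := by
    rw [div_lt_iff₀ hMR]
    have h1 : c / (Nt - N) < M := by
      have : ((M₀ : ℝ)) < M := by
        rw [hM]
        push_cast
        linarith
      linarith
    rw [div_lt_iff₀ hgap] at h1
    linarith
  set Q : ℕ := ⌈(M : ℝ) * N / c⌉₊ with hQ
  have hQ1 : (M : ℝ) * N / c ≤ Q := Nat.le_ceil _
  have hQ2 : (Q : ℝ) < (M : ℝ) * N / c + 1 := Nat.ceil_lt_add_one (by positivity)
  have hDen : DensityLE H M Q := by
    intro E' hE'
    have h1 := hden E' hE'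
    have h2 : (M : ℝ) * E'.card ≤ (Q : ℝ) * (vertsOf E').card := by
      have h3 : (M : ℝ) * N / c * ((vertsOf E').card : ℝ) ≤ (Q : ℝ) * (vertsOf E').card :=
        mul_le_mul_of_nonneg_right hQ1 (by positivity)
      have h4 : (M : ℝ) * E'.card ≤ (M : ℝ) * N / c * ((vertsOf E').card : ℝ) := by
        have h5 : (E'.card : ℝ) ≤ ((vertsOf E').card : ℝ) * N / c := by
          rw [le_div_iff₀ hc]
          exact h1
        calc (M : ℝ) * E'.card ≤ (M : ℝ) * (((vertsOf E').card : ℝ) * N / c) :=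
              mul_le_mul_of_nonneg_left h5 hMR.le
          _ = _ := by ring
      linarith
    exact_mod_cast h2
  obtain ⟨τ, hτ, hτ'⟩ := exists_tokens hDen
  -- the number of tokens held by `x` on the edge `xy`
  set a : V → V → ℕ := fun x y => if h : H.Adj x y then
    (Finset.univ.filter (fun i : Fin M => (τ (⟨s(x, y), h⟩, i)).1 = x)).card else 0 with ha
  have hsum : ∀ x y, H.Adj x y → a x y + a y x = M := by
    intro x y h
    simp only [ha]
    rw [dif_pos h, dif_pos h.symm]
    have he : (⟨s(y, x), h.symm⟩ : H.edgeSet) = ⟨s(x, y), h⟩ := Subtype.ext Sym2.eq_swap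
    rw [he]
    have hdisj : Disjoint (Finset.univ.filter (fun i : Fin M => (τ (⟨s(x, y), h⟩, i)).1 = x))
        (Finset.univ.filter (fun i : Fin M => (τ (⟨s(x, y), h⟩, i)).1 = y)) := by
      rw [Finset.disjoint_filter]
      intro i _ h1 h2
      exact h.ne (h1.symm.trans h2)
    rw [← Finset.card_union_of_disjoint hdisj]
    have hall : Finset.univ.filter (fun i : Fin M => (τ (⟨s(x, y), h⟩, i)).1 = x) ∪
        Finset.univ.filter (fun i : Fin M => (τ (⟨s(x, y), h⟩, i)).1 = y) = Finset.univ := by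
      ext i
      simp only [Finset.mem_union, Finset.mem_filter, Finset.mem_univ, true_and, iff_true]
      exact Sym2.mem_iff.mp (hτ' ⟨s(x, y), h⟩ i)
    rw [hall, Finset.card_univ, Fintype.card_fin]
  have hcap : ∀ x, ∑ y ∈ Finset.univ.filter (H.Adj x), a x y ≤ Q := by
    intro x
    set Sy : V → Finset (Fin Q) := fun y => if h : H.Adj x y then
      (Finset.univ.filter (fun i : Fin M => (τ (⟨s(x, y), h⟩, i)).1 = x)).image
        (fun i => (τ (⟨s(x, y), h⟩, i)).2) else ∅ with hSy
    have hcard : ∀ y ∈ Finset.univ.filter (H.Adj x), a x y = (Sy y).card := by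
      intro y hy
      have h := (Finset.mem_filter.mp hy).2
      simp only [ha, hSy]
      rw [dif_pos h, dif_pos h, Finset.card_image_of_injOn]
      intro i hi j hj hij
      have hi' := (Finset.mem_filter.mp (Finset.mem_coe.mp hi)).2
      have hj' := (Finset.mem_filter.mp (Finset.mem_coe.mp hj)).2
      have h3 : τ (⟨s(x, y), h⟩, i) = τ (⟨s(x, y), h⟩, j) :=
        Prod.ext (hi'.trans hj'.symm) hij
      have h4 := hτ h3
      exact (Prod.ext_iff.mp h4).2
    have hdisj : ∀ y ∈ Finset.univ.filter (H.Adj x), ∀ y' ∈ Finset.univ.filter (H.Adj x), y ≠ y' →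
        Disjoint (Sy y) (Sy y') := by
      intro y hy y' hy' hne
      have h := (Finset.mem_filter.mp hy).2
      have h' := (Finset.mem_filter.mp hy').2
      simp only [hSy]
      rw [dif_pos h, dif_pos h', Finset.disjoint_left]
      intro j hj hj'
      obtain ⟨i, hi, hij⟩ := Finset.mem_image.mp hj
      obtain ⟨i', hi', hij'⟩ := Finset.mem_image.mp hj'
      have hi1 := (Finset.mem_filter.mp hi).2
      have hi2 := (Finset.mem_filter.mp hi').2
      have h3 : τ (⟨s(x, y), h⟩, i) = τ (⟨s(x, y'), h'⟩, i') :=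
        Prod.ext (hi1.trans hi2.symm) (hij.trans hij'.symm)
      have h4 := hτ h3
      have h5 : s(x, y) = s(x, y') := congrArg Subtype.val (Prod.ext_iff.mp h4).1
      exact hne (Sym2.congr_right.mp h5)
    rw [Finset.sum_congr rfl hcard, ← Finset.card_biUnion hdisj]
    calc _ ≤ (Finset.univ : Finset (Fin Q)).card := Finset.card_le_univ _
      _ = Q := by simp
  refine ⟨fun x y => c / M * (a x y : ℝ), ?_, ?_, ?_⟩
  · intro x y _
    positivity
  · intro x y h
    have h1 : (a x y : ℝ) + (a y x : ℝ) = M := by exact_mod_cast hsum x y h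
    show c / M * (a x y : ℝ) + c / M * (a y x : ℝ) = c
    rw [← mul_add, h1]
    field_simp
  · intro x
    have h1 : (∑ y ∈ Finset.univ.filter (H.Adj x), (a x y : ℝ)) ≤ Q := by
      exact_mod_cast hcap x
    show ∑ y ∈ Finset.univ.filter (H.Adj x), c / M * (a x y : ℝ) ≤ Nt
    rw [← Finset.mul_sum]
    have h2 : c / M * (∑ y ∈ Finset.univ.filter (H.Adj x), (a x y : ℝ)) ≤ c / M * Q :=
      mul_le_mul_of_nonneg_left h1 (by positivity)
    have h3 : c / M * (Q : ℝ) ≤ c / M * ((M : ℝ) * N / c + 1) :=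
      mul_le_mul_of_nonneg_left hQ2.le (by positivity)
    have h4 : c / M * ((M : ℝ) * N / c + 1) = N + c / M := by
      field_simp
    linarith

/-- At most `Nt / τ` neighbours receive at least `τ`. -/
lemma rank_card {H : SimpleGraph V} {T : V → V → ℝ} {c Nt τ : ℝ}
    (h0 : ∀ x y, H.Adj x y → 0 ≤ T x y)
    (hcap : ∀ x, ∑ y ∈ Finset.univ.filter (H.Adj x), T x y ≤ Nt) (x : V) :
    ((Finset.univ.filter (fun y => H.Adj x y ∧ τ ≤ T x y)).card : ℝ) * τ ≤ Nt := by
  have hsub : Finset.univ.filter (fun y => H.Adj x y ∧ τ ≤ T x y) ⊆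
      Finset.univ.filter (H.Adj x) := by
    intro y hy
    exact Finset.mem_filter.mpr ⟨Finset.mem_univ _, (Finset.mem_filter.mp hy).2.1⟩
  calc ((Finset.univ.filter (fun y => H.Adj x y ∧ τ ≤ T x y)).card : ℝ) * τ
      = ∑ _y ∈ Finset.univ.filter (fun y => H.Adj x y ∧ τ ≤ T x y), τ := by
        rw [Finset.sum_const, nsmul_eq_mul]
    _ ≤ ∑ y ∈ Finset.univ.filter (fun y => H.Adj x y ∧ τ ≤ T x y), T x y :=
        Finset.sum_le_sum fun y hy => (Finset.mem_filter.mp hy).2.2
    _ ≤ ∑ y ∈ Finset.univ.filter (H.Adj x), T x y := by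
        refine Finset.sum_le_sum_of_subset_of_nonneg hsub ?_
        intro y hy _
        exact h0 x y (Finset.mem_filter.mp hy).2
    _ ≤ Nt := hcap x

end Vale.Agent.Lib.P064r
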