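import Vale.Agent.Lib.P064r.Band1
import Vale.Agent.Lib.P064k.Small

/-!
The bound for connected graphs: a loss of at most `C max(1, n q)` per edge when the expected degree is
at most the logarithm of the number of vertices.
-/

namespace Vale.Agent.Lib.P064r

open Finset SimpleGraph Vale.Agent.Lib.P064 Vale.Agent.Lib.P064k
open scoped Classical Nat

set_option linter.unusedSectionVars false
set_option linter.unusedVariables false

universe u v

variable {V₀ : Type v} [Fintype V₀] {Z : Type u} [Fintype Z]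

/-- A numeric fact. -/
lemma big_nine : ∀ x : ℕ, 10 ≤ x → (2 * x + 11) * (x + 3) + 1 ≤ 2 ^ x := by
  intro x hx
  induction x, hx using Nat.le_induction with
  | base => norm_num
  | succ x hx ih =>
    rw [pow_succ]
    calc (2 * (x + 1) + 11) * (x + 1 + 3) + 1 ≤ ((2 * x + 11) * (x + 3) + 1) * 2 := by nlinarith
      _ ≤ 2 ^ x * 2 := Nat.mul_le_mul_right 2 ih

/-- The constant for the main case. -/
noncomputable def constB₀ : ℝ := 221184 * constK

/-- The constant for connected graphs. -/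
noncomputable def constB : ℝ := constH * 18432

lemma constB_pos : 0 < constB := by
  have hH := constH_ge
  unfold constB
  nlinarith

/-- The case of a long graph: the spanning tree. -/
lemma band_tree {H : SimpleGraph V₀} {n ell : ℕ} {q : ℝ} (hn : 0 < n) (hq : 0 < q)
    (hV : Fintype.card V₀ ≤ n) (hyp : ∀ F : H.Subgraph, 1 ≤ expCopies n q F.coe)
    (hnt : n < 2 ^ ell) (ha : 1 ≤ (n : ℝ) * q) {T : SimpleGraph Z} (hT : T.Connected)
    (hg0 : cyc T ≠ 0) (hEne : (Emb T H Finset.univ).Nonempty) (hE : ell ≤ numEdges T)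
    (hE1 : 1 ≤ numEdges T) :
    ((Emb T H Finset.univ).card : ℝ) ≤ (2 * (n : ℝ)) ^ Fintype.card Z *
      (constB₀ * ((n : ℝ) * q) * q) ^ numEdges T := by
  have hK0 := constK_pos
  have hK1 := le_constK
  have hn' : (0 : ℝ) < n := by exact_mod_cast hn
  have hve := card_le_of_connected hT
  have hvpos : 0 < Fintype.card Z := Fintype.card_pos_iff.mpr hT.nonempty
  obtain ⟨m, hmv⟩ : ∃ m, Fintype.card Z = m + 1 := ⟨Fintype.card Z - 1, by omega⟩
  have h1 := card_emb_general hn hV hq (oBound_of_hyp hq hyp) hT hmv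
  have hcy := pow_cyc_le hn hq hyp hT hg0 hEne
  refine le_of_mul_le_mul_right ?_ (show (0 : ℝ) < (n : ℝ) ^ (cyc T - 1) by positivity)
  obtain ⟨e, he⟩ : ∃ e, e = numEdges T := ⟨_, rfl⟩
  rw [← he] at hE hE1 hcy ⊢
  rw [hmv]
  obtain ⟨x, hx⟩ : ∃ x, x = cyc T - 1 := ⟨_, rfl⟩
  rw [← hx] at hcy ⊢
  have hex : e = m + 1 + x := by
    have h9 : cyc T = numEdges T + 1 - Fintype.card Z := rfl
    omega
  obtain ⟨A, hA⟩ : ∃ A, A = (n : ℝ) * q := ⟨_, rfl⟩
  rw [← hA] at ha hcy ⊢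
  have hA0 : 0 < A := by linarith
  have e1 : (2 * (n : ℝ)) ^ (m + 1) * (constB₀ * A * q) ^ e * (n : ℝ) ^ x =
      2 ^ (m + 1) * constB₀ ^ e * A ^ e * A ^ e := by
    have e2 : (n : ℝ) ^ (m + 1) * (n : ℝ) ^ x = (n : ℝ) ^ e := by
      rw [← pow_add, hex]
    have e3 : A ^ e = (n : ℝ) ^ e * q ^ e := by
      rw [hA, mul_pow]
    rw [mul_pow, mul_pow, mul_pow]
    nth_rewrite 3 [e3]
    rw [← e2]
    ring
  rw [e1]
  have h2 : (n : ℝ) ≤ 2 ^ e := by
    have h3 : n < 2 ^ e := lt_of_lt_of_le hnt (Nat.pow_le_pow_right (by norm_num) hE)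
    exact_mod_cast h3.le
  have hc : constB₀ = 221184 * constK := rfl
  have hKA : 1 ≤ constK * A := by nlinarith
  have h3 : ((m : ℝ) + 1) ≤ 2 ^ (m + 1) := by
    exact_mod_cast Nat.lt_two_pow_self.le
  have h4 : (constK * A) ^ m ≤ (constK * A) ^ e := pow_le_pow_right₀ hKA (by omega)
  have h5 : 24 * (n : ℝ) ≤ 48 ^ e := by
    have h6 : (24 : ℝ) ≤ 24 ^ e := by
      calc (24 : ℝ) = 24 ^ 1 := by norm_num
        _ ≤ 24 ^ e := pow_le_pow_right₀ (by norm_num) hE1
    calc 24 * (n : ℝ) ≤ 24 ^ e * 2 ^ e := mul_le_mul h6 h2 hn'.le (by positivity)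
      _ = 48 ^ e := by rw [← mul_pow]; norm_num
  have ea : constK * (n : ℝ) * q = constK * A := by rw [hA]; ring
  rw [ea] at h1
  have h6 : (48 : ℝ) ^ e * constK ^ e ≤ constB₀ ^ e := by
    rw [← mul_pow]
    refine pow_le_pow_left₀ (by positivity) ?_ e
    rw [hc]
    nlinarith
  calc ((Emb T H Finset.univ).card : ℝ) * (n : ℝ) ^ x
      ≤ (((m : ℝ) + 1) * (constK * A) ^ m * (24 * n)) * A ^ e :=
        mul_le_mul h1 hcy (by positivity) (by positivity)
    _ ≤ ((2 ^ (m + 1) * (constK * A) ^ e) * 48 ^ e) * A ^ e := by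
        refine mul_le_mul_of_nonneg_right ?_ (by positivity)
        refine mul_le_mul ?_ h5 (by positivity) (by positivity)
        exact mul_le_mul h3 h4 (by positivity) (by positivity)
    _ = 2 ^ (m + 1) * (48 ^ e * constK ^ e) * A ^ e * A ^ e := by
        rw [mul_pow]
        ring
    _ ≤ _ := by
        refine mul_le_mul_of_nonneg_right ?_ (by positivity)
        refine mul_le_mul_of_nonneg_right ?_ (by positivity)
        exact mul_le_mul_of_nonneg_left h6 (by positivity)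

/-- The main case. -/
theorem band_main {H : SimpleGraph V₀} {n ell : ℕ} {q : ℝ} (hn : 0 < n) (hq : 0 < q)
    (hV : Fintype.card V₀ ≤ n) (hyp : ∀ F : H.Subgraph, 1 ≤ expCopies n q F.coe)
    (hell : 1024 ≤ ell) (hnt : n < 2 ^ ell) (hnl : 2 ^ (ell - 1) ≤ n)
    (ha : 2 ≤ (n : ℝ) * q) (hA : (n : ℝ) * q ≤ ((4 * ell : ℕ) : ℝ)) {T : SimpleGraph Z}
    (hT : T.Connected) (hg0 : cyc T ≠ 0) (hEne : (Emb T H Finset.univ).Nonempty)
    (hE1 : 1 ≤ numEdges T) :
    ((Emb T H Finset.univ).card : ℝ) ≤ (2 * (n : ℝ)) ^ Fintype.card Z *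
      (constB₀ * ((n : ℝ) * q) * q) ^ numEdges T := by
  have ha1 : 1 ≤ (n : ℝ) * q := by linarith
  by_cases hlong : ell ≤ numEdges T
  · exact band_tree hn hq hV hyp hnt ha1 hT hg0 hEne hlong hE1
  push Not at hlong
  have hK1 := le_constK
  have hK0 := constK_pos
  have hn' : (0 : ℝ) < n := by exact_mod_cast hn
  have hve := card_le_of_connected hT
  have hvpos : 0 < Fintype.card Z := Fintype.card_pos_iff.mpr hT.nonempty
  have hcycdef : cyc T = numEdges T + 1 - Fintype.card Z := rfl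
  have hve2 : Fintype.card Z ≤ numEdges T := by omega
  obtain ⟨κ, hκ⟩ : ∃ κ, numEdges T = Fintype.card Z + κ := ⟨numEdges T - Fintype.card Z, by omega⟩
  have hκc : cyc T - 1 = κ := by omega
  have hcy := pow_cyc_le hn hq hyp hT hg0 hEne
  rw [hκc] at hcy
  obtain ⟨x, hx⟩ : ∃ x, x = Nat.log 2 ell := ⟨_, rfl⟩
  have hell0 : ell ≠ 0 := by omega
  have hx10 : 10 ≤ x := by
    rw [hx]
    exact Nat.le_log_of_pow_le (by norm_num) (by norm_num; omega)
  have hl1 : 2 ^ x ≤ ell := by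
    rw [hx]
    exact Nat.pow_log_le_self 2 hell0
  have hl2 : ell < 2 ^ (x + 1) := by
    rw [hx]
    exact Nat.lt_pow_succ_log_self (by norm_num) ell
  have hb9 := big_nine x hx10
  have hb : (2 * x + 11) * (x + 3) ≤ ell - 1 := by omega
  have hb2 : (x + 3) * (x + 3) ≤ ell - 1 := by
    refine le_trans (Nat.mul_le_mul_right _ ?_) hb
    omega
  have hnlR : (2 : ℝ) ^ (ell - 1) ≤ n := by exact_mod_cast hnl
  obtain ⟨A, hAd⟩ : ∃ A, A = (n : ℝ) * q := ⟨_, rfl⟩
  rw [← hAd] at ha ha1 hA hcy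
  have hA0 : 0 < A := by linarith
  have hA1 : 1 < A := by linarith
  have hAx : A ≤ 2 ^ (x + 3) := by
    have h1 : 4 * ell ≤ 2 ^ (x + 3) := by
      have e1 : (2 : ℕ) ^ (x + 3) = 4 * 2 ^ (x + 1) := by ring
      omega
    have h2 : ((4 * ell : ℕ) : ℝ) ≤ ((2 ^ (x + 3) : ℕ) : ℝ) := Nat.cast_le.mpr h1
    push_cast at h2
    push_cast at hA
    linarith
  have hA2 : A ^ 2 ≤ 4 ^ (x + 3) := by
    calc A ^ 2 ≤ ((2 : ℝ) ^ (x + 3)) ^ 2 := pow_le_pow_left₀ hA0.le hAx 2
      _ = 4 ^ (x + 3) := by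
          rw [← pow_mul, mul_comm, pow_mul]
          norm_num
  have ha2 : A ^ 2 ≤ n := by
    refine hA2.trans (le_trans ?_ hnlR)
    have e1 : (4 : ℝ) ^ (x + 3) = 2 ^ (2 * (x + 3)) := by
      rw [pow_mul]
      norm_num
    rw [e1]
    refine pow_le_pow_right₀ (by norm_num) ?_
    have : 2 * (x + 3) ≤ (x + 3) * (x + 3) := Nat.mul_le_mul_right _ (by omega)
    omega
  have hnum : ∀ k', (n : ℝ) < A ^ (k' + 1) → A ^ 2 ≤ 4 ^ k' := by
    intro k' hk'
    have h1 : (2 : ℝ) ^ (ell - 1) < 2 ^ ((x + 3) * (k' + 1)) := by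
      calc (2 : ℝ) ^ (ell - 1) ≤ n := hnlR
        _ < A ^ (k' + 1) := hk'
        _ ≤ ((2 : ℝ) ^ (x + 3)) ^ (k' + 1) := pow_le_pow_left₀ hA0.le hAx _
        _ = _ := (pow_mul _ _ _).symm
    have h2 := (pow_lt_pow_iff_right₀ (by norm_num : (1 : ℝ) < 2)).mp h1
    have h3 : x + 3 ≤ k' := by
      by_contra hcon
      push Not at hcon
      have h4 : (x + 3) * (k' + 1) ≤ (x + 3) * (x + 3) := Nat.mul_le_mul_left _ (by omega)
      omega
    exact hA2.trans (pow_le_pow_right₀ (by norm_num) h3)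
  have hκb : (2 * x + 11) * κ ≤ numEdges T := by
    have h1 : (2 : ℝ) ^ ((ell - 1) * κ) ≤ 2 ^ ((x + 3) * numEdges T) := by
      calc (2 : ℝ) ^ ((ell - 1) * κ) = ((2 : ℝ) ^ (ell - 1)) ^ κ := pow_mul _ _ _
        _ ≤ (n : ℝ) ^ κ := pow_le_pow_left₀ (by positivity) hnlR _
        _ ≤ A ^ numEdges T := hcy
        _ ≤ ((2 : ℝ) ^ (x + 3)) ^ numEdges T := pow_le_pow_left₀ hA0.le hAx _
        _ = _ := (pow_mul _ _ _).symm
    have h2 := (pow_le_pow_iff_right₀ (by norm_num : (1 : ℝ) < 2)).mp h1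
    have h3 : (x + 3) * ((2 * x + 11) * κ) ≤ (x + 3) * numEdges T := by
      calc (x + 3) * ((2 * x + 11) * κ) = ((2 * x + 11) * (x + 3)) * κ := by ring
        _ ≤ (ell - 1) * κ := Nat.mul_le_mul_right _ hb
        _ ≤ _ := h2
    exact Nat.le_of_mul_le_mul_left h3 (by omega)
  have hO := oBound_of_hyp hq hyp
  have hDg : ∀ u, (nb H u).card ≤ 288 * ell := by
    intro u
    have h1 := deg_lt (Y := ((4 * ell : ℕ) : ℝ)) hn hq hO (by omega : 1 ≤ ell) hnt
      (by rw [← hAd]; exact hA) (by exact_mod_cast (by omega : ell ≤ 4 * ell)) u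
    have h2 : ((nb H u).card : ℝ) ≤ ((288 * ell : ℕ) : ℝ) := by
      have e1 : ((288 * ell : ℕ) : ℝ) = 72 * ((4 * ell : ℕ) : ℝ) := by
        push_cast
        ring
      rw [e1]
      exact h1.le
    exact_mod_cast h2
  -- the cycle
  have hnotac : ¬ T.IsAcyclic := by
    intro hac
    have := numEdges_tree ⟨hT, hac⟩
    omega
  unfold SimpleGraph.IsAcyclic at hnotac
  push Not at hnotac
  obtain ⟨v₀, c, hc⟩ := hnotac
  have hy₀ : ClosedP (fun i => c.getVert i) c.length := by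
    refine ⟨hc.three_le_length, ?_, ?_⟩
    · intro i j hi hj hij
      exact hc.getVert_injOn' (by simp only [Set.mem_ofPred_eq]; omega)
        (by simp only [Set.mem_ofPred_eq]; omega) hij
    · simp
  have hyadj : ∀ i, i < c.length → T.Adj (c.getVert i) (c.getVert (i + 1)) :=
    fun i hi => c.adj_getVert_succ hi
  obtain ⟨k, hk⟩ : ∃ k, k = c.length := ⟨_, rfl⟩
  rw [← hk] at hy₀ hyadj
  have hkv : k ≤ Fintype.card Z := by
    have h1 : ((Finset.range k).image (fun i => c.getVert i)).card = k := by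
      rw [Finset.card_image_of_injOn, Finset.card_range]
      intro i hi j hj hij
      simp only [Finset.coe_range, Set.mem_Iio] at hi hj
      exact hy₀.inj i j hi hj hij
    rw [← h1]
    exact Finset.card_le_univ _
  -- the ambient set
  obtain ⟨f₀, hf₀⟩ := hEne
  have hZV : Fintype.card Z ≤ Fintype.card V₀ :=
    Fintype.card_le_of_injective f₀ (mem_Emb.mp hf₀).1
  have hUc : Fintype.card (V₀ ⊕ ULift.{v} (Fin (2 * n - Fintype.card V₀))) = 2 * n := by
    rw [Fintype.card_sum, Fintype.card_ulift, Fintype.card_fin]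
    omega
  have hZU : Fintype.card Z ≤ Fintype.card (V₀ ⊕ ULift.{v} (Fin (2 * n - Fintype.card V₀))) := by
    rw [hUc]; omega
  obtain ⟨je⟩ := Function.Embedding.nonempty_of_card_le hZU
  have hcore := emb_core hn hq hV hO (by rw [← hAd]; exact ha1) je.injective hT (κ := κ)
    (Dg := 288 * ell) (by omega) hDg hy₀ hyadj
  have hcb := cyc_bound hn hq hV hyp (ι := fun x => Sum.inl x) (fun a b h => Sum.inl.inj h) hUc
    (by rw [← hAd]; exact ha) (by rw [← hAd]; exact ha2) (by rw [← hAd]; exact hnum)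
    (hy₀.comp je.injective)
  rw [← hAd] at hcore hcb ⊢
  -- the numerics
  obtain ⟨e, he⟩ : ∃ e, e = numEdges T := ⟨_, rfl⟩
  rw [← he] at hcore hlong hκb hE1 hκ ⊢
  obtain ⟨v, hv⟩ : ∃ v, v = Fintype.card Z := ⟨_, rfl⟩
  rw [← hv] at hcore hκ hkv ⊢
  have hτ : ((v * (1 + 288 * ell) : ℕ) : ℝ) ^ κ ≤ 2 ^ e := by
    have h1 : v * (1 + 288 * ell) ≤ 2 ^ (2 * x + 11) := by
      have h2 : v ≤ ell := by omega
      have h3 : 1 + 288 * ell ≤ 2 ^ 9 * ell := by omega
      calc v * (1 + 288 * ell) ≤ ell * (2 ^ 9 * ell) := Nat.mul_le_mul h2 h3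
        _ ≤ 2 ^ (x + 1) * (2 ^ 9 * 2 ^ (x + 1)) := by
            exact Nat.mul_le_mul hl2.le (Nat.mul_le_mul_left _ hl2.le)
        _ = 2 ^ (2 * x + 11) := by ring
    have h2 : ((v * (1 + 288 * ell) : ℕ) : ℝ) ≤ 2 ^ (2 * x + 11) := by exact_mod_cast h1
    calc ((v * (1 + 288 * ell) : ℕ) : ℝ) ^ κ ≤ ((2 : ℝ) ^ (2 * x + 11)) ^ κ :=
          pow_le_pow_left₀ (by positivity) h2 κ
      _ = 2 ^ ((2 * x + 11) * κ) := (pow_mul _ _ _).symm
      _ ≤ 2 ^ e := pow_le_pow_right₀ (by norm_num) hκb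
  have hc36 : (1 : ℝ) ≤ 36 * A := by linarith
  have hc12 : (1 : ℝ) ≤ 12 * A := by linarith
  have hbase : (256 * constK * A) ^ k * (36 * A) ^ (v - k) ≤ (9216 * constK * A) ^ e := by
    have h1 : (256 * constK * A) ≤ 9216 * constK * A := by
      have : 0 ≤ constK * A := by positivity
      nlinarith
    have h2 : 36 * A ≤ 9216 * constK * A := by nlinarith
    have h3 : (1 : ℝ) ≤ 9216 * constK * A := by linarith
    calc (256 * constK * A) ^ k * (36 * A) ^ (v - k)
        ≤ (9216 * constK * A) ^ k * (9216 * constK * A) ^ (v - k) :=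
          mul_le_mul (pow_le_pow_left₀ (by positivity) h1 k)
            (pow_le_pow_left₀ (by positivity) h2 _) (by positivity) (by positivity)
      _ = (9216 * constK * A) ^ v := by
          rw [← pow_add]
          congr 1
          omega
      _ ≤ _ := pow_le_pow_right₀ h3 (by omega)
  have h6n : (n : ℝ) ^ κ ≤ (6 * (n : ℝ)) ^ κ :=
    pow_le_pow_left₀ hn'.le (by linarith) κ
  have hmain : ((Emb T H Finset.univ).card : ℝ) * (n : ℝ) ^ κ ≤ (constB₀ * A) ^ e * A ^ e := by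
    calc ((Emb T H Finset.univ).card : ℝ) * (n : ℝ) ^ κ
        ≤ ((Emb T H Finset.univ).card : ℝ) * (6 * (n : ℝ)) ^ κ :=
          mul_le_mul_of_nonneg_left h6n (Nat.cast_nonneg _)
      _ ≤ _ := hcore
      _ ≤ (256 * constK * A) ^ k * ((36 * A) ^ (v - k) * (12 * A) ^ e * 2 ^ e) := by
          refine mul_le_mul hcb ?_ (by positivity) (by positivity)
          exact mul_le_mul_of_nonneg_left hτ (by positivity)
      _ = ((256 * constK * A) ^ k * (36 * A) ^ (v - k)) * ((12 * A) ^ e * 2 ^ e) := by ring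
      _ ≤ (9216 * constK * A) ^ e * ((12 * A) ^ e * 2 ^ e) :=
          mul_le_mul_of_nonneg_right hbase (by positivity)
      _ = (constB₀ * A) ^ e * A ^ e := by
          rw [← mul_pow, ← mul_pow, ← mul_pow]
          congr 1
          unfold constB₀
          ring
  refine le_of_mul_le_mul_right ?_ (show (0 : ℝ) < (n : ℝ) ^ κ by positivity)
  refine hmain.trans ?_
  have e1 : (2 * (n : ℝ)) ^ v * (constB₀ * A * q) ^ e * (n : ℝ) ^ κ =
      2 ^ v * ((constB₀ * A) ^ e * A ^ e) := by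
    have e3 : A ^ e = (n : ℝ) ^ e * q ^ e := by
      rw [hAd, mul_pow]
    have e2 : (n : ℝ) ^ v * (n : ℝ) ^ κ = (n : ℝ) ^ e := by
      rw [← pow_add, hκ]
    rw [mul_pow, mul_pow (constB₀ * A) q, e3, ← e2]
    ring
  rw [e1]
  have h2v : (1 : ℝ) ≤ 2 ^ v := one_le_pow₀ (by norm_num)
  have h0 : 0 ≤ (constB₀ * A) ^ e * A ^ e := by
    have : 0 < constB₀ := by unfold constB₀; positivity
    positivity
  nlinarith

/-- The bound for connected graphs when the expected degree is at most twice the binary logarithm. -/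
theorem conn_band {H : SimpleGraph V₀} {n ell : ℕ} {q lam : ℝ} (hn : 0 < n) (hq : 0 < q)
    (hV : Fintype.card V₀ ≤ n) (hyp : ∀ F : H.Subgraph, 1 ≤ expCopies n q F.coe)
    (hell : 1024 ≤ ell) (hnt : n < 2 ^ ell) (hnl : 2 ^ (ell - 1) ≤ n)
    (hA : (n : ℝ) * q ≤ ((2 * ell : ℕ) : ℝ)) (hlam1 : 1 ≤ lam) (hlam2 : (n : ℝ) * q ≤ lam)
    {T : SimpleGraph Z} (hT : T.Connected) (hE : 1 ≤ numEdges T) :
    ((Emb T H Finset.univ).card : ℝ) ≤ (2 * (n : ℝ)) ^ Fintype.card Z *
      (constB * lam * q) ^ numEdges T := by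
  have hn' : (0 : ℝ) < n := by exact_mod_cast hn
  have hn1 : (1 : ℝ) ≤ n := by exact_mod_cast hn
  have hH := constH_ge
  have hCB : 0 < constB := by
    unfold constB
    nlinarith
  by_cases hg0 : cyc T = 0
  · have h1 := small_forest (lam := 18432 * lam) hn hq hV hyp (by linarith) hT hE hg0
    have e1 : constH * (18432 * lam) * q = constB * lam * q := by
      unfold constB
      ring
    rwa [e1] at h1
  by_cases hEm : Emb T H Finset.univ = ∅
  · rw [hEm]
    simp only [Finset.card_empty, Nat.cast_zero]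
    positivity
  have hEne := Finset.nonempty_iff_ne_empty.mpr hEm
  have hcy := pow_cyc_le hn hq hyp hT hg0 hEne
  have ha0 : 0 < (n : ℝ) * q := by positivity
  have ha : 1 ≤ (n : ℝ) * q := by
    by_contra hlt
    push Not at hlt
    have h1 : ((n : ℝ) * q) ^ numEdges T < 1 := pow_lt_one₀ ha0.le hlt (by omega)
    have h2 : (1 : ℝ) ≤ (n : ℝ) ^ (cyc T - 1) := one_le_pow₀ hn1
    linarith
  have hq2 : 0 < 2 * q := by positivity
  have hyp2 : ∀ F : H.Subgraph, 1 ≤ expCopies n (2 * q) F.coe := fun F =>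
    (hyp F).trans (expCopies_mono hq.le (by linarith) _)
  have h1 := band_main hn hq2 hV hyp2 hell hnt hnl (by linarith) (by
    have e1 : ((4 * ell : ℕ) : ℝ) = 2 * ((2 * ell : ℕ) : ℝ) := by
      push_cast
      ring
    rw [e1]
    linarith) hT hg0 hEne hE
  refine h1.trans (mul_le_mul_of_nonneg_left (pow_le_pow_left₀ ?_ ?_ _) (by positivity))
  · have : 0 < constB₀ := by
      have := constK_pos
      unfold constB₀
      positivity
    positivity
  · have e1 : constB₀ * ((n : ℝ) * (2 * q)) * (2 * q) = (4 * constB₀) * ((n : ℝ) * q) * q := by ring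
    rw [e1]
    have e2 : 4 * constB₀ = constB := by
      unfold constB constB₀ constH
      ring
    rw [e2]
    refine mul_le_mul_of_nonneg_right ?_ hq.le
    exact mul_le_mul_of_nonneg_left hlam2 hCB.le

/-- The comparison for all graphs. -/
theorem emb_band {H : SimpleGraph V₀} {n ell : ℕ} {q lam : ℝ} (hn : 0 < n) (hq : 0 < q)
    (hV : Fintype.card V₀ ≤ n) (hyp : ∀ F : H.Subgraph, 1 ≤ expCopies n q F.coe)
    (hell : 1024 ≤ ell) (hnt : n < 2 ^ ell) (hnl : 2 ^ (ell - 1) ≤ n)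
    (hA : (n : ℝ) * q ≤ ((2 * ell : ℕ) : ℝ)) (hlam1 : 1 ≤ lam) (hlam2 : (n : ℝ) * q ≤ lam)
    (hCq : constB * lam * q ≤ 1) (F : SimpleGraph Z) :
    ((Emb F H Finset.univ).card : ℝ) ≤ (n.descFactorial (Fintype.card Z) : ℝ) *
      (36 * (constB * lam * q)) ^ numEdges F := by
  have hH := constH_ge
  have hCB : 0 < constB := by
    unfold constB
    nlinarith
  obtain ⟨s, hs⟩ : ∃ s : ℝ, s = constB * lam * q := ⟨_, rfl⟩
  rw [← hs] at hCq ⊢
  have hs0 : 0 ≤ s := by
    rw [hs]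
    positivity
  refine emb_strip (by linarith) hV (fun Z _ F hno => ?_) (Fintype.card Z) Z F rfl
  have h1 := comps_bound hs0 hCq
    (fun Z' _ T hT hE => hs ▸ conn_band hn hq hV hyp hell hnt hnl hA hlam1 hlam2 hT hE) F hno
  obtain ⟨e, he⟩ : ∃ e, e = numEdges F := ⟨_, rfl⟩
  obtain ⟨v, hv⟩ : ∃ v, v = Fintype.card Z := ⟨_, rfl⟩
  rw [← he, ← hv] at h1 ⊢
  have hve : v ≤ 2 * e := by
    rw [hv, he]
    exact card_le_two_edges F hno
  by_cases hvn : v ≤ n
  swap
  · have h0 : Emb F H Finset.univ = ∅ := by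
      refine Finset.eq_empty_of_forall_notMem fun f hf => ?_
      rcases mem_Emb.mp hf with ⟨h2, _, _⟩
      have := Fintype.card_le_of_injective f h2
      omega
    rw [h0]
    simp only [Finset.card_empty, Nat.cast_zero]
    positivity
  have h2 := pow_le_three_desc hvn
  have hdn : (0 : ℝ) ≤ (n.descFactorial v : ℝ) := by positivity
  have h6v : (6 : ℝ) ^ v ≤ 36 ^ e := by
    have : (36 : ℝ) ^ e = 6 ^ (2 * e) := by
      rw [pow_mul]; norm_num
    rw [this]
    exact pow_le_pow_right₀ (by norm_num) hve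
  have h3 : (2 * (n : ℝ)) ^ v ≤ 36 ^ e * (n.descFactorial v : ℝ) := by
    calc (2 * (n : ℝ)) ^ v = 2 ^ v * (n : ℝ) ^ v := mul_pow _ _ _
      _ ≤ 2 ^ v * (3 ^ v * (n.descFactorial v : ℝ)) := mul_le_mul_of_nonneg_left h2 (by positivity)
      _ = 6 ^ v * (n.descFactorial v : ℝ) := by rw [← mul_assoc, ← mul_pow]; norm_num
      _ ≤ _ := mul_le_mul_of_nonneg_right h6v hdn
  calc ((Emb F H Finset.univ).card : ℝ) ≤ (2 * (n : ℝ)) ^ v * s ^ e := h1
    _ ≤ (36 ^ e * (n.descFactorial v : ℝ)) * s ^ e :=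
        mul_le_mul_of_nonneg_right h3 (by positivity)
    _ = _ := by
        rw [mul_pow]
        ring

end Vale.Agent.Lib.P064r
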