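import Vale.Agent.Lib.P064r.Main3
import Vale.Agent.Lib.P064r.Band2

/-!
The bound `p_c ≤ C (log n)^{3/2+δ} p_E` for all graphs, and the bound for low expected degree.
-/

namespace Vale.Agent.Lib.P064r

open Finset SimpleGraph Vale.Agent.Lib.P064 Vale.Agent.Lib.P064k
open scoped Classical Nat

set_option linter.unusedSectionVars false
set_option linter.unusedVariables false

universe v

variable {V : Type v} [Fintype V] {n : ℕ} {H : SimpleGraph V}

/-- The bound when the expected degree is at most the logarithm. -/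
theorem pCrit_band (hn : 2 ≤ n) (hV : Fintype.card V ≤ n) (hE : 1 ≤ numEdges H)
    (hA : 2 * ((n : ℝ) * pExp n H) ≤ ((2 * (Nat.log 2 n + 1) : ℕ) : ℝ))
    (hell : 1024 ≤ Nat.log 2 n + 1) :
    pCrit n H ≤ (13824 * constB) * max 1 (2 * ((n : ℝ) * pExp n H)) * pExp n H * Real.log n := by
  have hC0 : 0 < constB := constB_pos
  have hL : 0 < Real.log n := Real.log_pos (by exact_mod_cast (by omega : 1 < n))
  have hn0 : (0 : ℝ) < n := by
    have : 0 < n := by omega
    exact_mod_cast this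
  obtain ⟨hp0, _, hp⟩ := pExp_mem (H := H) hV
  obtain ⟨hppos, hyp2⟩ := hyp_double hV hE hp0 hp
  obtain ⟨p, hpe⟩ : ∃ p, p = pExp n H := ⟨_, rfl⟩
  rw [← hpe] at hA hppos hyp2 ⊢
  obtain ⟨q₁, hq₁⟩ : ∃ q₁, q₁ = 2 * p := ⟨_, rfl⟩
  rw [← hq₁] at hyp2
  have hq₁0 : 0 < q₁ := by
    rw [hq₁]
    positivity
  obtain ⟨ell, hell'⟩ : ∃ ell, ell = Nat.log 2 n + 1 := ⟨_, rfl⟩
  rw [← hell'] at hA hell
  have hnt : n < 2 ^ ell := by
    rw [hell']
    exact Nat.lt_pow_succ_log_self (by norm_num) n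
  have hnl : 2 ^ (ell - 1) ≤ n := by
    have e1 : ell - 1 = Nat.log 2 n := by omega
    rw [e1]
    exact Nat.pow_log_le_self 2 (by omega)
  have hA' : (n : ℝ) * q₁ ≤ ((2 * ell : ℕ) : ℝ) := by
    rw [hq₁]
    linarith
  obtain ⟨lam, hlam⟩ : ∃ lam : ℝ, lam = max 1 (2 * ((n : ℝ) * p)) := ⟨_, rfl⟩
  rw [← hlam]
  have hlam1 : 1 ≤ lam := by
    rw [hlam]
    exact le_max_left _ _
  have hlam2 : (n : ℝ) * q₁ ≤ lam := by
    rw [hlam, hq₁]
    refine le_trans (le_of_eq ?_) (le_max_right _ _)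
    ring
  obtain ⟨lr, hlr⟩ : ∃ lr : ℝ, lr = (Nat.log 2 (numEdges H) : ℝ) + 1 := ⟨_, rfl⟩
  have hlr1 : 1 ≤ lr := by
    have : (0 : ℝ) ≤ (Nat.log 2 (numEdges H) : ℝ) := by positivity
    rw [hlr]
    linarith
  have hlr2 : lr ≤ 6 * Real.log n := by
    rw [hlr]
    exact log_edges_le hn hV hE
  obtain ⟨s, hs⟩ : ∃ s : ℝ, s = 36 * (constB * lam * q₁) := ⟨_, rfl⟩
  have hs0 : 0 < s := by
    rw [hs]
    positivity
  have hmain : pCrit n H ≤ s * (32 * lr) := by
    by_cases hCq : constB * lam * q₁ ≤ 1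
    · rw [hlr]
      refine pCrit_le_of_bound hs0 hV ?_
      intro Z _ F
      rw [hs]
      exact emb_band (by omega) hq₁0 hV hyp2 hell hnt hnl hA' hlam1 hlam2 hCq F
    · push Not at hCq
      have hPbd : BddBelow {p : ℝ | 0 ≤ p ∧ p ≤ 1 ∧
          1 / 2 ≤ gnpProb n p (fun G => 0 < G.copyCount H)} := ⟨0, fun p hp => hp.1⟩
      have h1 : pCrit n H ≤ 1 := csInf_le hPbd ⟨zero_le_one, le_rfl, gnp_one hV⟩
      have h2 : 1 ≤ s := by
        rw [hs]
        linarith
      have h3 : 1 ≤ s * (32 * lr) := one_le_mul_of_one_le_of_one_le h2 (by linarith)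
      linarith
  refine hmain.trans ?_
  calc s * (32 * lr) = (2304 * constB * lam * p) * lr := by
        rw [hs, hq₁]
        ring
    _ ≤ (2304 * constB * lam * p) * (6 * Real.log n) :=
        mul_le_mul_of_nonneg_left hlr2 (by positivity)
    _ = _ := by ring

/-- The constant of the bound for low expected degree. -/
noncomputable def constLow : ℝ := 27648 * constB + 20736 * constU + 1024 * constT

lemma constU_pos' : (0 : ℝ) < constU := by
  have := constU_ge
  linarith

lemma constLow_pos : 0 < constLow := by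
  have h1 := constB_pos
  have h2 := constU_pos'
  have h3 := constT_pos
  unfold constLow
  positivity

lemma constLow_ge1 : 27648 * constB ≤ constLow := by
  have h2 := constU_pos'
  have h3 := constT_pos
  unfold constLow
  linarith

lemma constLow_ge2 : 20736 * constU ≤ constLow := by
  have h2 := constB_pos
  have h3 := constT_pos
  unfold constLow
  linarith

lemma constLow_ge3 : 1024 * constT ≤ constLow := by
  have h2 := constB_pos
  have h3 := constU_pos'
  unfold constLow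
  linarith

/-- The bound for low expected degree and large `n`. -/
theorem pCrit_low_large (hn : 2 ≤ n) (hV : Fintype.card V ≤ n) (hE : 1 ≤ numEdges H)
    (hA : (n : ℝ) * pExp n H ≤ Real.log n) (hell : 1024 ≤ Nat.log 2 n + 1) :
    pCrit n H ≤ constLow * Real.log n *
      min (max 1 ((n : ℝ) * pExp n H)) (Real.log n / ((n : ℝ) * pExp n H)) * pExp n H := by
  have hB : 0 < constB := constB_pos
  have hU : (0 : ℝ) < constU := constU_pos'
  have hT := constT_pos
  have hL : 0 < Real.log n := Real.log_pos (by exact_mod_cast (by omega : 1 < n))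
  have hn0 : (0 : ℝ) < n := by
    have : 0 < n := by omega
    exact_mod_cast this
  obtain ⟨hp0, _, hp⟩ := pExp_mem (H := H) hV
  obtain ⟨hppos, _⟩ := hyp_double hV hE hp0 hp
  have hell2 := log_le_ell hn
  have h1 := pCrit_band hn hV hE (by
    have e1 : ((2 * (Nat.log 2 n + 1) : ℕ) : ℝ) = 2 * ((Nat.log 2 n + 1 : ℕ) : ℝ) := by
      push_cast
      ring
    rw [e1]
    linarith) hell
  have hq : Real.log n / n ≤ Real.log n / n := le_rfl
  have h2 := pCrit_uni hn hV hE (q := Real.log n / n) (by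
      rw [le_div_iff₀ hn0, mul_comm]
      exact hA) hq (big_three hn (by omega))
  obtain ⟨p, hpe⟩ : ∃ p, p = pExp n H := ⟨_, rfl⟩
  rw [← hpe] at h1 hA hppos ⊢
  obtain ⟨N, hN⟩ : ∃ N, N = Real.log n := ⟨_, rfl⟩
  rw [← hN] at h1 h2 hA hL ⊢
  have hnp0 : 0 < (n : ℝ) * p := by positivity
  obtain ⟨a, ha⟩ : ∃ a, a = (n : ℝ) * p := ⟨_, rfl⟩
  rw [← ha] at h1 hA hnp0 ⊢
  have hL0 : 0 ≤ constLow := constLow_pos.le
  rcases le_total (max 1 a) (N / a) with hc | hc
  · rw [min_eq_left hc]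
    refine h1.trans ?_
    have h3 : max 1 (2 * a) ≤ 2 * max 1 a := by
      refine max_le ?_ ?_
      · have := le_max_left 1 a
        linarith
      · have := le_max_right 1 a
        linarith
    have hm0 : 0 ≤ max 1 a := le_max_of_le_left zero_le_one
    calc 13824 * constB * max 1 (2 * a) * p * N
        ≤ 13824 * constB * (2 * max 1 a) * p * N := by
          refine mul_le_mul_of_nonneg_right ?_ hL.le
          refine mul_le_mul_of_nonneg_right ?_ hppos.le
          exact mul_le_mul_of_nonneg_left h3 (by positivity)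
      _ = (27648 * constB) * (N * max 1 a * p) := by ring
      _ ≤ constLow * (N * max 1 a * p) := by
          refine mul_le_mul_of_nonneg_right constLow_ge1 (by positivity)
      _ = _ := by ring
  · rw [min_eq_right hc]
    refine h2.trans ?_
    have e1 : N / a * p = N / n := by
      rw [ha]
      field_simp
    calc 20736 * constU * (N / n) * N = (20736 * constU) * (N * (N / n)) := by ring
      _ ≤ constLow * (N * (N / n)) := by
          refine mul_le_mul_of_nonneg_right constLow_ge2 (by positivity)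
      _ = constLow * N * (N / a * p) := by rw [e1]; ring
      _ = _ := by ring

/-- The bound for low expected degree. -/
theorem pCrit_low (hn : 2 ≤ n) (hV : Fintype.card V ≤ n) (hE : 1 ≤ numEdges H)
    (hA : (n : ℝ) * pExp n H ≤ Real.log n) :
    pCrit n H ≤ constLow * Real.log n *
      min (max 1 ((n : ℝ) * pExp n H)) (Real.log n / ((n : ℝ) * pExp n H)) * pExp n H := by
  by_cases hell : 1024 ≤ Nat.log 2 n + 1
  · exact pCrit_low_large hn hV hE hA hell
  push Not at hell
  have hL : 0 < Real.log n := Real.log_pos (by exact_mod_cast (by omega : 1 < n))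
  have hn0 : (0 : ℝ) < n := by
    have : 0 < n := by omega
    exact_mod_cast this
  have hT := constT_pos
  obtain ⟨hp0, _, hp⟩ := pExp_mem (H := H) hV
  obtain ⟨hppos, _⟩ := hyp_double hV hE hp0 hp
  have h1 : pCrit n H ≤ constT * (Real.log n) ^ ((5 : ℝ) / 3) * pExp n H :=
    pCrit_five_thirds hn hV hE
  obtain ⟨p, hpe⟩ : ∃ p, p = pExp n H := ⟨_, rfl⟩
  rw [← hpe] at h1 hA hppos ⊢
  obtain ⟨N, hN⟩ : ∃ N, N = Real.log n := ⟨_, rfl⟩
  rw [← hN] at h1 hA hL ⊢
  have hN1024 : N ≤ 1024 := by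
    have h3 := log_le_ell hn
    have h5 : ((Nat.log 2 n + 1 : ℕ) : ℝ) ≤ ((1024 : ℕ) : ℝ) := Nat.cast_le.mpr hell.le
    have h6 : ((1024 : ℕ) : ℝ) = 1024 := by norm_num
    rw [hN]
    linarith
  have hnp0 : 0 < (n : ℝ) * p := by positivity
  have hmin : 1 ≤ min (max 1 ((n : ℝ) * p)) (N / ((n : ℝ) * p)) := by
    refine le_min (le_max_left _ _) ?_
    rw [le_div_iff₀ hnp0, one_mul]
    exact hA
  have h2 : N ^ ((5 : ℝ) / 3) ≤ 1024 * N := by
    have e1 : N ^ ((5 : ℝ) / 3) = N ^ ((2 : ℝ) / 3) * N := by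
      have : ((5 : ℝ) / 3) = (2 : ℝ) / 3 + 1 := by norm_num
      rw [this, Real.rpow_add hL, Real.rpow_one]
    rw [e1]
    refine mul_le_mul_of_nonneg_right ?_ hL.le
    calc N ^ ((2 : ℝ) / 3) ≤ (1024 : ℝ) ^ ((2 : ℝ) / 3) :=
          Real.rpow_le_rpow hL.le hN1024 (by norm_num)
      _ ≤ (1024 : ℝ) ^ (1 : ℝ) := Real.rpow_le_rpow_of_exponent_le (by norm_num) (by norm_num)
      _ = 1024 := by norm_num
  have hLow : 1024 * constT ≤ constLow := constLow_ge3
  have hm0 : 0 ≤ N * p := by positivity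
  calc pCrit n H ≤ constT * N ^ ((5 : ℝ) / 3) * p := h1
    _ ≤ constT * (1024 * N) * p := by
        refine mul_le_mul_of_nonneg_right ?_ hppos.le
        exact mul_le_mul_of_nonneg_left h2 hT.le
    _ = (1024 * constT) * (N * p) := by ring
    _ ≤ constLow * (N * p) := mul_le_mul_of_nonneg_right hLow hm0
    _ = constLow * N * 1 * p := by ring
    _ ≤ _ := by
        refine mul_le_mul_of_nonneg_right ?_ hppos.le
        exact mul_le_mul_of_nonneg_left hmin (by
          have := constLow_pos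
          positivity)

/-- The bound `p_c ≤ C (log n)^{3/2+δ} p_E` for all graphs. -/
theorem pCrit_all_three_halves {δ : ℝ} (hδ : 0 < δ) : ∃ C : ℝ, 0 < C ∧
    ∀ (n : ℕ) (V : Type) [Fintype V] (H : SimpleGraph V),
    2 ≤ n → Fintype.card V ≤ n → 1 ≤ numEdges H →
    pCrit n H ≤ C * (Real.log n) ^ ((3 : ℝ) / 2 + δ) * pExp n H := by
  obtain ⟨C₀, hC₀, hRF⟩ := pCrit_resonance_free
  obtain ⟨δ₁, hδ₁⟩ : ∃ δ₁, δ₁ = min δ 1 := ⟨_, rfl⟩
  have hδ₁0 : 0 < δ₁ := by
    rw [hδ₁]
    exact lt_min hδ one_pos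
  have hδ₁1 : δ₁ ≤ 1 := by
    rw [hδ₁]
    exact min_le_right _ _
  have hδ₁δ : δ₁ ≤ δ := by
    rw [hδ₁]
    exact min_le_left _ _
  obtain ⟨δ₂, hδ₂⟩ : ∃ δ₂, δ₂ = δ₁ / 2 := ⟨_, rfl⟩
  have hδ₂0 : 0 < δ₂ := by
    rw [hδ₂]
    positivity
  have hδ₂1 : δ₂ ≤ 1 := by
    rw [hδ₂]
    linarith
  have hT := constT_pos
  have hU : (0 : ℝ) < constU := by
    have := constU_ge
    linarith
  have hLow := constLow_pos
  obtain ⟨K₁, hK₁⟩ : ∃ K₁ : ℝ, K₁ = constT * 1048576 * (2 : ℝ) ^ ((3 : ℝ) / 2 + δ) := ⟨_, rfl⟩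
  obtain ⟨K₂, hK₂⟩ : ∃ K₂ : ℝ, K₂ = 41472 * constU + constLow := ⟨_, rfl⟩
  obtain ⟨K₃, hK₃⟩ : ∃ K₃ : ℝ, K₃ = C₀ * (2 + 1 / δ₂) * (512 * (1 / δ₂) ^ 2) * 2 := ⟨_, rfl⟩
  have hK₁0 : 0 < K₁ := by
    rw [hK₁]
    positivity
  have hK₂0 : 0 < K₂ := by
    rw [hK₂]
    positivity
  have hK₃0 : 0 < K₃ := by
    rw [hK₃]
    positivity
  refine ⟨K₁ + K₂ + K₃, by positivity, ?_⟩
  intro n V _ H hn hV hE
  have hnR : (2 : ℝ) ≤ n := by exact_mod_cast hn
  have hn0 : (0 : ℝ) < n := by linarith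
  obtain ⟨hp0, _, hp1⟩ := pExp_mem (H := H) hV
  have hp0' := hp0
  obtain ⟨N, hN⟩ : ∃ N, N = Real.log n := ⟨_, rfl⟩
  obtain ⟨p, hp⟩ : ∃ p, p = pExp n H := ⟨_, rfl⟩
  rw [← hp] at hp0 ⊢
  rw [← hN]
  obtain ⟨M, hM⟩ : ∃ M, M = p := ⟨_, rfl⟩
  rw [← hM]
  have hM1 : p ≤ M := by
    rw [hM]
  have hM0 : 0 ≤ M := hp0.trans hM1
  have hNhalf : 1 / 2 ≤ N := by
    rw [hN]
    have h1 : Real.log 2 ≤ Real.log n := Real.log_le_log (by norm_num) hnR
    have h2 := Real.log_two_gt_d9
    linarith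
  have hN0 : 0 < N := by linarith
  have hpow0 : 0 < N ^ ((3 : ℝ) / 2 + δ) := Real.rpow_pos_of_pos hN0 _
  have hKK : K₁ + K₂ + K₃ = K₁ + K₂ + K₃ := rfl
  by_cases hell : 1024 ≤ Nat.log 2 n + 1
  · -- large `n`
    have hell256 : 256 ≤ Nat.log 2 n + 1 := by omega
    have hN128 : 128 ≤ N := by
      have h1 := half_ell_le_log hn (by omega)
      have h2 : (256 : ℝ) ≤ ((Nat.log 2 n + 1 : ℕ) : ℝ) := by exact_mod_cast hell256
      rw [hN]
      linarith
    have hN1 : 1 ≤ N := by linarith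
    have hNp : N ≤ N ^ ((3 : ℝ) / 2 + δ) := by
      have h1 : N ^ (1 : ℝ) ≤ N ^ ((3 : ℝ) / 2 + δ) :=
        Real.rpow_le_rpow_of_exponent_le hN1 (by linarith)
      rwa [Real.rpow_one] at h1
    by_cases hA : 2 * p ≤ N / n
    · -- the density at most `log n / n`
      have hppos : 0 < p := by
        rw [hp]
        exact (hyp_double hV hE hp0' hp1).1
      have hpN : (n : ℝ) * p ≤ N := by
        have h1 : 2 * p * n ≤ N := by
          rwa [le_div_iff₀ hn0] at hA
        have e1 : 2 * p * n = 2 * ((n : ℝ) * p) := by ring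
        have h2 : 0 ≤ (n : ℝ) * p := by positivity
        linarith
      have h1 := pCrit_low_large hn hV hE (by rw [← hp, ← hN]; exact hpN) hell
      rw [← hp, ← hN] at h1
      refine h1.trans ?_
      obtain ⟨r, hr⟩ : ∃ r, r = Real.sqrt N := ⟨_, rfl⟩
      have hr2 : r * r = N := by
        rw [hr]
        exact Real.mul_self_sqrt hN0.le
      have hr0 : 0 ≤ r := by
        rw [hr]
        positivity
      have hr1 : 1 ≤ r := by
        by_contra hlt
        push Not at hlt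
        have h3 : r * r < 1 * 1 := mul_self_lt_mul_self hr0 hlt
        linarith
      have hpow : N * r ≤ N ^ ((3 : ℝ) / 2 + δ) := by
        have h3 : N * r = N ^ ((3 : ℝ) / 2) := by
          rw [hr, Real.sqrt_eq_rpow, ← Real.rpow_one_add' hN0.le (by norm_num)]
          norm_num
        rw [h3]
        exact Real.rpow_le_rpow_of_exponent_le hN1 (by linarith)
      have hmin : min (max 1 ((n : ℝ) * p)) (N / ((n : ℝ) * p)) ≤ r := by
        have hnp0 : 0 < (n : ℝ) * p := by positivity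
        by_cases hc : (n : ℝ) * p ≤ r
        · exact (min_le_left _ _).trans (max_le hr1 hc)
        · push Not at hc
          refine (min_le_right _ _).trans ?_
          rw [div_le_iff₀ hnp0, ← hr2]
          exact mul_le_mul_of_nonneg_left hc.le hr0
      have h5 : constLow * N * min (max 1 ((n : ℝ) * p)) (N / ((n : ℝ) * p)) * p ≤
          K₂ * N ^ ((3 : ℝ) / 2 + δ) * M := by
        have h6 : N * min (max 1 ((n : ℝ) * p)) (N / ((n : ℝ) * p)) ≤ N ^ ((3 : ℝ) / 2 + δ) :=
          (mul_le_mul_of_nonneg_left hmin hN0.le).trans hpow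
        have h7 : constLow ≤ K₂ := by
          rw [hK₂]
          linarith [mul_pos (by norm_num : (0 : ℝ) < 41472) hU]
        calc constLow * N * min (max 1 ((n : ℝ) * p)) (N / ((n : ℝ) * p)) * p
            = constLow * (N * min (max 1 ((n : ℝ) * p)) (N / ((n : ℝ) * p))) * p := by ring
          _ ≤ K₂ * N ^ ((3 : ℝ) / 2 + δ) * M := by
              refine mul_le_mul ?_ hM1 hp0 (by positivity)
              exact mul_le_mul h7 h6 (by
                refine mul_nonneg hN0.le (le_min ?_ ?_)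
                · exact le_max_of_le_left zero_le_one
                · positivity) (by positivity)
      refine h5.trans ?_
      refine mul_le_mul_of_nonneg_right ?_ hM0
      refine mul_le_mul_of_nonneg_right ?_ hpow0.le
      linarith
    · push Not at hA
      have hpq : p ≤ 2 * p := by linarith
      have hq0 : 0 < 2 * p := by
        have : 0 < N / n := by positivity
        linarith
      have hm : (0 : ℝ) < ((Nat.log 2 (2 * (Nat.log 2 n + 1)) + 1 : ℕ) : ℝ) := by
        have : 0 < Nat.log 2 (2 * (Nat.log 2 n + 1)) + 1 := by omega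
        exact_mod_cast this
      by_cases hnum : (3 * (n : ℝ) * (2 * p)) ^ (2 * (Nat.log 2 (2 * (Nat.log 2 n + 1)) + 1)) < n
      · have h1 := pCrit_uni hn hV hE (q := 2 * p) (by rw [← hp]; exact hpq)
            (by rw [← hN]; exact hA.le) hnum
        rw [← hN] at h1
        refine h1.trans ?_
        have h2 : p * N ≤ M * N ^ ((3 : ℝ) / 2 + δ) := mul_le_mul hM1 hNp hN0.le hM0
        have e1 : 20736 * constU * (2 * p) * N = (41472 * constU) * (p * N) := by
          ring
        have e2 : (K₁ + K₂ + K₃) * N ^ ((3 : ℝ) / 2 + δ) * M =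
            (K₁ + K₂ + K₃) * (M * N ^ ((3 : ℝ) / 2 + δ)) := by ring
        rw [e1, e2]
        have h3 : 0 ≤ M * N ^ ((3 : ℝ) / 2 + δ) := by positivity
        have h33 : 41472 * constU ≤ K₁ + K₂ + K₃ := by
          rw [hK₂]
          linarith
        exact mul_le_mul h33 h2 (by positivity) (by positivity)
      · -- the resonance-free range
        push Not at hnum
        obtain ⟨m, hmd⟩ : ∃ m : ℕ, m = Nat.log 2 (2 * (Nat.log 2 n + 1)) + 1 := ⟨_, rfl⟩
        rw [← hmd] at hnum hm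
        have hlog3 := m_log_three hn hell256
        rw [← hmd, ← hN] at hlog3
        have hsq := m_sq_le hn hell256 hδ₂0
        rw [← hmd, ← hN] at hsq
        obtain ⟨c, hc⟩ : ∃ c, c = Real.log (1 / (2 * p)) := ⟨_, rfl⟩
        have hcN : Real.log (3 * (n : ℝ) * (2 * p)) = Real.log 3 + N - c := by
          rw [hc, hN, Real.log_mul (by positivity) (by positivity),
            Real.log_mul (by norm_num) (by positivity), one_div, Real.log_inv]
          ring
        have h3 : 0 < 3 * (n : ℝ) * (2 * p) := by positivity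
        have h4 : N ≤ ((2 * m : ℕ) : ℝ) * Real.log (3 * (n : ℝ) * (2 * p)) := by
          rw [← Real.log_pow, hN]
          exact Real.log_le_log hn0 hnum
        rw [hcN] at h4
        obtain ⟨θ', hθ'⟩ : ∃ θ' : ℝ, θ' = 1 / (4 * (m : ℝ)) := ⟨_, rfl⟩
        have hm1 : (1 : ℝ) ≤ m := by
          have : 1 ≤ m := by omega
          exact_mod_cast this
        have hθ'0 : 0 < θ' := by
          rw [hθ']
          positivity
        have hθ'1 : θ' ≤ 1 / 2 := by
          rw [hθ', div_le_div_iff₀ (by positivity) (by norm_num)]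
          linarith
        have hgap : θ' * N ≤ N - c := by
          have h5 : ((2 * m : ℕ) : ℝ) = 2 * (m : ℝ) := by push_cast; ring
          rw [h5] at h4
          have h6 : θ' * N * (4 * (m : ℝ)) = N := by
            rw [hθ']
            field_simp
          have h7 : (N - c) * (4 * (m : ℝ)) ≥ N := by
            have e7 : (N - c) * (4 * (m : ℝ)) =
                2 * (2 * (m : ℝ) * (Real.log 3 + N - c)) - 4 * (m : ℝ) * Real.log 3 := by ring
            rw [e7]
            linarith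
          have h8 : 0 < 4 * (m : ℝ) := by positivity
          have h9 : θ' * N * (4 * (m : ℝ)) ≤ (N - c) * (4 * (m : ℝ)) := by linarith
          exact le_of_mul_le_mul_right h9 h8
        have h1 := hRF 2 δ₂ θ' le_rfl hδ₂0 hδ₂1 hθ'0 hθ'1 n V H (2 * p) hn hV hE
          (by rw [← hp]) (by
            have h5 : (1 : ℝ) / n ≤ N / n :=
              div_le_div_of_nonneg_right hN1 hn0.le
            linarith) (by
            intro s e h5 h6 h7
            have h8 : s = 1 := by omega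
            have h9 : e = 1 := by omega
            subst h8
            subst h9
            rw [← hN, ← hc]
            have h10 : ((1 : ℕ) : ℝ) * N - ((1 : ℕ) : ℝ) * c = N - c := by
              push_cast
              ring
            rw [h10]
            exact hgap.trans (le_abs_self _))
        rw [← hN] at h1
        refine h1.trans ?_
        have hinv : (1 / θ') ^ 2 = (4 * (m : ℝ)) ^ 2 := by
          rw [hθ']
          congr 1
          field_simp
        rw [hinv]
        have e2 : (1 : ℝ) + 1 / ((2 : ℕ) : ℝ) + δ₂ = (3 : ℝ) / 2 + δ₂ := by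
          push_cast
          ring
        rw [e2]
        have h6 : N ^ δ₂ * N ^ ((3 : ℝ) / 2 + δ₂) ≤ N ^ ((3 : ℝ) / 2 + δ) := by
          rw [← Real.rpow_add hN0]
          refine Real.rpow_le_rpow_of_exponent_le hN1 ?_
          rw [hδ₂]
          linarith
        have h7 : (4 * (m : ℝ)) ^ 2 * N ^ ((3 : ℝ) / 2 + δ₂) ≤
            (512 * (1 / δ₂) ^ 2) * N ^ ((3 : ℝ) / 2 + δ) := by
          calc (4 * (m : ℝ)) ^ 2 * N ^ ((3 : ℝ) / 2 + δ₂)
              ≤ (512 * (1 / δ₂) ^ 2 * N ^ δ₂) * N ^ ((3 : ℝ) / 2 + δ₂) :=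
                mul_le_mul_of_nonneg_right hsq (by positivity)
            _ = (512 * (1 / δ₂) ^ 2) * (N ^ δ₂ * N ^ ((3 : ℝ) / 2 + δ₂)) := by ring
            _ ≤ _ := mul_le_mul_of_nonneg_left h6 (by positivity)
        have e3 : C₀ * (2 + 1 / δ₂) * (4 * (m : ℝ)) ^ 2 * N ^ ((3 : ℝ) / 2 + δ₂) * (2 * p) =
            C₀ * (2 + 1 / δ₂) * ((4 * (m : ℝ)) ^ 2 * N ^ ((3 : ℝ) / 2 + δ₂)) * (2 * p) := by ring
        have hcast : ((2 : ℕ) : ℝ) = 2 := by norm_num
        rw [hcast, e3]
        have h8 : C₀ * (2 + 1 / δ₂) * ((4 * (m : ℝ)) ^ 2 * N ^ ((3 : ℝ) / 2 + δ₂)) * (2 * p) ≤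
            C₀ * (2 + 1 / δ₂) * ((512 * (1 / δ₂) ^ 2) * N ^ ((3 : ℝ) / 2 + δ)) * (2 * M) := by
          refine mul_le_mul ?_ (by linarith) (by positivity) (by positivity)
          exact mul_le_mul_of_nonneg_left h7 (by positivity)
        refine h8.trans ?_
        have e4 : C₀ * (2 + 1 / δ₂) * ((512 * (1 / δ₂) ^ 2) * N ^ ((3 : ℝ) / 2 + δ)) * (2 * M) =
            K₃ * (N ^ ((3 : ℝ) / 2 + δ) * M) := by
          rw [hK₃]
          ring
        have e5 : (K₁ + K₂ + K₃) * N ^ ((3 : ℝ) / 2 + δ) * M =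
            (K₁ + K₂ + K₃) * (N ^ ((3 : ℝ) / 2 + δ) * M) := by ring
        rw [e4, e5]
        exact mul_le_mul_of_nonneg_right (by linarith) (by positivity)
  · -- small `n`: the five thirds bound
    push Not at hell
    have h1 := pCrit_five_thirds hn hV hE
    rw [← hN, ← hp] at h1
    have hN256 : N ≤ 1024 := by
      have h3 := log_le_ell hn
      have h5 : ((Nat.log 2 n + 1 : ℕ) : ℝ) ≤ ((1024 : ℕ) : ℝ) := Nat.cast_le.mpr hell.le
      have h6 : ((1024 : ℕ) : ℝ) = 1024 := by norm_num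
      rw [hN]
      linarith
    have h2 : N ^ ((5 : ℝ) / 3) ≤ 1048576 := by
      calc N ^ ((5 : ℝ) / 3) ≤ (1024 : ℝ) ^ ((5 : ℝ) / 3) :=
            Real.rpow_le_rpow hN0.le hN256 (by norm_num)
        _ ≤ (1024 : ℝ) ^ (2 : ℝ) := Real.rpow_le_rpow_of_exponent_le (by norm_num) (by norm_num)
        _ = 1048576 := by norm_num
    have h3 : 1 ≤ (2 : ℝ) ^ ((3 : ℝ) / 2 + δ) * N ^ ((3 : ℝ) / 2 + δ) := by
      rw [← Real.mul_rpow (by norm_num) hN0.le]
      exact Real.one_le_rpow (by linarith) (by positivity)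
    have h4 : N ^ ((5 : ℝ) / 3) ≤ 1048576 * (2 : ℝ) ^ ((3 : ℝ) / 2 + δ) * N ^ ((3 : ℝ) / 2 + δ) := by
      have e1 : 1048576 * (2 : ℝ) ^ ((3 : ℝ) / 2 + δ) * N ^ ((3 : ℝ) / 2 + δ) =
          1048576 * ((2 : ℝ) ^ ((3 : ℝ) / 2 + δ) * N ^ ((3 : ℝ) / 2 + δ)) := by ring
      rw [e1]
      linarith
    have h5 : pCrit n H ≤ constT * N ^ ((5 : ℝ) / 3) * p := h1
    refine h5.trans ?_
    have h6 : constT * N ^ ((5 : ℝ) / 3) * p ≤
        constT * (1048576 * (2 : ℝ) ^ ((3 : ℝ) / 2 + δ) * N ^ ((3 : ℝ) / 2 + δ)) * M := by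
      refine mul_le_mul ?_ hM1 hp0 (by positivity)
      exact mul_le_mul_of_nonneg_left h4 hT.le
    refine h6.trans ?_
    have e1 : constT * (1048576 * (2 : ℝ) ^ ((3 : ℝ) / 2 + δ) * N ^ ((3 : ℝ) / 2 + δ)) * M =
        K₁ * (N ^ ((3 : ℝ) / 2 + δ) * M) := by
      rw [hK₁]
      ring
    have e5 : (K₁ + K₂ + K₃) * N ^ ((3 : ℝ) / 2 + δ) * M =
        (K₁ + K₂ + K₃) * (N ^ ((3 : ℝ) / 2 + δ) * M) := by ring
    rw [e1, e5]
    exact mul_le_mul_of_nonneg_right (by linarith) (by positivity)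

end Vale.Agent.Lib.P064r
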