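import Vale.Agent.Lib.P064k.Hub

/-!
The number of extensions of a map from a set of vertices: all edges of the graph, and not only the
tree edges, enter the budget, which gains a factor `n` for every independent cycle.
-/

namespace Vale.Agent.Lib.P064r

open Finset SimpleGraph Vale.Agent.Lib.P064 Vale.Agent.Lib.P064k
open scoped Classical Nat

set_option linter.unusedSectionVars false
set_option linter.unusedVariables false

universe u v

variable {V : Type v} [Fintype V] {Z : Type u} [Fintype Z]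

/-- The form of the oriented bound with a surplus of edges. -/
lemma dense_gain {Dd q : ℝ} {n v e κ : ℕ} (hn : 0 < n) (hv : 0 < v) (hq : 0 < q) (hve : v + κ ≤ e)
    (hvn : v ≤ n) (hD : Dd ≤ (6 * (n : ℝ) / (v : ℝ)) ^ v * (2 * (v : ℝ)) ^ e * q ^ e) :
    Dd * (6 * (n : ℝ)) ^ κ ≤ (12 * n * q) ^ e * (v : ℝ) ^ κ := by
  have hn' : (0 : ℝ) < n := by exact_mod_cast hn
  have hv' : (0 : ℝ) < v := by exact_mod_cast hv
  obtain ⟨x, rfl⟩ : ∃ x, e = v + κ + x := ⟨e - (v + κ), by omega⟩
  obtain ⟨A, hA⟩ : ∃ A : ℝ, A = 6 * (n : ℝ) := ⟨_, rfl⟩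
  rw [← hA] at hD ⊢
  have hA0 : 0 < A := by rw [hA]; positivity
  have e12 : 12 * (n : ℝ) * q = 2 * A * q := by rw [hA]; ring
  rw [e12]
  have hvA : (v : ℝ) ≤ A := by
    have h1 : (v : ℝ) ≤ n := by exact_mod_cast hvn
    rw [hA]
    linarith
  have h1 : (v : ℝ) ^ x ≤ A ^ x := pow_le_pow_left₀ hv'.le hvA x
  have e1 : (A / v) ^ v * (2 * (v : ℝ)) ^ (v + κ + x) * q ^ (v + κ + x) * A ^ κ =
      (2 * q) ^ (v + κ + x) * A ^ v * A ^ κ * ((v : ℝ) ^ κ * (v : ℝ) ^ x) := by
    have hvv : (v : ℝ) ^ v ≠ 0 := by positivity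
    rw [div_pow, mul_pow 2 q, mul_pow 2 (v : ℝ), pow_add (v : ℝ) (v + κ) x, pow_add (v : ℝ) v κ]
    field_simp
  have e2 : (2 * A * q) ^ (v + κ + x) * (v : ℝ) ^ κ =
      (2 * q) ^ (v + κ + x) * A ^ v * A ^ κ * ((v : ℝ) ^ κ * A ^ x) := by
    have e3 : 2 * A * q = (2 * q) * A := by ring
    rw [e3, mul_pow, pow_add A (v + κ) x, pow_add A v κ]
    ring
  rw [e2]
  calc Dd * A ^ κ ≤ (A / v) ^ v * (2 * (v : ℝ)) ^ (v + κ + x) * q ^ (v + κ + x) * A ^ κ :=
        mul_le_mul_of_nonneg_right hD (by positivity)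
    _ = _ := e1
    _ ≤ _ := by
        refine mul_le_mul_of_nonneg_left ?_ (by positivity)
        exact mul_le_mul_of_nonneg_left h1 (by positivity)

/-- The number of edges, counted from the lower end. -/
lemma sum_ups {T : SimpleGraph Z} {r : Z → ℕ} (hr : Function.Injective r) :
    ∑ y, (Finset.univ.filter (fun y' => T.Adj y y' ∧ r y < r y')).card = numEdges T := by
  rw [← Finset.card_sigma, ← card_edgesF]
  refine Finset.card_bij (fun x _ => s(x.1, x.2)) ?_ ?_ ?_
  · intro x hx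
    have h1 := (Finset.mem_filter.mp (Finset.mem_sigma.mp hx).2).2
    exact mem_edgesF.mpr h1.1
  · intro x hx x' hx' hxx
    have h1 := (Finset.mem_filter.mp (Finset.mem_sigma.mp hx).2).2
    have h2 := (Finset.mem_filter.mp (Finset.mem_sigma.mp hx').2).2
    rcases x with ⟨x1, x2⟩
    rcases x' with ⟨x1', x2'⟩
    rcases Sym2.eq_iff.mp hxx with ⟨h5, h6⟩ | ⟨h5, h6⟩
    · simp only at h5 h6
      subst h5
      subst h6
      rfl
    · simp only at h5 h6 h1 h2
      subst h5
      subst h6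
      omega
  · intro e he
    induction e using Sym2.ind with
    | _ a b =>
      have hab : T.Adj a b := mem_edgesF.mp he
      have hne : r a ≠ r b := fun h => hab.ne (hr h)
      rcases lt_or_gt_of_ne hne with h3 | h3
      · exact ⟨⟨a, b⟩, Finset.mem_sigma.mpr ⟨Finset.mem_univ _,
          Finset.mem_filter.mpr ⟨Finset.mem_univ _, hab, h3⟩⟩, rfl⟩
      · exact ⟨⟨b, a⟩, Finset.mem_sigma.mpr ⟨Finset.mem_univ _,
          Finset.mem_filter.mpr ⟨Finset.mem_univ _, hab.symm, h3⟩⟩, Sym2.eq_swap⟩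

/-- The hypothesis for the oriented graph made of all edges of the image and of the large
neighbourhoods. -/
lemma closing_budget {H : SimpleGraph V} {n : ℕ} {q : ℝ} (hn : 0 < n)
    (hq : 0 < q) (hV : Fintype.card V ≤ n) (hO : OBound H n q) (ha : 1 ≤ (n : ℝ) * q) {r : Z → ℕ}
    {f : Z → V} (hfi : Function.Injective f) (hZ : Nonempty Z) (up NB : Z → Finset V)
    (hupim : ∀ y, ∀ w ∈ up y, ∃ z, f z = w)
    (hadj : ∀ y, ∀ w ∈ up y ∪ NB y, H.Adj (f y) w)
    (hup : ∀ y, ∀ w ∈ up y ∪ NB y, ∀ z', f z' = w → r y < r z') {e κ τ : ℕ}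
    (hsum : ∑ y, (up y).card = e) (hκ : Fintype.card Z + κ ≤ e)
    (hτ : Fintype.card Z + ∑ y, (NB y).card ≤ τ) :
    (∏ y, (((NB y).card)! : ℝ)) * (6 * (n : ℝ)) ^ κ ≤
      (12 * ((n : ℝ) * q)) ^ (e + ∑ y, (NB y).card) * (τ : ℝ) ^ κ := by
  obtain ⟨out, hout_f, hout_none⟩ : ∃ out : V → Finset V, (∀ y, out (f y) = up y ∪ NB y) ∧
      ∀ u, (∀ y, f y ≠ u) → out u = ∅ := by
    refine ⟨fun u => Finset.univ.biUnion (fun y => if f y = u then up y ∪ NB y else ∅), ?_, ?_⟩
    · intro y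
      ext w
      simp only [Finset.mem_biUnion, Finset.mem_univ, true_and]
      constructor
      · rintro ⟨y', hy'⟩
        by_cases h : f y' = f y
        · rw [if_pos h] at hy'
          rwa [← hfi h]
        · rw [if_neg h] at hy'
          simp at hy'
      · intro h
        exact ⟨y, by rwa [if_pos rfl]⟩
    · intro u hu
      ext w
      simp only [Finset.mem_biUnion, Finset.mem_univ, true_and, Finset.notMem_empty, iff_false,
        not_exists]
      intro y
      rw [if_neg (hu y)]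
      simp
  obtain ⟨Im, hIm⟩ : ∃ Im : Finset V, Im = Finset.univ.image f := ⟨_, rfl⟩
  have hImc : Im.card = Fintype.card Z := by
    rw [hIm, Finset.card_image_of_injective _ hfi, Finset.card_univ]
  have hfIm : ∀ y, f y ∈ Im := fun y => by
    rw [hIm]
    exact Finset.mem_image_of_mem _ (Finset.mem_univ _)
  obtain ⟨X, hX⟩ : ∃ X : Finset V, X = Finset.univ.biUnion (fun y => NB y \ Im) := ⟨_, rfl⟩
  obtain ⟨W, hW⟩ : ∃ W : Finset V, W = Im ∪ X := ⟨_, rfl⟩
  have hXdisj : Disjoint Im X := by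
    refine Finset.disjoint_left.mpr fun w h1 h2 => ?_
    rw [hX] at h2
    obtain ⟨y, _, hy⟩ := Finset.mem_biUnion.mp h2
    exact (Finset.mem_sdiff.mp hy).2 h1
  have hWc : W.card = Fintype.card Z + X.card := by
    rw [hW, Finset.card_union_of_disjoint hXdisj, hImc]
  have hfW : ∀ y, f y ∈ W := fun y => by
    rw [hW]
    exact Finset.mem_union_left _ (hfIm y)
  have hsubW : ∀ y, up y ∪ NB y ⊆ W := by
    intro y w hw
    by_cases hwIm : w ∈ Im
    · rw [hW]
      exact Finset.mem_union_left _ hwIm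
    · rcases Finset.mem_union.mp hw with h1 | h1
      · obtain ⟨z, rfl⟩ := hupim y w h1
        exact absurd (hfIm z) hwIm
      · rw [hW, hX]
        exact Finset.mem_union_right _ (Finset.mem_biUnion.mpr
          ⟨y, Finset.mem_univ _, Finset.mem_sdiff.mpr ⟨h1, hwIm⟩⟩)
  have hor : IsOriented H W out := by
    refine ⟨?_, ?_, ?_, ?_⟩
    · intro u hu t ht
      by_cases h : ∃ y, f y = u
      · obtain ⟨y, rfl⟩ := h
        rw [hout_f] at ht
        exact hsubW y ht
      · push Not at h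
        rw [hout_none u h] at ht
        simp at ht
    · intro u hu
      refine hout_none u fun y h => hu ?_
      rw [← h]
      exact hfW y
    · intro u t ht
      by_cases h : ∃ y, f y = u
      · obtain ⟨y, rfl⟩ := h
        rw [hout_f] at ht
        exact hadj y t ht
      · push Not at h
        rw [hout_none u h] at ht
        simp at ht
    · intro u t ht hu
      by_cases h : ∃ y, f y = u
      · obtain ⟨y, rfl⟩ := h
        rw [hout_f] at ht
        by_cases h' : ∃ y', f y' = t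
        · obtain ⟨y', rfl⟩ := h'
          rw [hout_f] at hu
          have h1 := hup y _ ht y' rfl
          have h2 := hup y' _ hu y rfl
          omega
        · push Not at h'
          rw [hout_none t h'] at hu
          simp at hu
      · push Not at h
        rw [hout_none u h] at ht
        simp at ht
  have hWne : W.Nonempty := by
    obtain ⟨z⟩ := hZ
    exact ⟨f z, hfW z⟩
  have hsumout : ∑ u ∈ W, (out u).card = ∑ y, (up y ∪ NB y).card := by
    have h1 : ∑ u ∈ W, (out u).card = ∑ u ∈ Im, (out u).card := by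
      rw [hW]
      refine (Finset.sum_subset Finset.subset_union_left ?_).symm
      intro u _ hu
      have : ∀ y, f y ≠ u := fun y h => hu (h ▸ hfIm y)
      rw [hout_none u this, Finset.card_empty]
    rw [h1, hIm, Finset.sum_image (fun a _ b _ h => hfi h)]
    simp only [hout_f]
  obtain ⟨S, hS⟩ : ∃ S, S = ∑ y, (up y ∪ NB y).card := ⟨_, rfl⟩
  rw [← hS] at hsumout
  have hSup : S ≤ e + ∑ y, (NB y).card := by
    rw [hS, ← hsum, ← Finset.sum_add_distrib]
    exact Finset.sum_le_sum fun y _ => Finset.card_union_le _ _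
  have hSlow : e + X.card ≤ S := by
    have h1 : ∀ y, (up y).card + (NB y \ Im).card ≤ (up y ∪ NB y).card := by
      intro y
      have hd : Disjoint (up y) (NB y \ Im) := by
        refine Finset.disjoint_left.mpr fun w h1 h2 => ?_
        obtain ⟨z, rfl⟩ := hupim y w h1
        exact (Finset.mem_sdiff.mp h2).2 (hfIm z)
      rw [← Finset.card_union_of_disjoint hd]
      refine Finset.card_le_card ?_
      intro w hw
      rcases Finset.mem_union.mp hw with h2 | h2
      · exact Finset.mem_union_left _ h2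
      · exact Finset.mem_union_right _ (Finset.mem_sdiff.mp h2).1
    have h2 : X.card ≤ ∑ y, (NB y \ Im).card := by
      rw [hX]
      exact Finset.card_biUnion_le
    have h3 : ∑ y, ((up y).card + (NB y \ Im).card) ≤ S := by
      rw [hS]
      exact Finset.sum_le_sum fun y _ => h1 y
    rw [Finset.sum_add_distrib, hsum] at h3
    omega
  have hWn : W.card ≤ n := (Finset.card_le_univ W).trans hV
  have hWpos : 0 < W.card := Finset.card_pos.mpr hWne
  have h1 := hO W out hor hWne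
  rw [hsumout] at h1
  have h2 := dense_gain (κ := κ) hn hWpos hq (by omega) hWn h1
  have e1 : 12 * (n : ℝ) * q = 12 * ((n : ℝ) * q) := by ring
  rw [e1] at h2
  have hWτ : W.card ≤ τ := by
    have h3 : X.card ≤ ∑ y, (NB y).card := by
      rw [hX]
      refine Finset.card_biUnion_le.trans (Finset.sum_le_sum fun y _ => ?_)
      exact Finset.card_le_card Finset.sdiff_subset
    omega
  have h3 : ∏ y, ((NB y).card)! ≤ ∏ u ∈ W, ((out u).card)! := by
    have h4 : ∏ y, ((NB y).card)! ≤ ∏ y, ((out (f y)).card)! := by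
      refine Finset.prod_le_prod' fun y _ => ?_
      refine Nat.factorial_le ?_
      rw [hout_f]
      exact Finset.card_le_card Finset.subset_union_right
    refine h4.trans ?_
    rw [← Finset.prod_image (s := Finset.univ) (g := f) (f := fun u => ((out u).card)!)
      (fun a _ b _ h => hfi h)]
    refine Finset.prod_le_prod_of_subset_of_one_le' ?_ ?_
    · intro u hu
      obtain ⟨y, _, rfl⟩ := Finset.mem_image.mp hu
      exact hfW y
    · intro u _ _
      exact Nat.factorial_pos _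
  have h3R : (∏ y, (((NB y).card)! : ℝ)) ≤ ∏ u ∈ W, (((out u).card)! : ℝ) := by
    exact_mod_cast h3
  have h121 : (1 : ℝ) ≤ 12 * ((n : ℝ) * q) := by linarith
  calc (∏ y, (((NB y).card)! : ℝ)) * (6 * (n : ℝ)) ^ κ
      ≤ (∏ u ∈ W, (((out u).card)! : ℝ)) * (6 * (n : ℝ)) ^ κ :=
        mul_le_mul_of_nonneg_right h3R (by positivity)
    _ ≤ (12 * ((n : ℝ) * q)) ^ S * (W.card : ℝ) ^ κ := h2
    _ ≤ _ := by
        refine mul_le_mul (pow_le_pow_right₀ h121 hSup) ?_ (by positivity) (by positivity)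
        exact pow_le_pow_left₀ (by positivity) (by exact_mod_cast hWτ) κ

/-- The product of the numbers of candidates along an embedding. -/
theorem prod_cand_closing {T : SimpleGraph Z} {H : SimpleGraph V} {n : ℕ} {q : ℝ} (hn : 0 < n)
    (hq : 0 < q) (hV : Fintype.card V ≤ n) (hO : OBound H n q) (ha : 1 ≤ (n : ℝ) * q)
    {Z₀ : Finset Z} {r : Z → ℕ} (hr : IsRank T Z₀ r) {par : Z → Z}
    (hpar : ∀ z, z ∉ Z₀ → T.Adj (par z) z ∧ r (par z) < r z) (hne : Z₀.Nonempty) {κ Dg : ℕ}
    (hκ : Fintype.card Z + κ ≤ numEdges T) (hDg : ∀ u, (nb H u).card ≤ Dg)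
    {f : Z → V} (hf : f ∈ Emb T H Finset.univ) :
    (∏ z ∈ Finset.univ.filter (fun z => z ∉ Z₀), ((cand H r par z f).card : ℝ)) *
        (6 * (n : ℝ)) ^ κ ≤
      (36 * ((n : ℝ) * q)) ^ (Finset.univ.filter (fun z => z ∉ Z₀)).card *
        (12 * ((n : ℝ) * q)) ^ numEdges T * ((Fintype.card Z * (1 + Dg) : ℕ) : ℝ) ^ κ := by
  rcases mem_Emb.mp hf with ⟨hfi, hfa, _⟩
  obtain ⟨a, ha'⟩ : ∃ a, a = (n : ℝ) * q := ⟨_, rfl⟩
  rw [← ha'] at ha ⊢
  have ha0 : 0 < a := by linarith
  obtain ⟨Zc, hZc⟩ : ∃ Zc, Zc = Finset.univ.filter (fun z => z ∉ Z₀) := ⟨_, rfl⟩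
  rw [← hZc]
  have hmZc : ∀ z, z ∈ Zc ↔ z ∉ Z₀ := by
    intro z
    simp [hZc]
  obtain ⟨ch, hch⟩ : ∃ ch : Z → Finset Z, ∀ y, ch y = Zc.filter (fun z => par z = y) :=
    ⟨fun y => Zc.filter (fun z => par z = y), fun _ => rfl⟩
  have hmch : ∀ y z, z ∈ ch y ↔ z ∉ Z₀ ∧ par z = y := by
    intro y z
    rw [hch, Finset.mem_filter, hmZc]
  obtain ⟨P, hP⟩ : ∃ P, P = Zc.image par := ⟨_, rfl⟩
  have hmP : ∀ y, y ∈ P → ∃ z, z ∉ Z₀ ∧ par z = y := by
    intro y hy
    rw [hP] at hy
    obtain ⟨z, hz, hzy⟩ := Finset.mem_image.mp hy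
    exact ⟨z, (hmZc z).mp hz, hzy⟩
  have hcn' : ∀ y, ∃ C : Finset V, y ∈ P →
      (∀ z, z ∉ Z₀ → par z = y → f z ∈ C ∧ cand H r par z f ⊆ C) ∧
      (∀ w ∈ C, H.Adj (f y) w) ∧ (∀ w ∈ C, ∀ z', f z' = w → r y < r z') ∧
      (∀ z ∈ Z₀, f z ∉ C) := by
    intro y
    by_cases hy : y ∈ P
    · obtain ⟨C, hC⟩ := first_child hr hpar hfi hfa y (hmP y hy)
      exact ⟨C, fun _ => hC⟩
    · exact ⟨∅, fun h => absurd h hy⟩
  choose cn hcn using hcn'
  obtain ⟨m, hm⟩ : ∃ m : Z → ℕ, ∀ y, m y = (cn y).card := ⟨fun y => (cn y).card, fun _ => rfl⟩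
  have hchm : ∀ y ∈ P, (ch y).card ≤ m y := by
    intro y hy
    have h1 : (ch y).image f ⊆ cn y := by
      intro w hw
      obtain ⟨z, hz, rfl⟩ := Finset.mem_image.mp hw
      rcases (hmch y z).mp hz with ⟨h4, h5⟩
      exact ((hcn y hy).1 z h4 h5).1
    have h2 := Finset.card_le_card h1
    rwa [Finset.card_image_of_injective _ hfi, ← hm] at h2
  have hmDg : ∀ y ∈ P, m y ≤ Dg := by
    intro y hy
    rw [hm]
    refine le_trans (Finset.card_le_card ?_) (hDg (f y))
    intro w hw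
    exact mem_nb.mpr ((hcn y hy).2.1 w hw)
  obtain ⟨Big, hBig⟩ : ∃ Big, Big = P.filter (fun y => 36 * a < (m y : ℝ)) := ⟨_, rfl⟩
  have hmBig : ∀ y, y ∈ Big ↔ y ∈ P ∧ 36 * a < (m y : ℝ) := by
    intro y
    rw [hBig, Finset.mem_filter]
  have hBigP : Big ⊆ P := fun y hy => ((hmBig y).mp hy).1
  obtain ⟨NB, hNB1, hNB2⟩ : ∃ NB : Z → Finset V, (∀ y ∈ Big, NB y = cn y) ∧
      ∀ y, y ∉ Big → NB y = ∅ :=
    ⟨fun y => if y ∈ Big then cn y else ∅, fun y hy => if_pos hy, fun y hy => if_neg hy⟩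
  obtain ⟨up, hup⟩ : ∃ up : Z → Finset V, ∀ y, up y =
      (Finset.univ.filter (fun y' => T.Adj y y' ∧ r y < r y')).image f :=
    ⟨fun y => _, fun _ => rfl⟩
  have hupcard : ∑ y, (up y).card = numEdges T := by
    rw [← sum_ups hr.inj]
    refine Finset.sum_congr rfl fun y _ => ?_
    rw [hup, Finset.card_image_of_injective _ hfi]
  obtain ⟨sb, hsb⟩ : ∃ sb, sb = ∑ y ∈ Big, m y := ⟨_, rfl⟩
  have hnbsum : ∑ y, (NB y).card = sb := by
    rw [hsb, ← Finset.sum_subset (Finset.subset_univ Big)]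
    · refine Finset.sum_congr rfl fun y hy => ?_
      rw [hNB1 y hy, hm]
    · intro y _ hy
      rw [hNB2 y hy, Finset.card_empty]
  have hsbZ : Fintype.card Z + sb ≤ Fintype.card Z * (1 + Dg) := by
    have h1 : sb ≤ Big.card * Dg := by
      rw [hsb]
      exact Finset.sum_le_card_nsmul _ _ _ fun y hy => hmDg y (hBigP hy)
    have h2 : Big.card ≤ Fintype.card Z := Finset.card_le_univ _
    have h3 : Big.card * Dg ≤ Fintype.card Z * Dg := Nat.mul_le_mul_right _ h2
    rw [Nat.mul_add, mul_one]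
    omega
  have hZne : Nonempty Z := ⟨hne.choose⟩
  have hbudget := closing_budget (r := r) hn hq hV hO (by rw [← ha']; exact ha) hfi hZne up NB
    (by
      intro y w hw
      rw [hup] at hw
      obtain ⟨z, _, rfl⟩ := Finset.mem_image.mp hw
      exact ⟨z, rfl⟩)
    (by
      intro y w hw
      rcases Finset.mem_union.mp hw with h1 | h1
      · rw [hup] at h1
        obtain ⟨z, hz, rfl⟩ := Finset.mem_image.mp h1
        exact hfa _ _ (Finset.mem_filter.mp hz).2.1
      · by_cases hy : y ∈ Big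
        · rw [hNB1 y hy] at h1
          exact (hcn y (hBigP hy)).2.1 w h1
        · rw [hNB2 y hy] at h1
          simp at h1)
    (by
      intro y w hw z' hz'
      rcases Finset.mem_union.mp hw with h1 | h1
      · rw [hup] at h1
        obtain ⟨z, hz, h2⟩ := Finset.mem_image.mp h1
        have h3 := hfi (h2.trans hz'.symm)
        rw [h3] at hz
        exact (Finset.mem_filter.mp hz).2.2
      · by_cases hy : y ∈ Big
        · rw [hNB1 y hy] at h1
          exact (hcn y (hBigP hy)).2.2.1 w h1 z' hz'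
        · rw [hNB2 y hy] at h1
          simp at h1)
    hupcard hκ (τ := Fintype.card Z * (1 + Dg)) (by rw [hnbsum]; exact hsbZ)
  rw [hnbsum, ← ha'] at hbudget
  -- the sums
  have hsumch : ∑ y ∈ P, (ch y).card = Zc.card := by
    simp only [hch]
    rw [hP]
    exact (Finset.card_eq_sum_card_fiberwise (fun z hz => Finset.mem_coe.mpr
      (Finset.mem_image_of_mem _ (Finset.mem_coe.mp hz)))).symm
  have hBigprod : (∏ y ∈ Big, (((m y)! : ℕ) : ℝ)) ≤ ∏ y, (((NB y).card)! : ℝ) := by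
    have h1 : ∏ y ∈ Big, (m y)! ≤ ∏ y, ((NB y).card)! := by
      have h2 : ∏ y ∈ Big, (m y)! = ∏ y ∈ Big, ((NB y).card)! := by
        refine Finset.prod_congr rfl fun y hy => ?_
        rw [hNB1 y hy, hm]
      rw [h2]
      exact Finset.prod_le_prod_of_subset_of_one_le' (Finset.subset_univ _)
        (fun u _ _ => Nat.factorial_pos _)
    exact_mod_cast h1
  have h12 : (0 : ℝ) < 12 * a := by positivity
  have hprod1 : (∏ z ∈ Zc, ((cand H r par z f).card : ℝ)) ≤
      ∏ y ∈ P, ((m y : ℝ) ^ (ch y).card) := by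
    rw [← Finset.prod_fiberwise_of_maps_to (s := Zc) (t := P) (g := par)
      (fun z hz => by rw [hP]; exact Finset.mem_image_of_mem _ hz)]
    refine Finset.prod_le_prod (fun _ _ => Finset.prod_nonneg fun _ _ => by positivity) ?_
    intro y hy
    calc ∏ z ∈ Zc.filter (fun z => par z = y), ((cand H r par z f).card : ℝ)
        ≤ ∏ z ∈ Zc.filter (fun z => par z = y), (m y : ℝ) := by
          refine Finset.prod_le_prod (fun _ _ => by positivity) fun z hz => ?_
          rcases Finset.mem_filter.mp hz with ⟨h4, h5⟩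
          rw [hm]
          exact_mod_cast Finset.card_le_card ((hcn y hy).1 z ((hmZc z).mp h4) h5).2
      _ = _ := by rw [Finset.prod_const, hch]
  have hprod2 := parents_prod (x := fun y => (ch y).card) hBigP (m := m) ha0
    (fun y hy => hchm y (hBigP hy)) (fun y hy => ((hmBig y).mp hy).2)
    (fun y hy => by
      rcases Finset.mem_sdiff.mp hy with ⟨h2, h3⟩
      by_contra hcon
      exact h3 ((hmBig y).mpr ⟨h2, by linarith⟩))
  rw [hsumch, ← hsb] at hprod2
  obtain ⟨τ, hτ⟩ : ∃ τ : ℝ, τ = ((Fintype.card Z * (1 + Dg) : ℕ) : ℝ) ^ κ := ⟨_, rfl⟩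
  rw [← hτ] at hbudget ⊢
  have hτ0 : 0 ≤ τ := by rw [hτ]; positivity
  obtain ⟨A, hA⟩ : ∃ A : ℝ, A = (6 * (n : ℝ)) ^ κ := ⟨_, rfl⟩
  rw [← hA] at hbudget ⊢
  have hA0 : 0 ≤ A := by rw [hA]; positivity
  have hfinal : ((∏ z ∈ Zc, ((cand H r par z f).card : ℝ)) * A) * (12 * a) ^ sb ≤
      ((36 * a) ^ Zc.card * (12 * a) ^ numEdges T * τ) * (12 * a) ^ sb := by
    calc ((∏ z ∈ Zc, ((cand H r par z f).card : ℝ)) * A) * (12 * a) ^ sb
        = ((∏ z ∈ Zc, ((cand H r par z f).card : ℝ)) * (12 * a) ^ sb) * A := by ring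
      _ ≤ ((∏ y ∈ P, ((m y : ℝ) ^ (ch y).card)) * (12 * a) ^ sb) * A :=
          mul_le_mul_of_nonneg_right (mul_le_mul_of_nonneg_right hprod1 (by positivity)) hA0
      _ ≤ ((36 * a) ^ Zc.card * ∏ y ∈ Big, (((m y)! : ℕ) : ℝ)) * A :=
          mul_le_mul_of_nonneg_right hprod2 hA0
      _ ≤ ((36 * a) ^ Zc.card * ∏ y, (((NB y).card)! : ℝ)) * A := by
          refine mul_le_mul_of_nonneg_right ?_ hA0
          exact mul_le_mul_of_nonneg_left hBigprod (by positivity)
      _ = (36 * a) ^ Zc.card * ((∏ y, (((NB y).card)! : ℝ)) * A) := by ring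
      _ ≤ (36 * a) ^ Zc.card * ((12 * a) ^ (numEdges T + sb) * τ) :=
          mul_le_mul_of_nonneg_left hbudget (by positivity)
      _ = _ := by
          rw [pow_add]
          ring
  exact le_of_mul_le_mul_right hfinal (by positivity)

/-- The number of extensions of a map from a set of vertices. -/
theorem ext_closing {T : SimpleGraph Z} {H : SimpleGraph V} {n : ℕ} {q : ℝ} (hn : 0 < n)
    (hq : 0 < q) (hV : Fintype.card V ≤ n) (hO : OBound H n q) (ha : 1 ≤ (n : ℝ) * q)
    {Z₀ : Finset Z} {r : Z → ℕ} (hr : IsRank T Z₀ r) (hne : Z₀.Nonempty) {κ Dg : ℕ}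
    (hκ : Fintype.card Z + κ ≤ numEdges T) (hDg : ∀ u, (nb H u).card ≤ Dg) (g : Z → V) :
    ((Ext T H r Z₀.card g).card : ℝ) * (6 * (n : ℝ)) ^ κ ≤
      (36 * ((n : ℝ) * q)) ^ (Finset.univ.filter (fun z => z ∉ Z₀)).card *
        (12 * ((n : ℝ) * q)) ^ numEdges T * ((Fintype.card Z * (1 + Dg) : ℕ) : ℝ) ^ κ := by
  have hpar' : ∀ z, ∃ y, z ∉ Z₀ → T.Adj y z ∧ r y < r z := by
    intro z
    by_cases hz : z ∈ Z₀
    · exact ⟨z, fun h => absurd hz h⟩
    · obtain ⟨y, hy⟩ := hr.par z hz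
      exact ⟨y, fun _ => hy⟩
  choose par hpar using hpar'
  have ha0 : 0 < (n : ℝ) * q := by linarith
  by_cases hE : (Ext T H r Z₀.card g).Nonempty
  · obtain ⟨f, hf, hbd⟩ := ext_greedy (M := Finset.univ.sup r + 1) hr hpar
      (fun z => Nat.lt_succ_of_le (Finset.le_sup (Finset.mem_univ z))) _ Z₀.card g rfl le_rfl hE
    have hfilter : Finset.univ.filter (fun z => Z₀.card ≤ r z) =
        Finset.univ.filter (fun z => z ∉ Z₀) := by
      ext z
      simp only [Finset.mem_filter, Finset.mem_univ, true_and, not_lt, ← hr.low z]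
    rw [hfilter] at hbd
    have h1 : ((Ext T H r Z₀.card g).card : ℝ) ≤
        ∏ z ∈ Finset.univ.filter (fun z => z ∉ Z₀), ((cand H r par z f).card : ℝ) := by
      exact_mod_cast hbd
    exact (mul_le_mul_of_nonneg_right h1 (by positivity)).trans
      (prod_cand_closing hn hq hV hO ha hr hpar hne hκ hDg (mem_Ext.mp hf).1)
  · rw [Finset.not_nonempty_iff_eq_empty] at hE
    rw [hE]
    simp only [Finset.card_empty, Nat.cast_zero, zero_mul]
    positivity

end Vale.Agent.Lib.P064r
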