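import Vale.Agent.Lib.P064r.LongCyc
import Vale.Agent.Lib.P064r.ExtK

/-!
The bound for a connected graph through a closed path in it, and the count of closed paths.
-/

namespace Vale.Agent.Lib.P064r

open Finset SimpleGraph Vale.Agent.Lib.P064 Vale.Agent.Lib.P064k
open scoped Classical Nat

set_option linter.unusedSectionVars false
set_option linter.unusedVariables false

universe u u' v

variable {U : Type u'} [Fintype U] {V₀ : Type v} [Fintype V₀] {Z : Type u} [Fintype Z]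

/-- The number of embeddings through the closed path. -/
theorem emb_core {H : SimpleGraph V₀} {n : ℕ} {q : ℝ} (hn : 0 < n) (hq : 0 < q)
    (hV : Fintype.card V₀ ≤ n) (hO : OBound H n q) (ha : 1 ≤ (n : ℝ) * q) {j : Z → U}
    (hj : Function.Injective j) {T : SimpleGraph Z} (hT : T.Connected) {κ Dg : ℕ}
    (hκ : Fintype.card Z + κ ≤ numEdges T) (hDg : ∀ u, (nb H u).card ≤ Dg) {y₀ : ℕ → Z} {k : ℕ}
    (hy₀ : ClosedP y₀ k) (hyadj : ∀ i, i < k → T.Adj (y₀ i) (y₀ (i + 1))) :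
    ((Emb T H Finset.univ).card : ℝ) * (6 * (n : ℝ)) ^ κ ≤
      ((Emb (cycG (pEdges (fun i => j (y₀ i)) k)) H Finset.univ).card : ℝ) *
        ((36 * ((n : ℝ) * q)) ^ (Fintype.card Z - k) * (12 * ((n : ℝ) * q)) ^ numEdges T *
          ((Fintype.card Z * (1 + Dg) : ℕ) : ℝ) ^ κ) := by
  have hy : ClosedP (fun i => j (y₀ i)) k := hy₀.comp hj
  obtain ⟨K, hKd⟩ : ∃ K, K = pEdges (fun i => j (y₀ i)) k := ⟨_, rfl⟩
  rw [← hKd]
  have hmemK : ∀ x, x ∈ vtx K ↔ ∃ i, i < k ∧ j (y₀ i) = x := by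
    intro x
    rw [hKd]
    exact hy.mem
  have hKc : (vtx K).card = k := by
    rw [hKd]
    exact hy.vtxCard
  have hi' : ∀ x : ↥(vtx K), ∃ z, j z = x.1 := by
    intro x
    obtain ⟨i, _, hi⟩ := (hmemK x.1).mp x.2
    exact ⟨_, hi⟩
  choose i hi using hi'
  have hiinj : Function.Injective i := by
    intro x y hxy
    apply Subtype.ext
    rw [← hi x, ← hi y, hxy]
  obtain ⟨Z₀, hZ₀⟩ : ∃ Z₀ : Finset Z, Z₀ = Finset.univ.filter (fun z => j z ∈ vtx K) := ⟨_, rfl⟩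
  have hmZ₀ : ∀ z, z ∈ Z₀ ↔ j z ∈ vtx K := by
    intro z
    rw [hZ₀]
    simp
  have hii : ∀ z (h : j z ∈ vtx K), i ⟨j z, h⟩ = z := by
    intro z h
    exact hj (hi ⟨j z, h⟩)
  have hZ₀c : Z₀.card = k := by
    rw [← hKc]
    have h1 : Z₀.image j = vtx K := by
      ext x
      simp only [Finset.mem_image]
      constructor
      · rintro ⟨z, hz, rfl⟩
        exact (hmZ₀ z).mp hz
      · intro hx
        exact ⟨i ⟨x, hx⟩, (hmZ₀ _).mpr (by rw [hi ⟨x, hx⟩]; exact hx), hi ⟨x, hx⟩⟩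
    rw [← h1, Finset.card_image_of_injective _ hj]
  have hk3 := hy.three
  have hZ₀ne : Z₀.Nonempty := by
    rw [← Finset.card_pos, hZ₀c]
    omega
  obtain ⟨r, hr⟩ := exists_rank hT hZ₀ne
  have hZcc : (Finset.univ.filter (fun z => z ∉ Z₀)).card = Fintype.card Z - k := by
    rw [Finset.filter_not, Finset.filter_mem_eq_inter, Finset.univ_inter,
      Finset.card_sdiff_of_subset (Finset.subset_univ _), Finset.card_univ, hZ₀c]
  have hext := fun g => ext_closing hn hq hV hO ha hr hZ₀ne hκ hDg g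
  rw [hZcc] at hext
  obtain ⟨Bd, hBd⟩ : ∃ Bd, Bd = (36 * ((n : ℝ) * q)) ^ (Fintype.card Z - k) *
      (12 * ((n : ℝ) * q)) ^ numEdges T * ((Fintype.card Z * (1 + Dg) : ℕ) : ℝ) ^ κ := ⟨_, rfl⟩
  rw [← hBd] at hext ⊢
  have ha0 : 0 < (n : ℝ) * q := by linarith
  have hBd0 : 0 ≤ Bd := by rw [hBd]; positivity
  obtain ⟨A, hA⟩ : ∃ A : ℝ, A = (6 * (n : ℝ)) ^ κ := ⟨_, rfl⟩
  rw [← hA] at hext ⊢
  have hA0 : 0 ≤ A := by rw [hA]; positivity
  obtain ⟨res, hres⟩ : ∃ res : (Z → V₀) → (↥(vtx K) → V₀), ∀ f, res f = fun x => f (i x) :=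
    ⟨fun f x => f (i x), fun _ => rfl⟩
  have hresmem : ∀ f ∈ Emb T H Finset.univ, res f ∈ Emb (cycG K) H Finset.univ := by
    intro f hf
    rcases mem_Emb.mp hf with ⟨h1, h2, _⟩
    refine mem_Emb.mpr ⟨?_, ?_, fun _ => Finset.mem_univ _⟩
    · rw [hres]
      exact fun x y hxy => hiinj (h1 hxy)
    · intro x y hxy
      rw [hres]
      refine h2 _ _ ?_
      have hKmem : ∀ e, e ∈ K → ∃ m, m < k ∧ s(j (y₀ m), j (y₀ (m + 1))) = e := by
        rw [hKd]
        exact fun e he => mem_pEdges.mp he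
      obtain ⟨m, hm, hme⟩ := hKmem _ hxy.2
      rcases Sym2.eq_iff.mp hme with ⟨h5, h6⟩ | ⟨h5, h6⟩
      · have h7 : i x = y₀ m := hj ((hi x).trans h5.symm)
        have h8 : i y = y₀ (m + 1) := hj ((hi y).trans h6.symm)
        rw [h7, h8]
        exact hyadj m hm
      · have h7 : i x = y₀ (m + 1) := hj ((hi x).trans h6.symm)
        have h8 : i y = y₀ m := hj ((hi y).trans h5.symm)
        rw [h7, h8]
        exact (hyadj m hm).symm
  have h1 : (Emb T H Finset.univ).card = ∑ g ∈ Emb (cycG K) H Finset.univ,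
      ((Emb T H Finset.univ).filter (fun f => res f = g)).card :=
    Finset.card_eq_sum_card_fiberwise (fun f hf => Finset.mem_coe.mpr
      (hresmem f (Finset.mem_coe.mp hf)))
  rw [h1]
  push_cast
  rw [← nsmul_eq_mul, ← Finset.sum_const, Finset.sum_mul]
  refine Finset.sum_le_sum fun g _ => ?_
  by_cases hne : ((Emb T H Finset.univ).filter (fun f => res f = g)).Nonempty
  · obtain ⟨f₀, hf₀⟩ := hne
    have hf₀g := (Finset.mem_filter.mp hf₀).2
    refine le_trans ?_ (hext f₀)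
    refine mul_le_mul_of_nonneg_right ?_ hA0
    have hsub : (Emb T H Finset.univ).filter (fun f => res f = g) ⊆ Ext T H r Z₀.card f₀ := by
      intro f hf
      rcases Finset.mem_filter.mp hf with ⟨h2, h3⟩
      refine mem_Ext.mpr ⟨h2, fun z hz => ?_⟩
      have h4 : z ∈ Z₀ := (hr.low z).mp hz
      have h5 : j z ∈ vtx K := (hmZ₀ z).mp h4
      have h6 := congrFun (h3.trans hf₀g.symm) ⟨j z, h5⟩
      rw [hres, hres] at h6
      simp only [hii] at h6
      exact h6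
    exact_mod_cast Finset.card_le_card hsub
  · rw [Finset.not_nonempty_iff_eq_empty] at hne
    rw [hne]
    simpa using hBd0

/-- The count of closed paths of any length. -/
theorem cyc_bound {H : SimpleGraph V₀} {n : ℕ} {q : ℝ} (hn : 0 < n) (hq : 0 < q)
    (hV : Fintype.card V₀ ≤ n) (hyp : ∀ F : H.Subgraph, 1 ≤ expCopies n q F.coe)
    {ι : V₀ → U} (hι : Function.Injective ι) (hU : Fintype.card U = 2 * n)
    (ha : 2 ≤ (n : ℝ) * q) (ha2 : ((n : ℝ) * q) ^ 2 ≤ n)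
    (hnum : ∀ k', (n : ℝ) < ((n : ℝ) * q) ^ (k' + 1) → ((n : ℝ) * q) ^ 2 ≤ 4 ^ k')
    {y : ℕ → U} {k : ℕ} (hy : ClosedP y k) :
    ((Emb (cycG (pEdges y k)) H Finset.univ).card : ℝ) ≤ (256 * constK * ((n : ℝ) * q)) ^ k := by
  have hK1 : (1 : ℝ) ≤ constK := by
    have := le_constK
    linarith
  have hK0 : (0 : ℝ) < constK := by linarith
  have hk3 := hy.three
  obtain ⟨A, hA⟩ : ∃ A, A = (n : ℝ) * q := ⟨_, rfl⟩
  rw [← hA] at ha ha2 hnum ⊢
  have hA0 : 0 < A := by linarith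
  have hA1 : 1 < A := by linarith
  have hk2 : (k : ℝ) ≤ 2 ^ k := by
    exact_mod_cast Nat.lt_two_pow_self.le
  have h4k : (1 : ℝ) ≤ 4 ^ k := one_le_pow₀ (by norm_num)
  by_cases hal : A ^ (k + 1) ≤ n
  · have h1 := short_count hn hq hV hyp hι hU (by rw [← hA]; exact ha) hy (by rw [← hA]; exact hal)
    rw [← hA] at h1
    refine h1.trans ?_
    have e1 : (256 * constK * A) ^ k = 256 ^ k * constK ^ k * A ^ k := by
      rw [mul_pow, mul_pow]
    have e2 : 3 * (k : ℝ) * 2 ^ (k + 1) * (2 * A) ^ k = (3 * (k : ℝ) * 2 ^ (k + 1) * 2 ^ k) * A ^ k := by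
      rw [mul_pow]
      ring
    rw [e1, e2]
    refine mul_le_mul_of_nonneg_right ?_ (by positivity)
    have h3 : (1 : ℝ) ≤ constK ^ k := one_le_pow₀ hK1
    have h8 : (8 : ℝ) ≤ 8 ^ k := by
      calc (8 : ℝ) = 8 ^ 1 := by norm_num
        _ ≤ 8 ^ k := pow_le_pow_right₀ (by norm_num) (by omega)
    have h4 : 3 * (k : ℝ) * 2 ^ (k + 1) * 2 ^ k ≤ 256 ^ k := by
      have e3 : (256 : ℝ) ^ k = 8 ^ k * 2 ^ k * 2 ^ k * 2 ^ k * 4 ^ k := by
        rw [← mul_pow, ← mul_pow, ← mul_pow, ← mul_pow]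
        norm_num
      have e4 : 3 * (k : ℝ) * 2 ^ (k + 1) * 2 ^ k = 6 * (k : ℝ) * 2 ^ k * 2 ^ k := by
        rw [pow_succ]
        ring
      rw [e3, e4]
      have h5 : 6 * (k : ℝ) ≤ 8 ^ k * 2 ^ k := by
        have h6 : (6 : ℝ) ≤ 8 ^ k := by linarith
        exact mul_le_mul h6 hk2 (by positivity) (by positivity)
      have h7 : (1 : ℝ) ≤ 8 ^ k := by linarith
      calc 6 * (k : ℝ) * 2 ^ k * 2 ^ k ≤ (8 ^ k * 2 ^ k) * 2 ^ k * 2 ^ k :=
            mul_le_mul_of_nonneg_right (mul_le_mul_of_nonneg_right h5 (by positivity)) (by positivity)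
        _ = (8 ^ k * 2 ^ k * 2 ^ k * 2 ^ k) * 1 := by ring
        _ ≤ (8 ^ k * 2 ^ k * 2 ^ k * 2 ^ k) * 4 ^ k := by
            exact mul_le_mul_of_nonneg_left h4k (by positivity)
    calc 3 * (k : ℝ) * 2 ^ (k + 1) * 2 ^ k = (3 * (k : ℝ) * 2 ^ (k + 1) * 2 ^ k) * 1 := by ring
      _ ≤ 256 ^ k * constK ^ k := mul_le_mul h4 h3 (by norm_num) (by positivity)
  · push Not at hal
    have hnR : (1 : ℝ) ≤ n := by exact_mod_cast hn
    obtain ⟨m, hm1, hm2⟩ := exists_nat_pow_near hnR hA1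
    have hm2' : 2 ≤ m := by
      have h1 : A ^ 2 < A ^ (m + 1) := lt_of_le_of_lt ha2 hm2
      have := (pow_lt_pow_iff_right₀ hA1).mp h1
      omega
    obtain ⟨l, rfl⟩ : ∃ l, m = l + 1 := ⟨m - 1, by omega⟩
    have hl : 1 ≤ l := by omega
    have hlk : l < k := by
      have h1 : A ^ (l + 1) < A ^ (k + 1) := lt_of_le_of_lt hm1 hal
      have := (pow_lt_pow_iff_right₀ hA1).mp h1
      omega
    have h1 := long_count hn hq hV hyp (by rw [← hA]; exact ha) hy hl hlk (by rw [← hA]; exact hm1)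
    refine h1.trans ?_
    obtain ⟨h, hh⟩ : ∃ h, h = k - l := ⟨_, rfl⟩
    rw [← hh]
    have hhl : h + l = k := by omega
    have ea : constK * (n : ℝ) * q = constK * A := by rw [hA]; ring
    rw [ea]
    have ha4 := hnum k hal
    have hh2 : ((h : ℝ) + 1) ≤ 2 ^ k := by
      have h2 : h + 1 ≤ k := by omega
      have h3 : ((h + 1 : ℕ) : ℝ) ≤ (k : ℝ) := by exact_mod_cast h2
      push_cast at h3
      linarith
    have hKh : constK ^ h ≤ constK ^ k := pow_le_pow_right₀ hK1 (by omega)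
    have h2l : (2 : ℝ) ^ (2 * l + 1) ≤ 2 * 4 ^ k := by
      have e3 : (2 : ℝ) ^ (2 * l + 1) = 2 * 4 ^ l := by
        rw [pow_succ, pow_mul]
        norm_num
        ring
      rw [e3]
      have : (4 : ℝ) ^ l ≤ 4 ^ k := pow_le_pow_right₀ (by norm_num) (by omega)
      linarith
    have h24 : (24 : ℝ) ≤ 4 ^ k := by
      calc (24 : ℝ) ≤ 4 ^ 3 := by norm_num
        _ ≤ 4 ^ k := pow_le_pow_right₀ (by norm_num) hk3
    have hnA : (n : ℝ) ≤ A ^ l * A ^ 2 := by
      have e3 : A ^ l * A ^ 2 = A ^ (l + 1 + 1) := by ring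
      rw [e3]
      exact hm2.le
    have hnb : (n : ℝ) ≤ A ^ l * 4 ^ k :=
      hnA.trans (mul_le_mul_of_nonneg_left ha4 (by positivity))
    have h2k : (2 : ℝ) ≤ 2 ^ k := by
      calc (2 : ℝ) = 2 ^ 1 := by norm_num
        _ ≤ 2 ^ k := pow_le_pow_right₀ (by norm_num) (by omega)
    have e256 : (256 * constK * A) ^ k = (2 ^ k * 4 ^ k * 2 ^ k * 4 ^ k * 4 ^ k) * (constK ^ k * A ^ k) := by
      have : (256 : ℝ) = 2 * 4 * 2 * 4 * 4 := by norm_num
      rw [this, mul_pow, mul_pow, mul_pow, mul_pow, mul_pow, mul_pow]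
      ring
    rw [e256]
    have eAk : A ^ k = A ^ h * A ^ l := by rw [← hhl, pow_add]
    calc (2 : ℝ) ^ (2 * l + 1) * (((h : ℝ) + 1) * (constK * A) ^ h * (24 * (n : ℝ)))
        ≤ (2 * 4 ^ k) * ((2 ^ k * (constK ^ k * A ^ h)) * (4 ^ k * (A ^ l * 4 ^ k))) := by
          refine mul_le_mul h2l ?_ (by positivity) (by positivity)
          refine mul_le_mul ?_ ?_ (by positivity) (by positivity)
          · rw [mul_pow]
            refine mul_le_mul hh2 ?_ (by positivity) (by positivity)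
            exact mul_le_mul_of_nonneg_right hKh (by positivity)
          · exact mul_le_mul h24 hnb (by positivity) (by positivity)
      _ = 2 * (4 ^ k * 2 ^ k * 4 ^ k * 4 ^ k) * (constK ^ k * (A ^ h * A ^ l)) := by ring
      _ ≤ 2 ^ k * (4 ^ k * 2 ^ k * 4 ^ k * 4 ^ k) * (constK ^ k * (A ^ h * A ^ l)) := by
          refine mul_le_mul_of_nonneg_right ?_ (by positivity)
          exact mul_le_mul_of_nonneg_right h2k (by positivity)
      _ = _ := by
          rw [eAk]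
          ring

end Vale.Agent.Lib.P064r
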