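import Vale.Agent.Lib.P064r.Band3

/-!
The bound `p_c ≤ C (log n)^{3/2} (log log n)^3 p_E` for all graphs.
-/

namespace Vale.Agent.Lib.P064r

open Finset SimpleGraph Vale.Agent.Lib.P064 Vale.Agent.Lib.P064k
open scoped Classical Nat

set_option linter.unusedSectionVars false
set_option linter.unusedVariables false

/-- The parameter `m` against the double logarithm. -/
lemma m_le_loglog {n : ℕ} (hn : 2 ≤ n) (hell : 256 ≤ Nat.log 2 n + 1) :
    ((Nat.log 2 (2 * (Nat.log 2 n + 1)) + 1 : ℕ) : ℝ) ≤ 5 * Real.log (Real.log n + 2) := by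
  have h1 := half_ell_le_log hn (by omega)
  obtain ⟨N, hN⟩ : ∃ N, N = Real.log n := ⟨_, rfl⟩
  rw [← hN] at h1 ⊢
  obtain ⟨ell, hell'⟩ : ∃ ell, ell = Nat.log 2 n + 1 := ⟨_, rfl⟩
  rw [← hell'] at h1 hell ⊢
  have hellR : (256 : ℝ) ≤ ell := by exact_mod_cast hell
  have hN128 : 128 ≤ N := by linarith
  obtain ⟨x, hx⟩ : ∃ x, x = Nat.log 2 (2 * ell) := ⟨_, rfl⟩
  rw [← hx]
  have h2 : 2 ^ x ≤ 2 * ell := by
    rw [hx]
    exact Nat.pow_log_le_self 2 (by omega)
  have h3 : (2 : ℝ) ^ x ≤ 4 * N := by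
    have h4 : ((2 ^ x : ℕ) : ℝ) ≤ ((2 * ell : ℕ) : ℝ) := Nat.cast_le.mpr h2
    push_cast at h4
    linarith
  have hlog : (x : ℝ) * Real.log 2 ≤ Real.log 4 + Real.log N := by
    have h5 : Real.log ((2 : ℝ) ^ x) ≤ Real.log (4 * N) :=
      Real.log_le_log (by positivity) h3
    rw [Real.log_pow, Real.log_mul (by norm_num) (by linarith)] at h5
    exact h5
  have h4 : Real.log 4 = 2 * Real.log 2 := by
    have : (4 : ℝ) = 2 ^ 2 := by norm_num
    rw [this, Real.log_pow]
    norm_num
  have hl2 := Real.log_two_gt_d9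
  have hl2' := Real.log_two_lt_d9
  have hΛ : Real.log N ≤ Real.log (N + 2) := Real.log_le_log (by linarith) (by linarith)
  have hΛ1 : 1 ≤ Real.log (N + 2) := by
    rw [Real.le_log_iff_exp_le (by linarith)]
    have := Real.exp_one_lt_d9
    linarith
  have hlogN : 0 ≤ Real.log N := Real.log_nonneg (by linarith)
  have hx1 : (x : ℝ) ≤ 2 + (3 / 2) * Real.log N := by
    have h5 : (x : ℝ) * Real.log 2 ≤ (2 + (3 / 2) * Real.log N) * Real.log 2 := by
      rw [h4] at hlog
      nlinarith
    exact le_of_mul_le_mul_right h5 (by linarith)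
  push_cast
  linarith

/-- The bound `p_c ≤ C (log n)^{3/2} (log log n)^3 p_E` for all graphs. -/
theorem pCrit_all_loglog : ∃ C : ℝ, 0 < C ∧
    ∀ (n : ℕ) (V : Type) [Fintype V] (H : SimpleGraph V),
    2 ≤ n → Fintype.card V ≤ n → 1 ≤ numEdges H →
    pCrit n H ≤ C * (Real.log n) ^ ((3 : ℝ) / 2) * (Real.log (Real.log n + 2)) ^ 3 * pExp n H := by
  obtain ⟨C₀, hC₀, hRF⟩ := pCrit_resonance_free
  have hT := constT_pos
  have hU : (0 : ℝ) < constU := constU_pos'
  have hLow := constLow_pos
  obtain ⟨K, hK⟩ : ∃ K : ℝ, K = 32 * constT + constLow + 41472 * constU + 7200 * C₀ := ⟨_, rfl⟩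
  have hK1 : 32 * constT ≤ K := by
    rw [hK]
    have : 0 ≤ 41472 * constU := by positivity
    have : 0 ≤ 7200 * C₀ := by positivity
    linarith
  have hK2 : constLow ≤ K := by
    rw [hK]
    have : 0 ≤ 41472 * constU := by positivity
    have : 0 ≤ 7200 * C₀ := by positivity
    linarith
  have hK3 : 41472 * constU ≤ K := by
    rw [hK]
    have : 0 ≤ 7200 * C₀ := by positivity
    linarith
  have hK4 : 7200 * C₀ ≤ K := by
    rw [hK]
    have : 0 ≤ 41472 * constU := by positivity
    linarith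
  have hK0 : 0 < K := by
    have : 0 < 7200 * C₀ := by positivity
    linarith
  refine ⟨K, hK0, ?_⟩
  intro n V _ H hn hV hE
  have hnR : (2 : ℝ) ≤ n := by exact_mod_cast hn
  have hn0 : (0 : ℝ) < n := by linarith
  obtain ⟨hp0, _, hp1⟩ := pExp_mem (H := H) hV
  have hppos : 0 < pExp n H := (hyp_double hV hE hp0 hp1).1
  obtain ⟨N, hN⟩ : ∃ N, N = Real.log n := ⟨_, rfl⟩
  obtain ⟨p, hp⟩ : ∃ p, p = pExp n H := ⟨_, rfl⟩
  rw [← hp] at hp0 hppos ⊢
  rw [← hN]
  have hNhalf : 1 / 2 ≤ N := by
    rw [hN]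
    have h1 : Real.log 2 ≤ Real.log n := Real.log_le_log (by norm_num) hnR
    have h2 := Real.log_two_gt_d9
    linarith
  have hN0 : 0 < N := by linarith
  obtain ⟨Λ, hΛ⟩ : ∃ Λ, Λ = Real.log (N + 2) := ⟨_, rfl⟩
  rw [← hΛ]
  have hΛ0 : (1 / 2 : ℝ) ≤ Λ := by
    have h1 : Real.log 2 ≤ Λ := by
      rw [hΛ]
      exact Real.log_le_log (by norm_num) (by linarith)
    have h2 := Real.log_two_gt_d9
    linarith
  have hΛ3 : (0 : ℝ) < Λ ^ 3 := by positivity
  obtain ⟨P, hPd⟩ : ∃ P, P = N ^ ((3 : ℝ) / 2) := ⟨_, rfl⟩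
  rw [← hPd]
  have hP0 : 0 < P := by
    rw [hPd]
    exact Real.rpow_pos_of_pos hN0 _
  by_cases hell : 1024 ≤ Nat.log 2 n + 1
  · -- large `n`
    have hell256 : 256 ≤ Nat.log 2 n + 1 := by omega
    have hN128 : 128 ≤ N := by
      have h1 := half_ell_le_log hn (by omega)
      have h2 : (256 : ℝ) ≤ ((Nat.log 2 n + 1 : ℕ) : ℝ) := by exact_mod_cast hell256
      rw [hN]
      linarith
    have hN1 : 1 ≤ N := by linarith
    have hΛ1 : 1 ≤ Λ := by
      rw [hΛ, Real.le_log_iff_exp_le (by linarith)]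
      have := Real.exp_one_lt_d9
      linarith
    have hΛ31 : 1 ≤ Λ ^ 3 := one_le_pow₀ hΛ1
    have hNP : N ≤ P := by
      have h1 : N ^ (1 : ℝ) ≤ N ^ ((3 : ℝ) / 2) :=
        Real.rpow_le_rpow_of_exponent_le hN1 (by norm_num)
      rw [Real.rpow_one] at h1
      rw [hPd]
      exact h1
    have hgoal : ∀ c : ℝ, 0 ≤ c → c ≤ K → c * P * p ≤ K * P * Λ ^ 3 * p := by
      intro c hc hcK
      have h1 : c * P ≤ K * P * Λ ^ 3 := by
        calc c * P ≤ K * P := mul_le_mul_of_nonneg_right hcK hP0.le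
          _ = K * P * 1 := (mul_one _).symm
          _ ≤ _ := mul_le_mul_of_nonneg_left hΛ31 (by positivity)
      exact mul_le_mul_of_nonneg_right h1 hppos.le
    by_cases hA : 2 * p ≤ N / n
    · -- the density at most `log n / n`
      have hpN : (n : ℝ) * p ≤ N := by
        have h1 : 2 * p * n ≤ N := by
          rwa [le_div_iff₀ hn0] at hA
        have e1 : 2 * p * n = 2 * ((n : ℝ) * p) := by ring
        have h2 : 0 ≤ (n : ℝ) * p := by positivity
        linarith
      have h1 := pCrit_low_large hn hV hE (by rw [← hp, ← hN]; exact hpN) hell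
      rw [← hp, ← hN] at h1
      refine h1.trans ?_
      obtain ⟨r, hr⟩ : ∃ r, r = Real.sqrt N := ⟨_, rfl⟩
      have hr2 : r * r = N := by
        rw [hr]
        exact Real.mul_self_sqrt hN0.le
      have hr0 : 0 ≤ r := by
        rw [hr]
        positivity
      have hr1 : 1 ≤ r := by
        by_contra hlt
        push Not at hlt
        have h3 : r * r < 1 * 1 := mul_self_lt_mul_self hr0 hlt
        linarith
      have hpow : N * r = P := by
        rw [hr, hPd, Real.sqrt_eq_rpow, ← Real.rpow_one_add' hN0.le (by norm_num)]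
        norm_num
      have hmin : min (max 1 ((n : ℝ) * p)) (N / ((n : ℝ) * p)) ≤ r := by
        have hnp0 : 0 < (n : ℝ) * p := by positivity
        by_cases hc : (n : ℝ) * p ≤ r
        · exact (min_le_left _ _).trans (max_le hr1 hc)
        · push Not at hc
          refine (min_le_right _ _).trans ?_
          rw [div_le_iff₀ hnp0, ← hr2]
          exact mul_le_mul_of_nonneg_left hc.le hr0
      refine le_trans ?_ (hgoal constLow hLow.le hK2)
      refine mul_le_mul_of_nonneg_right ?_ hppos.le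
      rw [mul_assoc]
      refine mul_le_mul_of_nonneg_left ?_ hLow.le
      rw [← hpow]
      exact mul_le_mul_of_nonneg_left hmin hN0.le
    · push Not at hA
      have hpq : p ≤ 2 * p := by linarith
      have hq0 : 0 < 2 * p := by positivity
      have hm : (0 : ℝ) < ((Nat.log 2 (2 * (Nat.log 2 n + 1)) + 1 : ℕ) : ℝ) := by
        have : 0 < Nat.log 2 (2 * (Nat.log 2 n + 1)) + 1 := by omega
        exact_mod_cast this
      by_cases hnum : (3 * (n : ℝ) * (2 * p)) ^ (2 * (Nat.log 2 (2 * (Nat.log 2 n + 1)) + 1)) < n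
      · have h1 := pCrit_uni hn hV hE (q := 2 * p) (by rw [← hp]; exact hpq)
            (by rw [← hN]; exact hA.le) hnum
        rw [← hN] at h1
        refine h1.trans ?_
        refine le_trans ?_ (hgoal (41472 * constU) (by positivity) hK3)
        calc 20736 * constU * (2 * p) * N = (41472 * constU) * N * p := by ring
          _ ≤ (41472 * constU) * P * p := by
              refine mul_le_mul_of_nonneg_right ?_ hppos.le
              exact mul_le_mul_of_nonneg_left hNP (by positivity)
      · -- the resonance-free range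
        push Not at hnum
        obtain ⟨m, hmd⟩ : ∃ m : ℕ, m = Nat.log 2 (2 * (Nat.log 2 n + 1)) + 1 := ⟨_, rfl⟩
        rw [← hmd] at hnum hm
        have hlog3 := m_log_three hn hell256
        rw [← hmd, ← hN] at hlog3
        have hmΛ := m_le_loglog hn hell256
        rw [← hmd, ← hN, ← hΛ] at hmΛ
        obtain ⟨c, hc⟩ : ∃ c, c = Real.log (1 / (2 * p)) := ⟨_, rfl⟩
        have hcN : Real.log (3 * (n : ℝ) * (2 * p)) = Real.log 3 + N - c := by
          rw [hc, hN, Real.log_mul (by positivity) (by positivity),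
            Real.log_mul (by norm_num) (by positivity), one_div, Real.log_inv]
          ring
        have h3 : 0 < 3 * (n : ℝ) * (2 * p) := by positivity
        have h4 : N ≤ ((2 * m : ℕ) : ℝ) * Real.log (3 * (n : ℝ) * (2 * p)) := by
          rw [← Real.log_pow, hN]
          exact Real.log_le_log hn0 hnum
        rw [hcN] at h4
        obtain ⟨θ', hθ'⟩ : ∃ θ' : ℝ, θ' = 1 / (4 * (m : ℝ)) := ⟨_, rfl⟩
        have hm1 : (1 : ℝ) ≤ m := by
          have : 1 ≤ m := by omega
          exact_mod_cast this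
        have hθ'0 : 0 < θ' := by
          rw [hθ']
          positivity
        have hθ'1 : θ' ≤ 1 / 2 := by
          rw [hθ', div_le_div_iff₀ (by positivity) (by norm_num)]
          linarith
        have hgap : θ' * N ≤ N - c := by
          have h5 : ((2 * m : ℕ) : ℝ) = 2 * (m : ℝ) := by push_cast; ring
          rw [h5] at h4
          have h6 : θ' * N * (4 * (m : ℝ)) = N := by
            rw [hθ']
            field_simp
          have h7 : (N - c) * (4 * (m : ℝ)) ≥ N := by
            have e7 : (N - c) * (4 * (m : ℝ)) =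
                2 * (2 * (m : ℝ) * (Real.log 3 + N - c)) - 4 * (m : ℝ) * Real.log 3 := by ring
            rw [e7]
            linarith
          have h8 : 0 < 4 * (m : ℝ) := by positivity
          have h9 : θ' * N * (4 * (m : ℝ)) ≤ (N - c) * (4 * (m : ℝ)) := by linarith
          exact le_of_mul_le_mul_right h9 h8
        obtain ⟨Λ', hΛ'⟩ : ∃ Λ', Λ' = Real.log N := ⟨_, rfl⟩
        have hΛ'1 : 1 ≤ Λ' := by
          rw [hΛ', Real.le_log_iff_exp_le (by linarith)]
          have := Real.exp_one_lt_d9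
          linarith
        have hΛ'Λ : Λ' ≤ Λ := by
          rw [hΛ', hΛ]
          exact Real.log_le_log hN0 (by linarith)
        obtain ⟨δ₂, hδ₂⟩ : ∃ δ₂, δ₂ = 1 / Λ' := ⟨_, rfl⟩
        have hδ₂0 : 0 < δ₂ := by
          rw [hδ₂]
          positivity
        have hδ₂1 : δ₂ ≤ 1 := by
          rw [hδ₂, div_le_one (by linarith)]
          exact hΛ'1
        have h1 := hRF 2 δ₂ θ' le_rfl hδ₂0 hδ₂1 hθ'0 hθ'1 n V H (2 * p) hn hV hE
          (by rw [← hp]) (by
            have h5 : (1 : ℝ) / n ≤ N / n :=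
              div_le_div_of_nonneg_right hN1 hn0.le
            linarith) (by
            intro s e h5 h6 h7
            have h8 : s = 1 := by omega
            have h9 : e = 1 := by omega
            subst h8
            subst h9
            rw [← hN, ← hc]
            have h10 : ((1 : ℕ) : ℝ) * N - ((1 : ℕ) : ℝ) * c = N - c := by
              push_cast
              ring
            rw [h10]
            exact hgap.trans (le_abs_self _))
        rw [← hN] at h1
        refine h1.trans ?_
        have hinv : (1 / θ') ^ 2 = (4 * (m : ℝ)) ^ 2 := by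
          rw [hθ']
          congr 1
          field_simp
        rw [hinv]
        have h1δ : 1 / δ₂ = Λ' := by
          rw [hδ₂]
          field_simp
        have hcast : ((2 : ℕ) : ℝ) = 2 := by norm_num
        rw [hcast, h1δ]
        have e2 : (1 : ℝ) + 1 / 2 + δ₂ = (3 : ℝ) / 2 + δ₂ := by ring
        rw [e2, Real.rpow_add hN0, ← hPd]
        have hNδ : N ^ δ₂ ≤ 3 := by
          rw [Real.rpow_def_of_pos hN0]
          have e3 : Real.log N * δ₂ = 1 := by
            rw [← hΛ', hδ₂]
            field_simp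
          rw [e3]
          have := Real.exp_one_lt_d9
          linarith
        have hA1 : 2 + Λ' ≤ 3 * Λ := by linarith
        have hA2 : (4 * (m : ℝ)) ^ 2 ≤ 400 * Λ ^ 2 := by
          have h5 : 4 * (m : ℝ) ≤ 20 * Λ := by linarith
          calc (4 * (m : ℝ)) ^ 2 ≤ (20 * Λ) ^ 2 := pow_le_pow_left₀ (by positivity) h5 2
            _ = _ := by ring
        have hΛpos : 0 < Λ := by linarith
        have hNδ0 : 0 < N ^ δ₂ := Real.rpow_pos_of_pos hN0 _
        calc C₀ * (2 + Λ') * (4 * (m : ℝ)) ^ 2 * (P * N ^ δ₂) * (2 * p)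
            ≤ C₀ * (3 * Λ) * (400 * Λ ^ 2) * (P * 3) * (2 * p) := by
              refine mul_le_mul_of_nonneg_right ?_ (by positivity)
              refine mul_le_mul ?_ ?_ (by positivity) (by positivity)
              · refine mul_le_mul ?_ hA2 (by positivity) (by positivity)
                exact mul_le_mul_of_nonneg_left hA1 hC₀.le
              · exact mul_le_mul_of_nonneg_left hNδ hP0.le
          _ = (7200 * C₀) * P * Λ ^ 3 * p := by ring
          _ ≤ K * P * Λ ^ 3 * p := by
              refine mul_le_mul_of_nonneg_right ?_ hppos.le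
              refine mul_le_mul_of_nonneg_right ?_ hΛ3.le
              exact mul_le_mul_of_nonneg_right hK4 hP0.le
  · -- small `n`: the five thirds bound
    push Not at hell
    have h1 : pCrit n H ≤ constT * (Real.log n) ^ ((5 : ℝ) / 3) * pExp n H :=
      pCrit_five_thirds hn hV hE
    rw [← hN, ← hp] at h1
    have hN256 : N ≤ 1024 := by
      have h3 := log_le_ell hn
      have h5 : ((Nat.log 2 n + 1 : ℕ) : ℝ) ≤ ((1024 : ℕ) : ℝ) := Nat.cast_le.mpr hell.le
      have h6 : ((1024 : ℕ) : ℝ) = 1024 := by norm_num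
      rw [hN]
      linarith
    have h2 : N ^ ((1 : ℝ) / 6) ≤ 4 := by
      calc N ^ ((1 : ℝ) / 6) ≤ (4096 : ℝ) ^ ((1 : ℝ) / 6) :=
            Real.rpow_le_rpow hN0.le (by linarith) (by norm_num)
        _ = 4 := by
            have : (4096 : ℝ) = 4 ^ (6 : ℝ) := by norm_num
            rw [this, ← Real.rpow_mul (by norm_num)]
            norm_num
    have h3 : N ^ ((5 : ℝ) / 3) = P * N ^ ((1 : ℝ) / 6) := by
      rw [hPd, ← Real.rpow_add hN0]
      norm_num
    have h4 : 1 ≤ 8 * Λ ^ 3 := by
      have h5 : (1 / 2 : ℝ) ^ 3 ≤ Λ ^ 3 := pow_le_pow_left₀ (by norm_num) hΛ0 3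
      norm_num at h5
      linarith
    refine h1.trans ?_
    rw [h3]
    have h5 : P * N ^ ((1 : ℝ) / 6) ≤ 16 * (P * Λ ^ 3) * 2 := by
      calc P * N ^ ((1 : ℝ) / 6) ≤ P * 4 := mul_le_mul_of_nonneg_left h2 hP0.le
        _ = 4 * P * 1 := by ring
        _ ≤ 4 * P * (8 * Λ ^ 3) := mul_le_mul_of_nonneg_left h4 (by positivity)
        _ = _ := by ring
    have h6 : constT * (P * N ^ ((1 : ℝ) / 6)) ≤ (constT * 32) * (P * Λ ^ 3) := by
      calc constT * (P * N ^ ((1 : ℝ) / 6)) ≤ constT * (16 * (P * Λ ^ 3) * 2) :=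
            mul_le_mul_of_nonneg_left h5 hT.le
        _ = _ := by ring
    have h7 : (constT * 32) * (P * Λ ^ 3) ≤ K * P * Λ ^ 3 := by
      have h8 : (constT * 32) * (P * Λ ^ 3) = (32 * constT) * P * Λ ^ 3 := by ring
      rw [h8]
      refine mul_le_mul_of_nonneg_right ?_ hΛ3.le
      exact mul_le_mul_of_nonneg_right hK1 hP0.le
    exact mul_le_mul_of_nonneg_right (h6.trans h7) hppos.le

end Vale.Agent.Lib.P064r
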