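import Vale.Agent.Lib.P064r.BlockNum

/-!
The count of extensions of a map to a rigid block.
-/

namespace Vale.Agent.Lib.P064r

open Finset SimpleGraph Vale.Agent.Lib.P064
open scoped Classical Nat

set_option linter.unusedSectionVars false
set_option linter.unusedVariables false

universe u v

variable {V : Type v} [Fintype V] {Z : Type u} [Fintype Z]

lemma sym2_card_filter_le (e : Sym2 Z) (B : Finset Z) : (B.filter (fun x => x ∈ e)).card ≤ 2 := by
  induction e using Sym2.ind with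
  | _ a b =>
    have h : B.filter (fun x => x ∈ s(a, b)) ⊆ {a, b} := by
      intro x hx
      have h1 := (Finset.mem_filter.mp hx).2
      rcases Sym2.mem_iff.mp h1 with rfl | rfl <;> simp
    exact (Finset.card_le_card h).trans Finset.card_le_two

/-- Every edge touches at most two vertices. -/
lemma sum_eT_le (F : SimpleGraph Z) (Y B : Finset Z) :
    ∑ w ∈ B, eT F Y {w} ≤ 2 * eT F Y B := by
  have h1 : ∀ w ∈ B, eT F Y {w} ≤ ((cutE F Y B).filter (fun e => w ∈ e)).card := by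
    intro w hw
    unfold eT
    refine Finset.card_le_card ?_
    intro e he
    rcases mem_cutE.mp he with ⟨h1, h2, a, ha, haw⟩
    rw [Finset.mem_singleton] at haw
    subst haw
    exact Finset.mem_filter.mpr ⟨mem_cutE.mpr ⟨h1, h2, a, ha, hw⟩, ha⟩
  calc ∑ w ∈ B, eT F Y {w} ≤ ∑ w ∈ B, ((cutE F Y B).filter (fun e => w ∈ e)).card :=
        Finset.sum_le_sum h1
    _ = ∑ e ∈ cutE F Y B, (B.filter (fun w => w ∈ e)).card :=
        Finset.sum_card_bipartiteAbove_eq_sum_card_bipartiteBelow _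
    _ ≤ ∑ _e ∈ cutE F Y B, 2 := Finset.sum_le_sum fun e _ => sym2_card_filter_le e B
    _ = 2 * eT F Y B := by
        rw [Finset.sum_const, smul_eq_mul, mul_comm]
        rfl

lemma filter_card_le_eT {F : SimpleGraph Z} {Y : Finset Z} {w : Z} (hw : w ∈ Y) :
    (Y.filter (F.Adj w)).card ≤ eT F Y {w} := by
  unfold eT
  refine Finset.card_le_card_of_injOn (fun y => s(w, y)) ?_ ?_
  · intro y hy
    rcases Finset.mem_filter.mp (Finset.mem_coe.mp hy) with ⟨h1, h2⟩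
    exact Finset.mem_coe.mpr (mem_cutE_of_adj (Finset.mem_singleton_self w) hw h1 h2)
  · intro y _ y' _ h
    exact Sym2.congr_right.mp h

lemma codeCount_le {F : SimpleGraph Z} {Y B : Finset Z} (hBY : B ⊆ Y) {e : ℕ} (hs : B.card ≤ e)
    (he : ∑ w ∈ B, eT F Y {w} ≤ 2 * e) : codeCount F Y B ≤ 8 ^ e := by
  unfold codeCount
  calc ∏ w ∈ B, (2 * ((Y.filter (F.Adj w)).card + 1)) ≤ ∏ w ∈ B, (2 * 2 ^ eT F Y {w}) := by
        refine Finset.prod_le_prod' fun w hw => Nat.mul_le_mul_left _ ?_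
        have h1 := filter_card_le_eT (F := F) (hBY hw)
        have h2 : eT F Y {w} + 1 ≤ 2 ^ eT F Y {w} := Nat.lt_two_pow_self
        omega
    _ = 2 ^ B.card * 2 ^ (∑ w ∈ B, eT F Y {w}) := by
        rw [Finset.prod_mul_distrib, Finset.prod_const, Finset.prod_pow_eq_pow_sum]
    _ ≤ 2 ^ e * 2 ^ (2 * e) :=
        Nat.mul_le_mul (Nat.pow_le_pow_right (by norm_num) hs)
          (Nat.pow_le_pow_right (by norm_num) he)
    _ = 8 ^ e := by
        rw [pow_mul, ← mul_pow]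
        norm_num

/-- The numbers governing a block. -/
structure BP (N c θ θ' E' KS : ℝ) : Prop where
  hN1 : 1 ≤ N
  hc0 : 0 < c
  hcN : c ≤ N
  hθ : 0 < θ
  hθ'0 : 0 < θ'
  hθ'1 : θ' ≤ 1
  hτs : θ * N ≤ c / 2
  hE' : 0 < E'
  hKS1 : 1 ≤ KS
  hNR : ∀ s e : ℕ, 1 ≤ s → (e : ℝ) < E' → θ' * N ≤ (s : ℝ) * N - (e : ℝ) * c ∨
    ((s : ℝ) * N - (e : ℝ) * c ≤ -(θ' * N) ∧
      (s : ℝ) * N - (e : ℝ) * c < -(θ * N * (e : ℝ)) - (s : ℝ))
  hKS : ∀ m e : ℕ, m ≤ e → (m : ℝ) * N ≤ 2 * (e : ℝ) * c →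
    ((⌊(N + 1 / 2) / (θ * N)⌋₊ : ℕ) : ℝ) ^ m ≤ KS ^ e

/-- The bound per edge. -/
noncomputable def LamB (N c θ θ' E' KS : ℝ) : ℝ :=
  4128 * KS * (1 / θ') * (8 * (N + 1 / 2) ^ 2 / c) ^ (1 / E' + θ / θ')

lemma perElt_of_BP {N c θ θ' E' KS : ℝ} (h : BP N c θ θ' E' KS) : PerElt N c θ θ' E' := by
  intro s e hs hV
  have hN0 : 0 < N := by linarith [h.hN1]
  have hden : 0 < θ' * N := mul_pos h.hθ'0 hN0
  have hs0 : (0 : ℝ) ≤ (s : ℝ) := by positivity
  by_cases he : (e : ℝ) < E'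
  · rcases h.hNR s e hs he with h1 | ⟨_, h2⟩
    · have h3 : 1 ≤ ((s : ℝ) * N - (e : ℝ) * c + (s : ℝ) + θ * N * (e : ℝ)) / (θ' * N) := by
        rw [le_div_iff₀ hden]
        have : 0 ≤ θ * N * (e : ℝ) := by
          have := h.hθ
          positivity
        linarith
      have h4 : 0 ≤ (e : ℝ) / E' := by
        have := h.hE'
        positivity
      linarith
    · exfalso
      linarith
  · push Not at he
    have h3 : 1 ≤ (e : ℝ) / E' := by
      rw [le_div_iff₀ h.hE']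
      linarith
    have h4 : 0 ≤ ((s : ℝ) * N - (e : ℝ) * c + (s : ℝ) + θ * N * (e : ℝ)) / (θ' * N) := by
      refine div_nonneg ?_ hden.le
      linarith
    linarith

lemma WP_of_BP {N c θ θ' E' KS : ℝ} (h : BP N c θ θ' E' KS) :
    WP N c (N + 1 / 2) θ θ' E' (c / (8 * (N + 1 / 2))) := by
  have hN0 : 0 < N := by linarith [h.hN1]
  have hNt : 0 < N + 1 / 2 := by linarith
  have hc := h.hc0
  refine ⟨hc, hN0, h.hθ.le, h.hθ'0, le_rfl, by positivity, ?_, ?_, h.hτs, h.hE', perElt_of_BP h⟩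
  · rw [div_le_div_iff₀ (by positivity) (by norm_num)]
    nlinarith [h.hN1]
  · apply le_of_eq
    field_simp

section Bound

variable {H : SimpleGraph V} {T : V → V → ℝ} {n : ℕ} {q N c θ θ' E' KS : ℝ}

lemma Sn_bound (hT : HTok H T c (N + 1 / 2)) (h : BP N c θ θ' E' KS) (x : V) :
    (Finset.univ.filter (fun y => H.Adj x y ∧ θ * N ≤ T x y)).card ≤ ⌊(N + 1 / 2) / (θ * N)⌋₊ := by
  refine Nat.le_floor ?_
  have hN0 : 0 < N := by linarith [h.hN1]
  have hτ : 0 < θ * N := mul_pos h.hθ hN0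
  rw [le_div_iff₀ hτ]
  exact rank_card (c := c) hT.nonneg hT.cap x

lemma Dn_bound (hT : HTok H T c (N + 1 / 2)) (h : BP N c θ θ' E' KS) (x : V) :
    (Finset.univ.filter (fun y => H.Adj x y ∧ c / (8 * (N + 1 / 2)) ≤ T x y)).card ≤
      ⌊8 * (N + 1 / 2) ^ 2 / c⌋₊ := by
  refine Nat.le_floor ?_
  have hN0 : 0 < N := by linarith [h.hN1]
  have hNt : 0 < N + 1 / 2 := by linarith
  have hc := h.hc0
  have h1 := rank_card (τ := c / (8 * (N + 1 / 2))) (c := c) hT.nonneg hT.cap x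
  have h2 : 8 * (N + 1 / 2) ^ 2 / c = (N + 1 / 2) / (c / (8 * (N + 1 / 2))) := by
    field_simp
  rw [h2, le_div_iff₀ (by positivity)]
  exact h1

lemma Sn_one (h : BP N c θ θ' E' KS) : 1 ≤ ⌊(N + 1 / 2) / (θ * N)⌋₊ := by
  refine Nat.le_floor ?_
  have hN0 : 0 < N := by linarith [h.hN1]
  have hτ : 0 < θ * N := mul_pos h.hθ hN0
  push_cast
  rw [le_div_iff₀ hτ]
  have := h.hτs
  have := h.hcN
  linarith

lemma Dr_ge (h : BP N c θ θ' E' KS) : N ≤ 8 * (N + 1 / 2) ^ 2 / c := by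
  have hc := h.hc0
  rw [le_div_iff₀ hc]
  nlinarith [h.hN1, h.hcN]

lemma Dn_one (h : BP N c θ θ' E' KS) : 1 ≤ ⌊8 * (N + 1 / 2) ^ 2 / c⌋₊ := by
  refine Nat.le_floor ?_
  have := Dr_ge h
  have := h.hN1
  push_cast
  linarith

end Bound

/-- The count for a block with at least two vertices. -/
theorem block_multi {H : SimpleGraph V} {T : V → V → ℝ} {n : ℕ} {q N c θ θ' E' KS : ℝ}
    (hn : 1 ≤ n) (hq : 0 < q) (hq1 : q ≤ 1) (hyp : ∀ F : H.Subgraph, 1 ≤ expCopies n q F.coe)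
    (hNd : N = Real.log n) (hcd : c = Real.log (1 / q))
    (hT : HTok H T c (N + 1 / 2)) (hBP : BP N c θ θ' E' KS) {F : SimpleGraph Z} {x₀ : V}
    {U B Y : Finset Z} {g : Z → V} (hY : Y = U ∪ B) (hdisj : Disjoint U B) (hB2 : 2 ≤ B.card)
    (hg : Set.InjOn g (U : Set Z))
    (hrigid : ∀ T', T' ⊆ B → T'.Nonempty → T' ≠ B →
      (T'.card : ℝ) * N - (eT F Y T' : ℝ) * c ≤ -(T'.card : ℝ))
    (hv : -(B.card : ℝ) ≤ (B.card : ℝ) * N - (eT F Y B : ℝ) * c) :
    ((Fib F H x₀ U Y g).card : ℝ) * Real.exp (-((B.card : ℝ) * N - (eT F Y B : ℝ) * c)) ≤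
      LamB N c θ θ' E' KS ^ eT F Y B := by
  have hBne : B.Nonempty := Finset.card_pos.mp (by omega)
  have hBY : B ⊆ Y := by rw [hY]; exact Finset.subset_union_right
  have hN1 := hBP.hN1
  have hN0 : 0 < N := by linarith
  have hc0 := hBP.hc0
  have hcN := hBP.hcN
  have hθ := hBP.hθ
  have hθ'0 := hBP.hθ'0
  have hθ'1 := hBP.hθ'1
  have hE' := hBP.hE'
  obtain ⟨e, he⟩ : ∃ e, e = eT F Y B := ⟨_, rfl⟩
  obtain ⟨s, hs⟩ : ∃ s, s = B.card := ⟨_, rfl⟩
  obtain ⟨v, hvdef⟩ : ∃ v : ℝ, v = (B.card : ℝ) * N - (eT F Y B : ℝ) * c := ⟨_, rfl⟩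
  rw [← hvdef] at hv ⊢
  rw [← he]
  -- degrees
  have hdeg : ∀ w ∈ B, 2 ≤ eT F Y {w} ∧ N ≤ (eT F Y {w} : ℝ) * c := by
    intro w hw
    have h1 := hrigid {w} (Finset.singleton_subset_iff.mpr hw) (Finset.singleton_nonempty w) (by
      intro h
      rw [← h] at hB2
      simp at hB2)
    simp only [Finset.card_singleton, Nat.cast_one, one_mul] at h1
    refine ⟨?_, by linarith⟩
    by_contra hlt
    push Not at hlt
    have h2 : ((eT F Y {w} : ℕ) : ℝ) ≤ 1 := by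
      have : eT F Y {w} ≤ 1 := by omega
      exact_mod_cast this
    have h3 : (eT F Y {w} : ℝ) * c ≤ 1 * c := mul_le_mul_of_nonneg_right h2 hc0.le
    linarith
  have hsum := sum_eT_le F Y B
  rw [← he] at hsum
  have h2s : 2 * s ≤ 2 * e := by
    have h1 : B.card • 2 ≤ ∑ w ∈ B, eT F Y {w} :=
      Finset.card_nsmul_le_sum B _ 2 (fun w hw => (hdeg w hw).1)
    rw [smul_eq_mul, mul_comm, ← hs] at h1
    omega
  have hse : s ≤ e := by omega
  have hsN : (s : ℝ) * N ≤ 2 * (e : ℝ) * c := by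
    have h1 : B.card • N ≤ ∑ w ∈ B, (eT F Y {w} : ℝ) * c :=
      Finset.card_nsmul_le_sum B _ N (fun w hw => (hdeg w hw).2)
    rw [← Finset.sum_mul, nsmul_eq_mul, ← hs] at h1
    have h2 : ∑ w ∈ B, (eT F Y {w} : ℝ) ≤ 2 * (e : ℝ) := by exact_mod_cast hsum
    have h3 := mul_le_mul_of_nonneg_right h2 hc0.le
    linarith
  have he1 : 1 ≤ e := by
    rw [hs] at hse
    omega
  -- the bound for the images
  have hb : (bdry F Y B).card ≤ e := by
    rw [he]
    exact bdry_card_le hBY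
  obtain ⟨b, hbdef⟩ : ∃ b : ℝ, b = ((bdry F Y B).card : ℝ) := ⟨_, rfl⟩
  have hb0 : 0 ≤ b := by rw [hbdef]; positivity
  have hbe : b ≤ e := by rw [hbdef]; exact_mod_cast hb
  have hsR : (s : ℝ) = (B.card : ℝ) := by rw [hs]
  have hvle : v ≤ (s : ℝ) * N := by
    rw [hvdef, ← hsR]
    have : 0 ≤ (eT F Y B : ℝ) * c := by positivity
    linarith
  obtain ⟨I, hIdef⟩ : ∃ I, I = (imgI B (Fib F H x₀ U Y g)).card := ⟨_, rfl⟩
  obtain ⟨G, hG⟩ : ∃ G : ℝ, G = 6 * Real.exp 1 * (s : ℝ) +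
      b * ((s : ℝ) * Real.exp (s : ℝ) + 1 + Real.exp (s : ℝ)) := ⟨_, rfl⟩
  obtain ⟨G', hG'⟩ : ∃ G' : ℝ, G' = 3 * Real.exp 1 * (s : ℝ) + 3 * Real.exp 1 * (s : ℝ) ^ 2 +
      3 * b * (s : ℝ) := ⟨_, rfl⟩
  have hG0 : 0 ≤ G := by rw [hG]; positivity
  have hG'0 : 0 ≤ G' := by rw [hG']; positivity
  have hIgen : (I : ℝ) * Real.exp (-v) ≤ N * G := by
    obtain ⟨ν, P, h1, h2, h3⟩ := root_data (F := F) (x₀ := x₀) (g := g) hn hq hq1 hyp hY hdisj hBne
      hg (κ := 1) zero_le_one (by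
        intro T' h1 h2 h3
        rw [← hNd, ← hcd, one_mul]
        exact hrigid T' h1 h2 h3)
    rw [← hNd, ← hcd, ← hbdef, ← hvdef] at h2 h3
    have h4 := nu_bound (by positivity) h3
    have h5 := img_general (ν := (ν : ℝ)) (P := (P : ℝ)) (s := (s : ℝ)) (b := b) (N := N) (v := v)
      (by positivity) (by positivity) hb0 hN1 h4 h2 (by rw [hsR]; exact hv) hvle
    rw [hIdef, h1]
    push_cast
    rw [← hsR, ← hG] at *
    exact h5
  -- the rich case
  have hIrich : (1 / E' + θ / θ') * (e : ℝ) < 1 → (I : ℝ) * Real.exp (-v) ≤ G' / θ' := by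
    intro hβ
    have hrate : (e : ℝ) / E' < 1 := by
      have h1 : 0 ≤ θ / θ' * (e : ℝ) := by positivity
      have h2 : (e : ℝ) / E' = 1 / E' * (e : ℝ) := by ring
      rw [add_mul] at hβ
      rw [h2]
      linarith
    have heE : (e : ℝ) < E' := by
      rwa [div_lt_one hE'] at hrate
    have hs1 : 1 ≤ s := by rw [hs]; omega
    have hvrich : θ' * N ≤ v := by
      rcases hBP.hNR s e hs1 heE with h1 | ⟨_, h2⟩
      · rw [hvdef, ← hsR, ← he]
        exact h1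
      · exfalso
        have h3 : 0 ≤ θ * N * (e : ℝ) := by positivity
        rw [hvdef, ← hsR, ← he] at hv
        linarith
    obtain ⟨ν, P, h1, h2, h3⟩ := root_data (F := F) (x₀ := x₀) (g := g) hn hq hq1 hyp hY hdisj hBne
      hg (κ := θ' * N / (s : ℝ)) (by positivity) (by
        intro T' h1 h2 h3
        rw [← hNd, ← hcd]
        have hT1 : 1 ≤ T'.card := Finset.card_pos.mpr h2
        have hTe : eT F Y T' ≤ e := by
          rw [he]
          exact eT_mono h1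
        have hTeE : (eT F Y T' : ℝ) < E' := by
          have : (eT F Y T' : ℝ) ≤ (e : ℝ) := by exact_mod_cast hTe
          linarith
        have hrig := hrigid T' h1 h2 h3
        have hT0 : (1 : ℝ) ≤ (T'.card : ℝ) := by exact_mod_cast hT1
        have hle : θ' * N / (s : ℝ) * (T'.card : ℝ) ≤ θ' * N := by
          have hs0 : (0 : ℝ) < (s : ℝ) := by exact_mod_cast hs1
          have hTs : (T'.card : ℝ) ≤ (s : ℝ) := by
            rw [hs]
            exact_mod_cast Finset.card_le_card h1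
          rw [div_mul_eq_mul_div, div_le_iff₀ hs0]
          exact mul_le_mul_of_nonneg_left hTs (by positivity)
        rcases hBP.hNR T'.card (eT F Y T') hT1 hTeE with h5 | ⟨h5, _⟩
        · exfalso
          have : 0 < θ' * N := by positivity
          linarith
        · linarith)
    rw [← hNd, ← hcd, ← hbdef, ← hvdef] at h2 h3
    have h4 := nu_bound (by positivity) h3
    have hs0 : (1 : ℝ) ≤ (s : ℝ) := by exact_mod_cast hs1
    have h5 := img_rich (ν := (ν : ℝ)) (P := (P : ℝ)) (s := (s : ℝ)) (b := b) (N := N) (v := v)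
      (θ' := θ') (by positivity) hs0 hb0 hN0 hθ'0 hθ'1 h4 h2 hvrich hvle
    rw [hIdef, h1]
    push_cast
    rw [← hsR, hG']
    exact h5
  -- the parameters
  obtain ⟨Dr, hDr⟩ : ∃ Dr : ℝ, Dr = 8 * (N + 1 / 2) ^ 2 / c := ⟨_, rfl⟩
  have hDrN : N ≤ Dr := by rw [hDr]; exact Dr_ge hBP
  have hDr1 : 1 ≤ Dr := by linarith
  obtain ⟨β, hβ⟩ : ∃ β : ℝ, β = (1 / E' + θ / θ') * (e : ℝ) := ⟨_, rfl⟩
  have hβ0 : 0 ≤ β := by rw [hβ]; positivity
  have hDrβ1 : 1 ≤ Dr ^ β := Real.one_le_rpow hDr1 hβ0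
  have hDnDr : ((⌊8 * (N + 1 / 2) ^ 2 / c⌋₊ : ℕ) : ℝ) ≤ Dr := by
    rw [hDr]
    exact Nat.floor_le (by positivity)
  obtain ⟨Sn, hSn⟩ : ∃ Sn, Sn = ⌊(N + 1 / 2) / (θ * N)⌋₊ := ⟨_, rfl⟩
  obtain ⟨Dn, hDn⟩ : ∃ Dn, Dn = ⌊8 * (N + 1 / 2) ^ 2 / c⌋₊ := ⟨_, rfl⟩
  have hDnR : (Dn : ℝ) ≤ Dr := by rw [hDn]; exact hDnDr
  have hDn1 : 1 ≤ Dn := by rw [hDn]; exact Dn_one hBP
  have hSn1 : 1 ≤ Sn := by rw [hSn]; exact Sn_one hBP
  have hDpow : ∀ w : ℕ, (Dn : ℝ) ^ w ≤ Dr ^ w := fun w =>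
    pow_le_pow_left₀ (by positivity) hDnR w
  have hevv : Real.exp v * Real.exp (-v) = 1 := by
    rw [← Real.exp_add]
    simp
  have hexpv := Real.exp_pos v
  -- from a bound on `x * exp(-v)` to a bound on `x`
  have hfrom : ∀ {x y : ℝ}, x * Real.exp (-v) ≤ y → x ≤ Real.exp v * y := by
    intro x y h
    calc x = Real.exp v * (x * Real.exp (-v)) := by
          rw [mul_comm x, ← mul_assoc, hevv, one_mul]
      _ ≤ _ := mul_le_mul_of_nonneg_left h hexpv.le
  obtain ⟨Ψ, hΨ⟩ : ∃ Ψ : ℝ, Ψ = (Real.exp (s : ℝ) + G + G' / θ') * Dr ^ β := ⟨_, rfl⟩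
  have hΨ0 : 0 ≤ Ψ := by rw [hΨ]; positivity
  have hX : ∀ w r : ℕ, Outcome ((1 / E' + θ / θ') * (eT F Y B : ℝ)) w r →
      ((Sn : ℝ) ^ B.card * (Dn : ℝ) ^ w * (I : ℝ) ^ r) ≤ (Sn : ℝ) ^ B.card * (Real.exp v * Ψ) := by
    intro w r hout
    rw [← he, ← hβ] at hout
    rw [mul_assoc]
    refine mul_le_mul_of_nonneg_left ?_ (by positivity)
    have hexps := Real.exp_pos (s : ℝ)
    have hG'θ : 0 ≤ G' / θ' := by positivity
    rcases hout with ⟨rfl, hw⟩ | ⟨rfl, hw | hw⟩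
    · -- no root
      rw [pow_zero, mul_one]
      have h1 : (Dn : ℝ) ^ w ≤ Dr ^ β := by
        refine (hDpow w).trans ?_
        rw [← Real.rpow_natCast]
        exact Real.rpow_le_rpow_of_exponent_le hDr1 hw
      have h2 : 1 ≤ Real.exp v * Real.exp (s : ℝ) := by
        rw [← Real.exp_add]
        apply Real.one_le_exp
        rw [hsR]
        linarith
      calc (Dn : ℝ) ^ w ≤ Dr ^ β := h1
        _ = 1 * Dr ^ β := (one_mul _).symm
        _ ≤ (Real.exp v * Real.exp (s : ℝ)) * Dr ^ β :=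
            mul_le_mul_of_nonneg_right h2 (by positivity)
        _ ≤ Real.exp v * ((Real.exp (s : ℝ) + G + G' / θ') * Dr ^ β) := by
            rw [mul_assoc]
            refine mul_le_mul_of_nonneg_left ?_ hexpv.le
            refine mul_le_mul_of_nonneg_right (by linarith) (by positivity)
        _ = _ := by rw [hΨ]
    · -- a root and nothing else
      subst hw
      rw [pow_zero, one_mul, pow_one, hΨ]
      by_cases hβ1 : β < 1
      · have h1 := hIrich (by rw [← hβ]; exact hβ1)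
        refine (hfrom h1).trans ?_
        refine mul_le_mul_of_nonneg_left ?_ hexpv.le
        calc G' / θ' = 1 * (G' / θ') := (one_mul _).symm
          _ ≤ Dr ^ β * (G' / θ') := mul_le_mul_of_nonneg_right hDrβ1 hG'θ
          _ ≤ Dr ^ β * (Real.exp (s : ℝ) + G + G' / θ') :=
              mul_le_mul_of_nonneg_left (by linarith) (by positivity)
          _ = _ := by ring
      · push Not at hβ1
        refine (hfrom hIgen).trans ?_
        refine mul_le_mul_of_nonneg_left ?_ hexpv.le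
        have h2 : N ≤ Dr ^ β := by
          calc N ≤ Dr := hDrN
            _ = Dr ^ (1 : ℝ) := (Real.rpow_one _).symm
            _ ≤ Dr ^ β := Real.rpow_le_rpow_of_exponent_le hDr1 hβ1
        calc N * G ≤ Dr ^ β * G := mul_le_mul_of_nonneg_right h2 hG0
          _ ≤ Dr ^ β * (Real.exp (s : ℝ) + G + G' / θ') :=
              mul_le_mul_of_nonneg_left (by linarith) (by positivity)
          _ = _ := by ring
    · -- a root and some weak arcs
      rw [pow_one, hΨ]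
      have h1 := hfrom hIgen
      have h2 : (Dn : ℝ) ^ w * N ≤ Dr ^ β := by
        calc (Dn : ℝ) ^ w * N ≤ Dr ^ w * Dr :=
              mul_le_mul (hDpow w) hDrN hN0.le (by positivity)
          _ = Dr ^ (w + 1) := by rw [pow_succ]
          _ = Dr ^ (((w + 1 : ℕ)) : ℝ) := (Real.rpow_natCast _ _).symm
          _ ≤ Dr ^ β := by
              refine Real.rpow_le_rpow_of_exponent_le hDr1 ?_
              push_cast
              exact hw
      calc (Dn : ℝ) ^ w * (I : ℝ) ≤ (Dn : ℝ) ^ w * (Real.exp v * (N * G)) :=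
            mul_le_mul_of_nonneg_left h1 (by positivity)
        _ = Real.exp v * (((Dn : ℝ) ^ w * N) * G) := by ring
        _ ≤ Real.exp v * (Dr ^ β * G) := by
            refine mul_le_mul_of_nonneg_left ?_ hexpv.le
            exact mul_le_mul_of_nonneg_right h2 hG0
        _ ≤ Real.exp v * (Dr ^ β * (Real.exp (s : ℝ) + G + G' / θ')) := by
            refine mul_le_mul_of_nonneg_left ?_ hexpv.le
            exact mul_le_mul_of_nonneg_left (by linarith) (by positivity)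
        _ = _ := by ring
  have hcount := fib_card_le (N := N) (c := c) (Nt := N + 1 / 2) (θ := θ) (θ' := θ') (E' := E')
    (τw := c / (8 * (N + 1 / 2))) (x₀ := x₀) (g := g) hT (WP_of_BP hBP) hY hdisj hBne hrigid
    (Sn := Sn) (Dn := Dn) (by rw [hSn]; exact Sn_bound hT hBP) (by rw [hDn]; exact Dn_bound hT hBP)
    hSn1 hDn1 (X := (Sn : ℝ) ^ B.card * (Real.exp v * Ψ)) (by positivity) (by
      intro w r hout
      rw [← hIdef]
      exact hX w r hout)
  have hSnKS : (Sn : ℝ) ^ B.card ≤ KS ^ e := by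
    rw [hSn]
    refine hBP.hKS B.card e (by rw [← hs]; exact hse) ?_
    rw [← hsR]
    exact hsN
  have hcc : (codeCount F Y B : ℝ) ≤ 8 ^ e := by
    have := codeCount_le (F := F) hBY (by rw [← hs]; exact hse) hsum
    exact_mod_cast this
  have hKS0 : 0 ≤ KS := by linarith [hBP.hKS1]
  -- the constant
  have hconst := const_bound he1 (s := (s : ℝ)) (b := b) (by positivity) (by exact_mod_cast hse)
    hb0 hbe
  rw [← hG, ← hG'] at hconst
  have hΨle : Ψ ≤ 516 ^ e * (1 / θ') ^ e * (Dr ^ (1 / E' + θ / θ')) ^ e := by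
    have h1 : Real.exp (s : ℝ) + G + G' / θ' ≤ (Real.exp (s : ℝ) + G + G') * (1 / θ') := by
      have h2 : 1 ≤ 1 / θ' := by
        rw [le_div_iff₀ hθ'0]
        linarith
      have h3 : 0 ≤ Real.exp (s : ℝ) + G := by positivity
      have h4 : (Real.exp (s : ℝ) + G) * 1 ≤ (Real.exp (s : ℝ) + G) * (1 / θ') :=
        mul_le_mul_of_nonneg_left h2 h3
      have e1 : G' / θ' = G' * (1 / θ') := by ring
      rw [e1, add_mul]
      linarith
    have h2 : (1 / θ') ≤ (1 / θ') ^ e := by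
      have h3 : 1 ≤ 1 / θ' := by
        rw [le_div_iff₀ hθ'0]
        linarith
      calc 1 / θ' = (1 / θ') ^ 1 := (pow_one _).symm
        _ ≤ _ := pow_le_pow_right₀ h3 he1
    have h5 : Dr ^ β = (Dr ^ (1 / E' + θ / θ')) ^ e := by
      rw [hβ, Real.rpow_mul (by linarith), Real.rpow_natCast]
    rw [hΨ, h5]
    have h6 : 0 ≤ (Dr ^ (1 / E' + θ / θ')) ^ e := by positivity
    refine mul_le_mul_of_nonneg_right ?_ h6
    calc Real.exp (s : ℝ) + G + G' / θ' ≤ (Real.exp (s : ℝ) + G + G') * (1 / θ') := h1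
      _ ≤ 516 ^ e * (1 / θ') ^ e :=
          mul_le_mul hconst h2 (by positivity) (by positivity)
  -- conclusion
  have hexpv' := Real.exp_pos (-v)
  calc ((Fib F H x₀ U Y g).card : ℝ) * Real.exp (-v)
      ≤ ((codeCount F Y B : ℝ) * ((Sn : ℝ) ^ B.card * (Real.exp v * Ψ))) * Real.exp (-v) :=
        mul_le_mul_of_nonneg_right hcount hexpv'.le
    _ = (codeCount F Y B : ℝ) * (Sn : ℝ) ^ B.card * Ψ * (Real.exp v * Real.exp (-v)) := by ring
    _ = (codeCount F Y B : ℝ) * (Sn : ℝ) ^ B.card * Ψ := by rw [hevv, mul_one]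
    _ ≤ 8 ^ e * KS ^ e * (516 ^ e * (1 / θ') ^ e * (Dr ^ (1 / E' + θ / θ')) ^ e) := by
        refine mul_le_mul ?_ hΨle hΨ0 (by positivity)
        exact mul_le_mul hcc hSnKS (by positivity) (by positivity)
    _ = LamB N c θ θ' E' KS ^ e := by
        unfold LamB
        rw [← hDr]
        rw [show (4128 : ℝ) * KS * (1 / θ') * Dr ^ (1 / E' + θ / θ') =
          8 * KS * (516 * (1 / θ') * Dr ^ (1 / E' + θ / θ')) by ring]
        rw [mul_pow, mul_pow, mul_pow, mul_pow]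

end Vale.Agent.Lib.P064r
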