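import Vale.Agent.Lib.P064r.Block

/-!
The count of extensions to a block with one vertex, and the general block bound.
-/

namespace Vale.Agent.Lib.P064r

open Finset SimpleGraph Vale.Agent.Lib.P064
open scoped Classical Nat

set_option linter.unusedSectionVars false
set_option linter.unusedVariables false

universe u v

variable {V : Type v} [Fintype V] {Z : Type u} [Fintype Z]

/-- Two extensions to one new vertex differ at that vertex. -/
lemma fib_ext {H : SimpleGraph V} {F : SimpleGraph Z} {x₀ : V} {U Y : Finset Z} {w : Z} {g : Z → V}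
    (hY : Y = U ∪ {w}) {f f' : Z → V} (hf : f ∈ Fib F H x₀ U Y g) (hf' : f' ∈ Fib F H x₀ U Y g)
    (h : f w = f' w) : f = f' := by
  funext z
  by_cases hzw : z = w
  · rw [hzw]
    exact h
  · by_cases hzU : z ∈ U
    · rw [(mem_Fib.mp hf).2 z hzU, (mem_Fib.mp hf').2 z hzU]
    · have hzY : z ∉ Y := by
        rw [hY]
        simp [hzU, hzw]
      rw [(mem_PE.mp (mem_Fib.mp hf).1).1 z hzY, (mem_PE.mp (mem_Fib.mp hf').1).1 z hzY]

/-- The count for a block with one vertex and at least one edge. -/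
theorem block_single {H : SimpleGraph V} {n : ℕ} {q N c θ θ' E' KS : ℝ}
    (hn : 1 ≤ n) (hq : 0 < q) (hq1 : q ≤ 1) (hyp : ∀ F : H.Subgraph, 1 ≤ expCopies n q F.coe)
    (hNd : N = Real.log n) (hcd : c = Real.log (1 / q))
    (hBP : BP N c θ θ' E' KS) {F : SimpleGraph Z} {x₀ : V}
    {U B Y : Finset Z} {g : Z → V} (hY : Y = U ∪ B) (hB1 : B.card = 1)
    (hg : Set.InjOn g (U : Set Z)) (he1 : 1 ≤ eT F Y B)
    (hv : -(B.card : ℝ) ≤ (B.card : ℝ) * N - (eT F Y B : ℝ) * c) :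
    ((Fib F H x₀ U Y g).card : ℝ) * Real.exp (-((B.card : ℝ) * N - (eT F Y B : ℝ) * c)) ≤
      LamB N c θ θ' E' KS ^ eT F Y B := by
  obtain ⟨w, rfl⟩ := Finset.card_eq_one.mp hB1
  have hBne : ({w} : Finset Z).Nonempty := Finset.singleton_nonempty w
  have hBY : ({w} : Finset Z) ⊆ Y := by rw [hY]; exact Finset.subset_union_right
  have hN1 := hBP.hN1
  have hN0 : 0 < N := by linarith
  have hc0 := hBP.hc0
  have hθ := hBP.hθ
  have hθ'0 := hBP.hθ'0
  have hθ'1 := hBP.hθ'1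
  have hE' := hBP.hE'
  obtain ⟨e, he⟩ : ∃ e, e = eT F Y {w} := ⟨_, rfl⟩
  obtain ⟨v, hvdef⟩ : ∃ v : ℝ, v = (({w} : Finset Z).card : ℝ) * N - (eT F Y {w} : ℝ) * c :=
    ⟨_, rfl⟩
  rw [← hvdef] at hv ⊢
  rw [← he]
  rw [← he] at he1
  simp only [Finset.card_singleton, Nat.cast_one] at hv
  have hvv : v = N - (e : ℝ) * c := by
    rw [hvdef, he]
    simp
  have hFdis : ∀ f ∈ Fib F H x₀ U Y g, ∀ f' ∈ Fib F H x₀ U Y g, f ≠ f' →
      ∀ a ∈ ({w} : Finset Z), ∀ b ∈ ({w} : Finset Z), f a ≠ f' b := by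
    intro f hf f' hf' hne a ha b hb h
    rw [Finset.mem_singleton.mp ha, Finset.mem_singleton.mp hb] at h
    exact hne (fib_ext hY hf hf' h)
  have htw := twin_exp (F := F) (x₀ := x₀) (g := g) hn hq hq1 hyp hY hBne hg rfl
    (Finset.Subset.refl _) hFdis
  rw [← hNd, ← hcd, ← hvdef] at htw
  obtain ⟨b, hbdef⟩ : ∃ b : ℝ, b = ((bdry F Y {w}).card : ℝ) := ⟨_, rfl⟩
  rw [← hbdef] at htw
  have hb0 : 0 ≤ b := by rw [hbdef]; positivity
  have hbe : b ≤ e := by
    rw [hbdef, he]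
    exact_mod_cast bdry_card_le hBY
  have hnu := nu_bound (by positivity) htw
  obtain ⟨ν, hν⟩ : ∃ ν : ℝ, ν = ((Fib F H x₀ U Y g).card : ℝ) := ⟨_, rfl⟩
  rw [← hν] at hnu ⊢
  obtain ⟨x, hx⟩ : ∃ x, x = Real.exp (-v) := ⟨_, rfl⟩
  rw [← hx]
  have hx0 : 0 < x := by rw [hx]; exact Real.exp_pos _
  have he1' : Real.exp (1 + v) * x = Real.exp 1 := by
    rw [hx, ← Real.exp_add]
    congr 1
    ring
  have hνx : ν * x ≤ 3 * Real.exp 1 + b * (N * x) := by
    have := mul_le_mul_of_nonneg_right hnu hx0.le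
    calc ν * x ≤ (3 * Real.exp (1 + v) + b * N) * x := this
      _ = 3 * (Real.exp (1 + v) * x) + b * (N * x) := by ring
      _ = _ := by rw [he1']
  have hE3 : Real.exp 1 ≤ 3 := Real.exp_one_lt_three.le
  have hE0 := Real.exp_pos 1
  obtain ⟨Dr, hDr⟩ : ∃ Dr : ℝ, Dr = 8 * (N + 1 / 2) ^ 2 / c := ⟨_, rfl⟩
  have hDrN : N ≤ Dr := by rw [hDr]; exact Dr_ge hBP
  have hDr1 : 1 ≤ Dr := by linarith
  obtain ⟨β, hβ⟩ : ∃ β : ℝ, β = (1 / E' + θ / θ') * (e : ℝ) := ⟨_, rfl⟩
  have hβ0 : 0 ≤ β := by rw [hβ]; positivity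
  have hDrβ1 : 1 ≤ Dr ^ β := Real.one_le_rpow hDr1 hβ0
  have hinv1 : 1 ≤ 1 / θ' := by
    rw [le_div_iff₀ hθ'0]
    linarith
  have hee : (1 : ℝ) ≤ (e : ℝ) := by exact_mod_cast he1
  -- the main estimate
  have hmain : ν * x ≤ 12 * (e : ℝ) * (1 / θ') * Dr ^ β := by
    by_cases hβ1 : β < 1
    · -- rich
      have hrate : (e : ℝ) / E' < 1 := by
        have h1 : 0 ≤ θ / θ' * (e : ℝ) := by positivity
        have h2 : (e : ℝ) / E' = 1 / E' * (e : ℝ) := by ring
        rw [hβ, add_mul] at hβ1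
        rw [h2]
        linarith
      have heE : (e : ℝ) < E' := by
        rwa [div_lt_one hE'] at hrate
      have hvrich : θ' * N ≤ v := by
        rcases hBP.hNR 1 e le_rfl heE with h1 | ⟨_, h2⟩
        · rw [hvv]
          simpa using h1
        · exfalso
          have h3 : 0 ≤ θ * N * (e : ℝ) := by positivity
          simp only [Nat.cast_one, one_mul] at h2
          rw [hvv] at hv
          linarith
      have hNx : N * x ≤ 1 / θ' := by
        rw [le_div_iff₀ hθ'0]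
        have h2 : θ' * N + 1 ≤ Real.exp (θ' * N) := Real.add_one_le_exp _
        have h3 : x ≤ Real.exp (-(θ' * N)) := by
          rw [hx]
          exact Real.exp_le_exp.mpr (by linarith)
        have h4 : Real.exp (θ' * N) * Real.exp (-(θ' * N)) = 1 := by
          rw [← Real.exp_add]; simp
        have h5 : θ' * N * x ≤ Real.exp (θ' * N) * Real.exp (-(θ' * N)) :=
          mul_le_mul (by linarith) h3 hx0.le (Real.exp_pos _).le
        linarith
      have h6 : b * (N * x) ≤ (e : ℝ) * (1 / θ') := mul_le_mul hbe hNx (by positivity) (by positivity)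
      have h7 : ν * x ≤ 9 * (1 / θ') + (e : ℝ) * (1 / θ') := by linarith
      have h8 : 9 * (1 / θ') + (e : ℝ) * (1 / θ') ≤ 12 * (e : ℝ) * (1 / θ') := by
        have h0 : 0 ≤ 1 / θ' := by positivity
        have h1 : 1 / θ' ≤ (e : ℝ) * (1 / θ') := le_mul_of_one_le_left h0 hee
        linarith
      have h9 : 12 * (e : ℝ) * (1 / θ') * 1 ≤ 12 * (e : ℝ) * (1 / θ') * Dr ^ β :=
        mul_le_mul_of_nonneg_left hDrβ1 (by positivity)
      linarith
    · -- a logarithm is paid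
      push Not at hβ1
      have hN2 : N ≤ Dr ^ β := by
        calc N ≤ Dr := hDrN
          _ = Dr ^ (1 : ℝ) := (Real.rpow_one _).symm
          _ ≤ Dr ^ β := Real.rpow_le_rpow_of_exponent_le hDr1 hβ1
      have hx3 : x ≤ 3 := by
        have : x ≤ Real.exp 1 := by
          rw [hx]
          exact Real.exp_le_exp.mpr (by linarith)
        linarith
      have h6 : b * (N * x) ≤ (e : ℝ) * (Dr ^ β * 3) :=
        mul_le_mul hbe (mul_le_mul hN2 hx3 hx0.le (by positivity)) (by positivity) (by positivity)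
      have h7 : ν * x ≤ 9 * Dr ^ β + 3 * (e : ℝ) * Dr ^ β := by linarith
      have h8 : 9 * Dr ^ β + 3 * (e : ℝ) * Dr ^ β ≤ 12 * (e : ℝ) * Dr ^ β := by
        have h0 : 0 ≤ Dr ^ β := by positivity
        have h1 : Dr ^ β ≤ (e : ℝ) * Dr ^ β := le_mul_of_one_le_left h0 hee
        linarith
      have h9 : 12 * (e : ℝ) * Dr ^ β * 1 ≤ 12 * (e : ℝ) * Dr ^ β * (1 / θ') :=
        mul_le_mul_of_nonneg_left hinv1 (by positivity)
      have e1 : 12 * (e : ℝ) * (1 / θ') * Dr ^ β = 12 * (e : ℝ) * Dr ^ β * (1 / θ') := by ring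
      rw [e1]
      linarith
  refine hmain.trans ?_
  -- the constants
  have h12 : 12 * (e : ℝ) ≤ 4128 ^ e := by
    have h1 : (e : ℝ) ≤ 2 ^ e := by exact_mod_cast (Nat.lt_two_pow_self (n := e)).le
    have h2 : (12 : ℝ) ≤ 12 ^ e := by
      calc (12 : ℝ) = 12 ^ 1 := by norm_num
        _ ≤ _ := pow_le_pow_right₀ (by norm_num) he1
    calc 12 * (e : ℝ) ≤ 12 ^ e * 2 ^ e := mul_le_mul h2 h1 (by positivity) (by positivity)
      _ = 24 ^ e := by
          rw [← mul_pow]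
          norm_num
      _ ≤ _ := pow_le_pow_left₀ (by norm_num) (by norm_num) e
  have h1θ : 1 / θ' ≤ (1 / θ') ^ e := by
    calc 1 / θ' = (1 / θ') ^ 1 := (pow_one _).symm
      _ ≤ _ := pow_le_pow_right₀ hinv1 he1
  have hKS1 : (1 : ℝ) ≤ KS ^ e := one_le_pow₀ hBP.hKS1
  have h5 : Dr ^ β = (Dr ^ (1 / E' + θ / θ')) ^ e := by
    rw [hβ, Real.rpow_mul (by linarith), Real.rpow_natCast]
  rw [h5]
  have h6 : 0 ≤ (Dr ^ (1 / E' + θ / θ')) ^ e := by positivity
  unfold LamB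
  rw [← hDr, mul_pow, mul_pow, mul_pow]
  refine mul_le_mul_of_nonneg_right ?_ h6
  calc 12 * (e : ℝ) * (1 / θ') ≤ 4128 ^ e * (1 / θ') ^ e :=
        mul_le_mul h12 h1θ (by positivity) (by positivity)
    _ = 4128 ^ e * 1 * (1 / θ') ^ e := by ring
    _ ≤ _ := by
        refine mul_le_mul_of_nonneg_right ?_ (by positivity)
        exact mul_le_mul_of_nonneg_left hKS1 (by positivity)

/-- The count for a block with one vertex and no edges. -/
theorem block_zero {H : SimpleGraph V} {n : ℕ} {N c : ℝ} (hn : 1 ≤ n) (hV : Fintype.card V ≤ n)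
    (hNd : N = Real.log n) {F : SimpleGraph Z} {x₀ : V}
    {U B Y : Finset Z} {g : Z → V} (hY : Y = U ∪ B) (hB1 : B.card = 1) (he0 : eT F Y B = 0) :
    ((Fib F H x₀ U Y g).card : ℝ) * Real.exp (-((B.card : ℝ) * N - (eT F Y B : ℝ) * c)) ≤ 1 := by
  obtain ⟨w, rfl⟩ := Finset.card_eq_one.mp hB1
  have hn0 : (0 : ℝ) < n := by exact_mod_cast hn
  rw [he0]
  simp only [Finset.card_singleton, Nat.cast_one, one_mul, Nat.cast_zero, zero_mul, sub_zero]
  rw [hNd, Real.exp_neg, Real.exp_log hn0]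
  have h1 : (Fib F H x₀ U Y g).card ≤ n := by
    refine le_trans ?_ hV
    rw [← Finset.card_univ]
    refine Finset.card_le_card_of_injOn (fun f => f w) (fun _ _ => Finset.mem_coe.mpr
      (Finset.mem_univ _)) ?_
    intro f hf f' hf' h
    exact fib_ext hY (Finset.mem_coe.mp hf) (Finset.mem_coe.mp hf') h
  have h2 : ((Fib F H x₀ U Y g).card : ℝ) ≤ n := by exact_mod_cast h1
  rw [← div_eq_mul_inv, div_le_one hn0]
  exact h2

/-- The general block bound. -/
theorem block_bound {H : SimpleGraph V} {T : V → V → ℝ} {n : ℕ} {q N c θ θ' E' KS : ℝ}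
    (hn : 1 ≤ n) (hV : Fintype.card V ≤ n) (hq : 0 < q) (hq1 : q ≤ 1)
    (hyp : ∀ F : H.Subgraph, 1 ≤ expCopies n q F.coe)
    (hNd : N = Real.log n) (hcd : c = Real.log (1 / q))
    (hT : HTok H T c (N + 1 / 2)) (hBP : BP N c θ θ' E' KS) {F : SimpleGraph Z} {x₀ : V}
    {U B Y : Finset Z} {g : Z → V} (hY : Y = U ∪ B) (hdisj : Disjoint U B) (hBne : B.Nonempty)
    (hg : Set.InjOn g (U : Set Z))
    (hrigid : ∀ T', T' ⊆ B → T'.Nonempty → T' ≠ B →
      (T'.card : ℝ) * N - (eT F Y T' : ℝ) * c ≤ -(T'.card : ℝ))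
    (hv : -(B.card : ℝ) ≤ (B.card : ℝ) * N - (eT F Y B : ℝ) * c) :
    ((Fib F H x₀ U Y g).card : ℝ) * Real.exp (-((B.card : ℝ) * N - (eT F Y B : ℝ) * c)) ≤
      LamB N c θ θ' E' KS ^ eT F Y B := by
  by_cases h2 : 2 ≤ B.card
  · exact block_multi hn hq hq1 hyp hNd hcd hT hBP hY hdisj h2 hg hrigid hv
  · have h1 : B.card = 1 := by
      have := Finset.card_pos.mpr hBne
      omega
    by_cases he : eT F Y B = 0
    · rw [he, pow_zero]
      have := block_zero (F := F) (x₀ := x₀) (g := g) (c := c) (H := H) hn hV hNd hY h1 he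
      rwa [he] at this
    · exact block_single hn hq hq1 hyp hNd hcd hBP hY h1 hg (by omega) hv

end Vale.Agent.Lib.P064r
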