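import Vale.Agent.Lib.P064r.Code

/-!
Numerical lemmas for the count of extensions to a block.
-/

namespace Vale.Agent.Lib.P064r

open Finset SimpleGraph Vale.Agent.Lib.P064
open scoped Classical Nat

set_option linter.unusedSectionVars false
set_option linter.unusedVariables false

/-- The number of disjoint copies is bounded. -/
lemma nu_bound {m : ℕ} {a v : ℝ} (ha : 0 ≤ a) (h : ((m ! : ℕ) : ℝ) ≤ Real.exp (a + (m : ℝ) * v)) :
    (m : ℝ) ≤ 3 * Real.exp (1 + v) + a := by
  by_contra hcon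
  push Not at hcon
  have hE := Real.exp_pos (1 + v)
  have hm : (0 : ℝ) < m := by linarith
  have hm0 : 0 < m := by exact_mod_cast hm
  have h1 : 1 + v < Real.log ((m : ℝ) / 3) := by
    rw [Real.lt_log_iff_exp_lt (by positivity)]
    linarith
  have h2 := pow_self_le m
  have h3 : ((m : ℝ) / 3) ^ m ≤ ((m ! : ℕ) : ℝ) := by
    rw [div_pow, div_le_iff₀ (by positivity)]
    linarith
  have h4 : ((m : ℝ) / 3) ^ m ≤ Real.exp (a + (m : ℝ) * v) := h3.trans h
  have h5 := Real.log_le_log (by positivity) h4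
  rw [Real.log_pow, Real.log_exp] at h5
  have h6 : (m : ℝ) * (1 + v) < (m : ℝ) * Real.log ((m : ℝ) / 3) := mul_lt_mul_of_pos_left h1 hm
  have h7 : (m : ℝ) < a := by nlinarith
  linarith

/-- The general numerical bound for the set of images. -/
lemma img_num {ν P s b N κ v : ℝ} (hν0 : 0 ≤ ν) (hs : 0 ≤ s) (hb : 0 ≤ b) (hN : 0 ≤ N) (hκ : 0 < κ)
    (hνb : ν ≤ 3 * Real.exp (1 + v) + b * N) (hP : 0 ≤ b * N + ν * v - κ * P) :
    (ν * s + P) * Real.exp (-v) ≤ 3 * Real.exp 1 * (s + max v 0 / κ) +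
      b * N * (s * Real.exp (-v) + 1 / κ + Real.exp (-v) / κ) := by
  obtain ⟨x, hx⟩ : ∃ x, x = Real.exp (-v) := ⟨_, rfl⟩
  have hx0 : 0 < x := by rw [hx]; exact Real.exp_pos _
  obtain ⟨w, hw⟩ : ∃ w, w = max v 0 := ⟨_, rfl⟩
  have hwv : v ≤ w := by rw [hw]; exact le_max_left _ _
  have hw0 : 0 ≤ w := by rw [hw]; exact le_max_right _ _
  have hwx : w * x ≤ 1 := by
    rcases le_total v 0 with h | h
    · have : w = 0 := by rw [hw]; exact max_eq_right h
      rw [this, zero_mul]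
      norm_num
    · have : w = v := by rw [hw]; exact max_eq_left h
      rw [this, hx]
      have h1 : v + 1 ≤ Real.exp v := Real.add_one_le_exp v
      have h2 : Real.exp v * Real.exp (-v) = 1 := by
        rw [← Real.exp_add]; simp
      have h3 : v * Real.exp (-v) ≤ Real.exp v * Real.exp (-v) :=
        mul_le_mul_of_nonneg_right (by linarith) (Real.exp_pos _).le
      linarith
  have he1 : Real.exp (1 + v) * x = Real.exp 1 := by
    rw [hx, ← Real.exp_add]
    congr 1
    ring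
  rw [← hx, ← hw]
  have hP' : P ≤ (b * N + ν * w) / κ := by
    rw [le_div_iff₀ hκ]
    have : ν * v ≤ ν * w := mul_le_mul_of_nonneg_left hwv hν0
    linarith
  have hνx : ν * x ≤ 3 * Real.exp 1 + b * N * x := by
    have := mul_le_mul_of_nonneg_right hνb hx0.le
    calc ν * x ≤ (3 * Real.exp (1 + v) + b * N) * x := this
      _ = 3 * (Real.exp (1 + v) * x) + b * N * x := by ring
      _ = _ := by rw [he1]
  have hs2 : 0 ≤ s + w / κ := by positivity
  calc (ν * s + P) * x ≤ (ν * s + (b * N + ν * w) / κ) * x := by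
        refine mul_le_mul_of_nonneg_right ?_ hx0.le
        linarith
    _ = (ν * x) * (s + w / κ) + b * N * x / κ := by
        field_simp
        ring
    _ ≤ (3 * Real.exp 1 + b * N * x) * (s + w / κ) + b * N * x / κ := by
        have := mul_le_mul_of_nonneg_right hνx hs2
        linarith
    _ = 3 * Real.exp 1 * (s + w / κ) + b * N * (s * x + (w * x) / κ + x / κ) := by
        field_simp
        ring
    _ ≤ _ := by
        have h1 : (w * x) / κ ≤ 1 / κ := div_le_div_of_nonneg_right hwx hκ.le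
        have h2 : 0 ≤ b * N := by positivity
        have h3 := mul_le_mul_of_nonneg_left h1 h2
        nlinarith

/-- The bound for the images with the general decrement `1`. -/
lemma img_general {ν P s b N v : ℝ} (hν0 : 0 ≤ ν) (hs : 0 ≤ s) (hb : 0 ≤ b) (hN : 1 ≤ N)
    (hνb : ν ≤ 3 * Real.exp (1 + v) + b * N) (hP : 0 ≤ b * N + ν * v - 1 * P) (hv : -s ≤ v)
    (hv2 : v ≤ s * N) :
    (ν * s + P) * Real.exp (-v) ≤ N * (6 * Real.exp 1 * s +
      b * (s * Real.exp s + 1 + Real.exp s)) := by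
  have h1 := img_num hν0 hs hb (by linarith) one_pos hνb hP
  refine h1.trans ?_
  have hx : Real.exp (-v) ≤ Real.exp s := Real.exp_le_exp.mpr (by linarith)
  have hx0 := Real.exp_pos (-v)
  have hmax : max v 0 ≤ s * N := max_le hv2 (by positivity)
  have hE := Real.exp_pos 1
  have h2 : 3 * Real.exp 1 * (s + max v 0 / 1) ≤ N * (6 * Real.exp 1 * s) := by
    rw [div_one]
    have h3 : s + max v 0 ≤ 2 * s * N := by nlinarith
    have h4 := mul_le_mul_of_nonneg_left h3 (by positivity : 0 ≤ 3 * Real.exp 1)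
    nlinarith
  have h3 : b * N * (s * Real.exp (-v) + 1 / 1 + Real.exp (-v) / 1) ≤
      N * (b * (s * Real.exp s + 1 + Real.exp s)) := by
    have h4 : s * Real.exp (-v) + 1 / 1 + Real.exp (-v) / 1 ≤ s * Real.exp s + 1 + Real.exp s := by
      have := mul_le_mul_of_nonneg_left hx hs
      simp only [div_one]
      linarith
    have h5 := mul_le_mul_of_nonneg_left h4 (by positivity : 0 ≤ b * N)
    calc _ ≤ _ := h5
      _ = _ := by ring
  linarith

/-- The bound for the images when all proper parts lose `θ' N`. -/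
lemma img_rich {ν P s b N v θ' : ℝ} (hν0 : 0 ≤ ν) (hs : 1 ≤ s) (hb : 0 ≤ b) (hN : 0 < N)
    (hθ' : 0 < θ') (hθ1 : θ' ≤ 1)
    (hνb : ν ≤ 3 * Real.exp (1 + v) + b * N) (hP : 0 ≤ b * N + ν * v - (θ' * N / s) * P)
    (hv : θ' * N ≤ v) (hv2 : v ≤ s * N) :
    (ν * s + P) * Real.exp (-v) ≤ (3 * Real.exp 1 * s + 3 * Real.exp 1 * s ^ 2 + 3 * b * s) / θ' := by
  have hs0 : 0 < s := by linarith
  have hκ : 0 < θ' * N / s := by positivity
  have h1 := img_num hν0 hs0.le hb hN.le hκ hνb hP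
  refine h1.trans ?_
  have hv0 : 0 ≤ v := le_trans (by positivity) hv
  have hmax : max v 0 = v := max_eq_left hv0
  rw [hmax]
  obtain ⟨x, hx⟩ : ∃ x, x = Real.exp (-v) := ⟨_, rfl⟩
  rw [← hx]
  have hx0 : 0 < x := by rw [hx]; exact Real.exp_pos _
  have hx1 : x ≤ 1 := by
    rw [hx]
    exact Real.exp_le_one_iff.mpr (by linarith)
  have hNx : θ' * N * x ≤ 1 := by
    have h2 : θ' * N + 1 ≤ Real.exp (θ' * N) := Real.add_one_le_exp _
    have h3 : x ≤ Real.exp (-(θ' * N)) := by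
      rw [hx]
      exact Real.exp_le_exp.mpr (by linarith)
    have h4 : Real.exp (θ' * N) * Real.exp (-(θ' * N)) = 1 := by
      rw [← Real.exp_add]; simp
    have h5 : θ' * N * x ≤ Real.exp (θ' * N) * Real.exp (-(θ' * N)) :=
      mul_le_mul (by linarith) h3 hx0.le (Real.exp_pos _).le
    linarith
  have hE := Real.exp_pos 1
  -- term by term
  have t1 : v / (θ' * N / s) ≤ s ^ 2 / θ' := by
    rw [div_le_div_iff₀ hκ hθ']
    have : v * θ' ≤ (s * N) * θ' := mul_le_mul_of_nonneg_right hv2 hθ'.le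
    have e1 : s ^ 2 * (θ' * N / s) = s * θ' * N := by
      field_simp
    rw [e1]
    linarith
  have t2 : s ≤ s / θ' := by
    rw [le_div_iff₀ hθ']
    nlinarith
  have t3 : b * N * (s * x) ≤ b * s / θ' := by
    rw [le_div_iff₀ hθ']
    have : b * s * (θ' * N * x) ≤ b * s * 1 := mul_le_mul_of_nonneg_left hNx (by positivity)
    calc b * N * (s * x) * θ' = b * s * (θ' * N * x) := by ring
      _ ≤ _ := this
      _ = _ := by ring
  have t4 : b * N * (1 / (θ' * N / s)) = b * s / θ' := by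
    field_simp
  have t5 : b * N * (x / (θ' * N / s)) ≤ b * s / θ' := by
    have e1 : b * N * (x / (θ' * N / s)) = b * s / θ' * x := by
      field_simp
    rw [e1]
    have : 0 ≤ b * s / θ' := by positivity
    nlinarith
  have t6 : 3 * Real.exp 1 * (s + v / (θ' * N / s)) ≤ 3 * Real.exp 1 * (s / θ' + s ^ 2 / θ') :=
    mul_le_mul_of_nonneg_left (by linarith) (by positivity)
  have e2 : (3 * Real.exp 1 * s + 3 * Real.exp 1 * s ^ 2 + 3 * b * s) / θ' =
      3 * Real.exp 1 * (s / θ' + s ^ 2 / θ') + 3 * (b * s / θ') := by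
    field_simp
  rw [e2]
  have e3 : b * N * (s * x + 1 / (θ' * N / s) + x / (θ' * N / s)) =
      b * N * (s * x) + b * N * (1 / (θ' * N / s)) + b * N * (x / (θ' * N / s)) := by ring
  rw [e3, t4]
  linarith

/-- The constant in the block bound. -/
lemma const_bound {x : ℕ} (hx : 1 ≤ x) {s b : ℝ} (hs0 : 0 ≤ s) (hs : s ≤ x) (hb0 : 0 ≤ b)
    (hb : b ≤ x) :
    Real.exp s + (6 * Real.exp 1 * s + b * (s * Real.exp s + 1 + Real.exp s)) +
      (3 * Real.exp 1 * s + 3 * Real.exp 1 * s ^ 2 + 3 * b * s) ≤ (516 : ℝ) ^ x := by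
  have hE3 : Real.exp 1 ≤ 3 := Real.exp_one_lt_three.le
  have hE0 := Real.exp_pos 1
  obtain ⟨X, hX⟩ : ∃ X : ℝ, X = (x : ℝ) := ⟨_, rfl⟩
  rw [← hX] at hs hb
  have hX0 : 0 ≤ X := by rw [hX]; positivity
  have hX1 : X ≤ 2 ^ x := by
    rw [hX]
    exact_mod_cast (Nat.lt_two_pow_self (n := x)).le
  have hXX : X * X ≤ 4 ^ x := by
    have : (4 : ℝ) ^ x = 2 ^ x * 2 ^ x := by
      rw [← mul_pow]
      norm_num
    rw [this]
    exact mul_le_mul hX1 hX1 hX0 (by positivity)
  have hes : Real.exp s ≤ 3 ^ x := by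
    calc Real.exp s ≤ Real.exp X := Real.exp_le_exp.mpr hs
      _ = Real.exp 1 ^ x := by
          rw [hX, ← Real.exp_nat_mul]
          simp
      _ ≤ _ := pow_le_pow_left₀ hE0.le hE3 x
  have hes0 := Real.exp_pos s
  set P12 : ℝ := 12 ^ x with hP12
  have hP : (0 : ℝ) < P12 := by positivity
  have h2P : (2 : ℝ) ^ x ≤ P12 := pow_le_pow_left₀ (by norm_num) (by norm_num) x
  have h3P : (3 : ℝ) ^ x ≤ P12 := pow_le_pow_left₀ (by norm_num) (by norm_num) x
  have h4P : (4 : ℝ) ^ x ≤ P12 := pow_le_pow_left₀ (by norm_num) (by norm_num) x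
  have h43 : (4 : ℝ) ^ x * 3 ^ x = P12 := by
    rw [hP12, ← mul_pow]
    norm_num
  have h23 : (2 : ℝ) ^ x * 3 ^ x ≤ P12 := by
    rw [hP12, ← mul_pow]
    exact pow_le_pow_left₀ (by norm_num) (by norm_num) x
  have hss : s * s ≤ X * X := mul_le_mul hs hs hs0 hX0
  have hbs : b * s ≤ X * X := mul_le_mul hb hs hs0 hX0
  have t1 : 6 * Real.exp 1 * s ≤ 18 * P12 := by
    have h1 : Real.exp 1 * s ≤ 3 * X := mul_le_mul hE3 hs hs0 (by norm_num)
    nlinarith
  have t2 : b * s * Real.exp s ≤ P12 := by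
    calc b * s * Real.exp s ≤ (X * X) * 3 ^ x := mul_le_mul hbs hes hes0.le (by positivity)
      _ ≤ 4 ^ x * 3 ^ x := mul_le_mul_of_nonneg_right hXX (by positivity)
      _ = _ := h43
  have t3 : b * Real.exp s ≤ P12 := by
    calc b * Real.exp s ≤ 2 ^ x * 3 ^ x := mul_le_mul (hb.trans hX1) hes hes0.le (by positivity)
      _ ≤ _ := h23
  have t4 : 3 * Real.exp 1 * s ≤ 9 * P12 := by
    have h1 : Real.exp 1 * s ≤ 3 * X := mul_le_mul hE3 hs hs0 (by norm_num)
    nlinarith
  have t5 : 3 * Real.exp 1 * s ^ 2 ≤ 9 * P12 := by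
    have h1 : Real.exp 1 * (s * s) ≤ 3 * (X * X) := mul_le_mul hE3 hss (by positivity) (by norm_num)
    have h2 : s ^ 2 = s * s := by ring
    rw [h2]
    nlinarith
  have t6 : 3 * b * s ≤ 3 * P12 := by nlinarith
  have t7 : b ≤ P12 := by linarith
  have hsum : Real.exp s + (6 * Real.exp 1 * s + b * (s * Real.exp s + 1 + Real.exp s)) +
      (3 * Real.exp 1 * s + 3 * Real.exp 1 * s ^ 2 + 3 * b * s) ≤ 43 * P12 := by
    have e1 : b * (s * Real.exp s + 1 + Real.exp s) = b * s * Real.exp s + b + b * Real.exp s := by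
      ring
    rw [e1]
    linarith
  refine hsum.trans ?_
  have h43' : (43 : ℝ) ≤ 43 ^ x := by
    calc (43 : ℝ) = 43 ^ 1 := by norm_num
      _ ≤ 43 ^ x := pow_le_pow_right₀ (by norm_num) hx
  calc 43 * P12 ≤ 43 ^ x * P12 := mul_le_mul_of_nonneg_right h43' hP.le
    _ = _ := by
        rw [hP12, ← mul_pow]
        norm_num

end Vale.Agent.Lib.P064r
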