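import Vale.Agent.Lib.P064r.Block2

/-!
The chain of blocks: the penalised value is minimised repeatedly, and the counts of extensions to
the blocks are multiplied.
-/

namespace Vale.Agent.Lib.P064r

open Finset SimpleGraph Vale.Agent.Lib.P064
open scoped Classical Nat

set_option linter.unusedSectionVars false
set_option linter.unusedVariables false

universe u v

variable {V : Type v} [Fintype V] {Z : Type u} [Fintype Z]

/-- The number of edges inside `Y`. -/
noncomputable def eIn (F : SimpleGraph Z) (Y : Finset Z) : ℕ := eT F Y Y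

/-- Removing a subset: the edges inside `Y` either touch `T` or lie inside `Y \ T`. -/
lemma eIn_split (F : SimpleGraph Z) {Y T : Finset Z} (hT : T ⊆ Y) :
    eIn F Y = eIn F (Y \ T) + eT F Y T := by
  unfold eIn eT
  rw [← Finset.card_union_of_disjoint]
  · congr 1
    ext e
    simp only [Finset.mem_union, mem_cutE]
    constructor
    · rintro ⟨h1, h2, a, ha, _⟩
      by_cases h3 : ∃ b ∈ e, b ∈ T
      · exact Or.inr ⟨h1, h2, h3⟩
      · push Not at h3
        refine Or.inl ⟨h1, fun b hb => Finset.mem_sdiff.mpr ⟨h2 b hb, h3 b hb⟩, a, ha,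
          Finset.mem_sdiff.mpr ⟨h2 a ha, h3 a ha⟩⟩
    · rintro (⟨h1, h2, a, ha, haT⟩ | ⟨h1, h2, a, ha, haT⟩)
      · exact ⟨h1, fun b hb => (Finset.mem_sdiff.mp (h2 b hb)).1, a, ha,
          (Finset.mem_sdiff.mp haT).1⟩
      · exact ⟨h1, h2, a, ha, hT haT⟩
  · rw [Finset.disjoint_left]
    intro e he he'
    rcases mem_cutE.mp he with ⟨_, h2, _⟩
    rcases mem_cutE.mp he' with ⟨_, _, a, ha, haT⟩
    exact (Finset.mem_sdiff.mp (h2 a ha)).2 haT

/-- The value of a set. -/
noncomputable def mval (F : SimpleGraph Z) (N c : ℝ) (Y : Finset Z) : ℝ :=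
  (Y.card : ℝ) * N - (eIn F Y : ℝ) * c

/-- The penalised value of a set. -/
noncomputable def mk (F : SimpleGraph Z) (N c : ℝ) (Y : Finset Z) : ℝ :=
  mval F N c Y + (Y.card : ℝ)

lemma mval_sdiff (F : SimpleGraph Z) (N c : ℝ) {Y T : Finset Z} (hT : T ⊆ Y) :
    mval F N c Y = mval F N c (Y \ T) + ((T.card : ℝ) * N - (eT F Y T : ℝ) * c) := by
  unfold mval
  rw [eIn_split F hT, Finset.card_sdiff_of_subset hT]
  have h1 : T.card ≤ Y.card := Finset.card_le_card hT
  rw [Nat.cast_sub h1]
  push_cast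
  ring

lemma mk_sdiff (F : SimpleGraph Z) (N c : ℝ) {Y T : Finset Z} (hT : T ⊆ Y) :
    mk F N c Y = mk F N c (Y \ T) + ((T.card : ℝ) * N - (eT F Y T : ℝ) * c) + (T.card : ℝ) := by
  unfold mk
  rw [mval_sdiff F N c hT, Finset.card_sdiff_of_subset hT]
  have h1 : T.card ≤ Y.card := Finset.card_le_card hT
  rw [Nat.cast_sub h1]
  ring

/-- The choice of the next set in the chain. -/
lemma exists_next (F : SimpleGraph Z) (N c : ℝ) {U : Finset Z} (hU : U ≠ Finset.univ) :
    ∃ Y, U ⊂ Y ∧ (∀ Y', U ⊂ Y' → mk F N c Y ≤ mk F N c Y') ∧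
      ∀ Y', U ⊂ Y' → Y'.card < Y.card → mk F N c Y < mk F N c Y' := by
  set S : Finset (Finset Z) := (Finset.univ : Finset (Finset Z)).filter (fun Y => U ⊂ Y) with hS
  have hSne : S.Nonempty := by
    refine ⟨Finset.univ, Finset.mem_filter.mpr ⟨Finset.mem_univ _, ?_⟩⟩
    exact Finset.ssubset_iff_subset_ne.mpr ⟨Finset.subset_univ _, hU⟩
  obtain ⟨Y₀, hY₀, hmin⟩ := Finset.exists_min_image S (mk F N c) hSne
  set S' : Finset (Finset Z) := S.filter (fun Y => mk F N c Y = mk F N c Y₀) with hS'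
  have hS'ne : S'.Nonempty := ⟨Y₀, Finset.mem_filter.mpr ⟨hY₀, rfl⟩⟩
  obtain ⟨Y, hY, hmin'⟩ := Finset.exists_min_image S' Finset.card hS'ne
  rcases Finset.mem_filter.mp hY with ⟨hYS, hYv⟩
  refine ⟨Y, (Finset.mem_filter.mp hYS).2, ?_, ?_⟩
  · intro Y' hY'
    rw [hYv]
    exact hmin Y' (Finset.mem_filter.mpr ⟨Finset.mem_univ _, hY'⟩)
  · intro Y' hY' hcard
    have hY'S : Y' ∈ S := Finset.mem_filter.mpr ⟨Finset.mem_univ _, hY'⟩
    rw [hYv]
    refine lt_of_le_of_ne (hmin Y' hY'S) ?_
    intro h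
    have := hmin' Y' (Finset.mem_filter.mpr ⟨hY'S, h.symm⟩)
    omega

/-- The main induction along the chain. -/
theorem chain_ind {H : SimpleGraph V} {F : SimpleGraph Z} {x₀ : V} {N c Λ : ℝ} (hΛ : 0 < Λ)
    (hblock : ∀ (U B Y : Finset Z) (g : Z → V), Y = U ∪ B → Disjoint U B → B.Nonempty →
      Set.InjOn g (U : Set Z) →
      (∀ T', T' ⊆ B → T'.Nonempty → T' ≠ B →
        (T'.card : ℝ) * N - (eT F Y T' : ℝ) * c ≤ -(T'.card : ℝ)) →
      -(B.card : ℝ) ≤ (B.card : ℝ) * N - (eT F Y B : ℝ) * c →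
      ((Fib F H x₀ U Y g).card : ℝ) * Real.exp (-((B.card : ℝ) * N - (eT F Y B : ℝ) * c)) ≤
        Λ ^ eT F Y B) :
    ∀ (k : ℕ) (U : Finset Z), (Finset.univ \ U).card = k →
      (∀ Y', U ⊂ Y' → mk F N c U ≤ mk F N c Y') → ∀ g ∈ PE F H x₀ U,
      ((Fib F H x₀ U Finset.univ g).card : ℝ) *
        Real.exp (-(mval F N c Finset.univ - mval F N c U)) * Λ ^ eIn F U ≤
        Λ ^ eIn F Finset.univ := by
  intro k
  induction k using Nat.strong_induction_on with
  | _ k ih =>
    intro U hk hinv g hg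
    by_cases hU : U = Finset.univ
    · subst hU
      have h1 : (Fib F H x₀ Finset.univ Finset.univ g).card ≤ 1 := by
        refine Finset.card_le_one.mpr ?_
        intro f hf f' hf'
        funext z
        rw [(mem_Fib.mp hf).2 z (Finset.mem_univ _), (mem_Fib.mp hf').2 z (Finset.mem_univ _)]
      have h2 : ((Fib F H x₀ Finset.univ Finset.univ g).card : ℝ) ≤ 1 := by exact_mod_cast h1
      simp only [sub_self, neg_zero, Real.exp_zero, mul_one]
      have h3 : 0 ≤ Λ ^ eIn F Finset.univ := by positivity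
      nlinarith
    obtain ⟨Y, hUY, hmin, hstrict⟩ := exists_next F N c hU
    obtain ⟨B, hB⟩ : ∃ B, B = Y \ U := ⟨_, rfl⟩
    have hUYs : U ⊆ Y := hUY.subset
    have hBY : B ⊆ Y := by rw [hB]; exact Finset.sdiff_subset
    have hYeq : Y = U ∪ B := by
      rw [hB, Finset.union_sdiff_of_subset hUYs]
    have hdisj : Disjoint U B := by
      rw [hB]
      exact Finset.disjoint_sdiff
    have hYB : Y \ B = U := by
      rw [hB, Finset.sdiff_sdiff_eq_self hUYs]
    have hBne : B.Nonempty := by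
      rw [hB]
      exact Finset.sdiff_nonempty.mpr hUY.2
    have hginj : Set.InjOn g (U : Set Z) := (mem_PE.mp hg).2.1
    -- rigidity
    have hrigid : ∀ T', T' ⊆ B → T'.Nonempty → T' ≠ B →
        (T'.card : ℝ) * N - (eT F Y T' : ℝ) * c ≤ -(T'.card : ℝ) := by
      intro T' h1 h2 h3
      have hT'Y := h1.trans hBY
      have hsub : U ⊂ Y \ T' := by
        refine Finset.ssubset_iff_subset_ne.mpr ⟨?_, ?_⟩
        · intro z hz
          refine Finset.mem_sdiff.mpr ⟨hUYs hz, fun hzT => ?_⟩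
          exact (Finset.disjoint_left.mp hdisj hz) (h1 hzT)
        · intro h
          apply h3
          refine Finset.Subset.antisymm h1 ?_
          intro z hz
          by_contra hzT
          have hzY := hBY hz
          have hzU : z ∈ U := by
            rw [h]
            exact Finset.mem_sdiff.mpr ⟨hzY, hzT⟩
          exact (Finset.disjoint_left.mp hdisj hzU) hz
      have hcard : (Y \ T').card < Y.card := by
        refine Finset.card_lt_card ⟨Finset.sdiff_subset, fun h => ?_⟩
        obtain ⟨z, hz⟩ := h2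
        exact (Finset.mem_sdiff.mp (h (hT'Y hz))).2 hz
      have h4 := hstrict _ hsub hcard
      have h5 := mk_sdiff F N c hT'Y
      linarith
    -- the value of the block
    have hv : -(B.card : ℝ) ≤ (B.card : ℝ) * N - (eT F Y B : ℝ) * c := by
      have h1 := hinv Y hUY
      have h2 := mk_sdiff F N c hBY
      rw [hYB] at h2
      linarith
    have hbl := hblock U B Y g hYeq hdisj hBne hginj hrigid hv
    obtain ⟨v, hvdef⟩ : ∃ v, v = (B.card : ℝ) * N - (eT F Y B : ℝ) * c := ⟨_, rfl⟩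
    rw [← hvdef] at hbl
    have hmv : mval F N c Y = mval F N c U + v := by
      have h2 := mval_sdiff F N c hBY
      rw [hYB] at h2
      rw [h2, hvdef]
    have hein : eIn F Y = eIn F U + eT F Y B := by
      have h2 := eIn_split F hBY
      rw [hYB] at h2
      exact h2
    -- the recursion
    have hlt : (Finset.univ \ Y).card < k := by
      rw [← hk]
      refine Finset.card_lt_card ⟨?_, ?_⟩
      · intro z hz
        rcases Finset.mem_sdiff.mp hz with ⟨_, h2⟩
        exact Finset.mem_sdiff.mpr ⟨Finset.mem_univ _, fun h3 => h2 (hUYs h3)⟩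
      · intro h
        obtain ⟨z, hz⟩ := hBne
        have hzU : z ∉ U := fun h3 => (Finset.disjoint_left.mp hdisj h3) hz
        have := h (Finset.mem_sdiff.mpr ⟨Finset.mem_univ _, hzU⟩)
        exact (Finset.mem_sdiff.mp this).2 (hBY hz)
    have hIH : ∀ f' ∈ Fib F H x₀ U Y g, ((Fib F H x₀ Y Finset.univ f').card : ℝ) *
        Real.exp (-(mval F N c Finset.univ - mval F N c Y)) * Λ ^ eIn F Y ≤
        Λ ^ eIn F Finset.univ := by
      intro f' hf'
      exact ih _ hlt Y rfl (fun Y' hY' => hmin Y' (hUY.trans hY')) f' (mem_Fib.mp hf').1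
    -- the count
    have hsub : Fib F H x₀ U Finset.univ g ⊆
        (Fib F H x₀ U Y g).biUnion (fun f' => Fib F H x₀ Y Finset.univ f') := by
      intro f hf
      rcases mem_Fib.mp hf with ⟨hf1, hf2⟩
      rcases mem_PE.mp hf1 with ⟨_, hf3, hf4⟩
      set f' : Z → V := fun z => if z ∈ Y then f z else x₀ with hf'
      have hf'Y : ∀ z ∈ Y, f' z = f z := fun z hz => by
        simp only [hf']
        rw [if_pos hz]
      refine Finset.mem_biUnion.mpr ⟨f', mem_Fib.mpr ⟨mem_PE.mpr ⟨?_, ?_, ?_⟩, ?_⟩,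
        mem_Fib.mpr ⟨hf1, fun z hz => (hf'Y z hz).symm⟩⟩
      · intro z hz
        simp only [hf']
        rw [if_neg hz]
      · intro a ha b hb hab
        rw [hf'Y a ha, hf'Y b hb] at hab
        exact hf3 (by simp) (by simp) hab
      · intro a ha b hb hadj
        rw [hf'Y a ha, hf'Y b hb]
        exact hf4 a (Finset.mem_univ _) b (Finset.mem_univ _) hadj
      · intro z hz
        rw [hf'Y z (hUYs hz)]
        exact hf2 z hz
    have hcard : (Fib F H x₀ U Finset.univ g).card ≤
        ∑ f' ∈ Fib F H x₀ U Y g, (Fib F H x₀ Y Finset.univ f').card :=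
      (Finset.card_le_card hsub).trans Finset.card_biUnion_le
    have hcardR : ((Fib F H x₀ U Finset.univ g).card : ℝ) ≤
        ∑ f' ∈ Fib F H x₀ U Y g, ((Fib F H x₀ Y Finset.univ f').card : ℝ) := by
      exact_mod_cast hcard
    obtain ⟨A, hA⟩ : ∃ A, A = Real.exp (-(mval F N c Finset.univ - mval F N c Y)) * Λ ^ eIn F Y :=
      ⟨_, rfl⟩
    obtain ⟨B', hB'⟩ : ∃ B', B' = Real.exp (-(mval F N c Finset.univ - mval F N c U)) *
      Λ ^ eIn F U := ⟨_, rfl⟩
    obtain ⟨L, hL⟩ : ∃ L, L = Λ ^ eT F Y B := ⟨_, rfl⟩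
    have hLpos : 0 < L := by rw [hL]; positivity
    have hA0 : 0 < A := by rw [hA]; positivity
    have hB'0 : 0 < B' := by rw [hB']; positivity
    have hrel : B' * L = A * Real.exp (-v) := by
      rw [hB', hL, hA, hein, pow_add, hmv]
      have : Real.exp (-(mval F N c Finset.univ - mval F N c U)) =
          Real.exp (-(mval F N c Finset.univ - (mval F N c U + v))) * Real.exp (-v) := by
        rw [← Real.exp_add]
        congr 1
        ring
      rw [this]
      ring
    obtain ⟨E, hE⟩ : ∃ E, E = Λ ^ eIn F Finset.univ := ⟨_, rfl⟩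
    rw [← hE] at hIH ⊢
    have hsumA : (∑ f' ∈ Fib F H x₀ U Y g, ((Fib F H x₀ Y Finset.univ f').card : ℝ)) * A ≤
        ((Fib F H x₀ U Y g).card : ℝ) * E := by
      rw [Finset.sum_mul]
      calc ∑ f' ∈ Fib F H x₀ U Y g, ((Fib F H x₀ Y Finset.univ f').card : ℝ) * A
          ≤ ∑ _f' ∈ Fib F H x₀ U Y g, E := by
            refine Finset.sum_le_sum fun f' hf' => ?_
            have := hIH f' hf'
            rw [hA, ← mul_assoc]
            exact this
        _ = _ := by rw [Finset.sum_const, nsmul_eq_mul]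
    have hE0 : 0 < E := by rw [hE]; positivity
    have hexp0 := Real.exp_pos (-v)
    have hfinal : (((Fib F H x₀ U Finset.univ g).card : ℝ) * B') * L ≤ E * L := by
      calc (((Fib F H x₀ U Finset.univ g).card : ℝ) * B') * L
          = ((Fib F H x₀ U Finset.univ g).card : ℝ) * (B' * L) := by ring
        _ = ((Fib F H x₀ U Finset.univ g).card : ℝ) * (A * Real.exp (-v)) := by rw [hrel]
        _ ≤ (∑ f' ∈ Fib F H x₀ U Y g, ((Fib F H x₀ Y Finset.univ f').card : ℝ)) *
              (A * Real.exp (-v)) :=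
            mul_le_mul_of_nonneg_right hcardR (by positivity)
        _ = ((∑ f' ∈ Fib F H x₀ U Y g, ((Fib F H x₀ Y Finset.univ f').card : ℝ)) * A) *
              Real.exp (-v) := by ring
        _ ≤ (((Fib F H x₀ U Y g).card : ℝ) * E) * Real.exp (-v) :=
            mul_le_mul_of_nonneg_right hsumA hexp0.le
        _ = (((Fib F H x₀ U Y g).card : ℝ) * Real.exp (-v)) * E := by ring
        _ ≤ L * E := by
            rw [hL]
            exact mul_le_mul_of_nonneg_right hbl hE0.le
        _ = E * L := by ring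
    have h9 := le_of_mul_le_mul_right hfinal hLpos
    rw [mul_assoc, ← hB']
    exact h9

/-- The empty set has value zero. -/
lemma mk_empty (F : SimpleGraph Z) (N c : ℝ) : mk F N c ∅ = 0 := by
  have h : eIn F ∅ = 0 := by
    unfold eIn eT
    rw [Finset.card_eq_zero]
    refine Finset.eq_empty_of_forall_notMem fun e he => ?_
    rcases mem_cutE.mp he with ⟨_, _, a, _, ha⟩
    simp at ha
  unfold mk mval
  rw [h]
  simp

lemma eIn_univ (F : SimpleGraph Z) : eIn F Finset.univ = numEdges F := by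
  unfold eIn eT numEdges
  rw [← Set.ncard_coe_finset]
  congr 1
  ext e
  simp only [Finset.mem_coe, mem_cutE, SimpleGraph.mem_edgeSet]
  constructor
  · exact fun h => h.1
  · intro h
    refine ⟨h, fun _ _ => Finset.mem_univ _, ?_⟩
    induction e using Sym2.ind with
    | _ a b => exact ⟨a, Sym2.mem_mk_left a b, Finset.mem_univ _⟩

/-- The bound for all embeddings, from the bound for blocks. -/
theorem emb_of_blocks {H : SimpleGraph V} {n : ℕ} {q : ℝ} (hn : 1 ≤ n) (hq : 0 < q) (hq1 : q ≤ 1)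
    (hyp : ∀ F : H.Subgraph, 1 ≤ expCopies n q F.coe) {F : SimpleGraph Z} {Λ : ℝ} (hΛ : 0 < Λ)
    (hblock : ∀ (x₀ : V) (U B Y : Finset Z) (g : Z → V), Y = U ∪ B → Disjoint U B → B.Nonempty →
      Set.InjOn g (U : Set Z) →
      (∀ T', T' ⊆ B → T'.Nonempty → T' ≠ B →
        (T'.card : ℝ) * Real.log n - (eT F Y T' : ℝ) * Real.log (1 / q) ≤ -(T'.card : ℝ)) →
      -(B.card : ℝ) ≤ (B.card : ℝ) * Real.log n - (eT F Y B : ℝ) * Real.log (1 / q) →
      ((Fib F H x₀ U Y g).card : ℝ) *
        Real.exp (-((B.card : ℝ) * Real.log n - (eT F Y B : ℝ) * Real.log (1 / q))) ≤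
        Λ ^ eT F Y B)
    (hne : Nonempty Z) :
    ((Emb F H Finset.univ).card : ℝ) ≤ (n : ℝ) ^ Fintype.card Z * (Λ * q) ^ numEdges F := by
  by_cases hemb : (Emb F H Finset.univ).Nonempty
  swap
  · rw [Finset.not_nonempty_iff_eq_empty] at hemb
    rw [hemb]
    simp only [Finset.card_empty, Nat.cast_zero]
    positivity
  obtain ⟨f, hf⟩ := hemb
  rcases mem_Emb.mp hf with ⟨hf1, hf2, _⟩
  obtain ⟨z₀⟩ := hne
  set x₀ := f z₀ with hx₀
  have hn0 : (0 : ℝ) < n := by exact_mod_cast hn
  set N := Real.log n with hNdef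
  set c := Real.log (1 / q) with hcdef
  -- the invariant at the empty set
  have hinv : ∀ Y', (∅ : Finset Z) ⊂ Y' → mk F N c ∅ ≤ mk F N c Y' := by
    intro Y' _
    rw [mk_empty]
    have hX : ∀ e ∈ (cutE F Y' Y').image (Sym2.map f), e ∈ H.edgeSet := by
      intro e he
      obtain ⟨e', he', rfl⟩ := Finset.mem_image.mp he
      have h1 := (mem_cutE.mp he').1
      induction e' using Sym2.ind with
      | _ a b => exact hf2 a b h1
    have hS : ∀ e ∈ (cutE F Y' Y').image (Sym2.map f), ∀ v ∈ e, v ∈ Y'.image f := by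
      intro e he v hv
      obtain ⟨e', he', rfl⟩ := Finset.mem_image.mp he
      obtain ⟨z, hz, rfl⟩ := Sym2.mem_map.mp hv
      exact Finset.mem_image_of_mem _ ((mem_cutE.mp he').2.1 z hz)
    have h1 := weak_hyp_log hn hq hq1 hyp _ _ hX hS
    rw [Finset.card_image_of_injective _ hf1, Finset.card_image_of_injective _
      (Sym2.map.injective hf1), ← hNdef, ← hcdef] at h1
    unfold mk mval eIn
    have h2 : (0 : ℝ) ≤ (Y'.card : ℝ) := by positivity
    change 0 ≤ (Y'.card : ℝ) * N - ((eT F Y' Y' : ℕ) : ℝ) * c at h1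
    linarith
  have hg : (fun _ => x₀ : Z → V) ∈ PE F H x₀ ∅ := by
    refine mem_PE.mpr ⟨fun _ _ => rfl, by simp, by simp⟩
  have hmain := chain_ind (H := H) (F := F) (x₀ := x₀) (N := N) (c := c) hΛ (hblock x₀) _ ∅ rfl hinv
    _ hg
  have hFib : Fib F H x₀ ∅ Finset.univ (fun _ => x₀) = Emb F H Finset.univ := by
    ext f'
    rw [mem_Fib, mem_PE, mem_Emb]
    constructor
    · rintro ⟨⟨_, h2, h3⟩, _⟩
      refine ⟨?_, ?_, fun _ => Finset.mem_univ _⟩
      · intro a b hab
        exact h2 (by simp) (by simp) hab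
      · intro a b hab
        exact h3 a (Finset.mem_univ _) b (Finset.mem_univ _) hab
    · rintro ⟨h1, h2, _⟩
      refine ⟨⟨fun z hz => absurd (Finset.mem_univ z) hz, fun a _ b _ hab => h1 hab,
        fun a _ b _ hab => h2 a b hab⟩, by simp⟩
  rw [hFib, eIn_univ] at hmain
  have hm0 : mval F N c ∅ = 0 := by
    have := mk_empty F N c
    unfold mk at this
    simpa using this
  have he0 : eIn F ∅ = 0 := by
    have h1 : mk F N c ∅ = 0 := mk_empty F N c
    unfold eIn eT
    rw [Finset.card_eq_zero]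
    refine Finset.eq_empty_of_forall_notMem fun e he => ?_
    rcases mem_cutE.mp he with ⟨_, _, a, _, ha⟩
    simp at ha
  rw [hm0, he0, pow_zero, mul_one, sub_zero] at hmain
  have hmU : mval F N c Finset.univ = (Fintype.card Z : ℝ) * N - (numEdges F : ℝ) * c := by
    unfold mval
    rw [eIn_univ, Finset.card_univ]
  rw [hmU] at hmain
  -- conclusion
  obtain ⟨M, hM⟩ : ∃ M, M = (Fintype.card Z : ℝ) * N - (numEdges F : ℝ) * c := ⟨_, rfl⟩
  rw [← hM] at hmain
  have hexpM : Real.exp M = (n : ℝ) ^ Fintype.card Z * q ^ numEdges F := by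
    have hq' : Real.log q = -c := by
      rw [hcdef, one_div, Real.log_inv]
      ring
    rw [← Real.exp_log (by positivity : (0 : ℝ) < (n : ℝ) ^ Fintype.card Z * q ^ numEdges F)]
    congr 1
    rw [Real.log_mul (by positivity) (by positivity), Real.log_pow, Real.log_pow, hq', hM, ← hNdef]
    ring
  have h1 : ((Emb F H Finset.univ).card : ℝ) ≤ Λ ^ numEdges F * Real.exp M := by
    have h2 := Real.exp_pos M
    have h3 : Real.exp (-M) * Real.exp M = 1 := by
      rw [← Real.exp_add]
      simp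
    calc ((Emb F H Finset.univ).card : ℝ)
        = (((Emb F H Finset.univ).card : ℝ) * Real.exp (-M)) * Real.exp M := by
          rw [mul_assoc, h3, mul_one]
      _ ≤ _ := mul_le_mul_of_nonneg_right hmain h2.le
  rw [hexpM] at h1
  refine h1.trans (le_of_eq ?_)
  rw [mul_pow]
  ring

end Vale.Agent.Lib.P064r
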