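import Mathlib

/-!
Counting maps along a rooted forest: at every vertex the image lies in a set of bounded size which
depends only on the image of the parent.
-/

namespace Vale.Agent.Lib.P064r

open Finset
open scoped Classical

set_option linter.unusedSectionVars false
set_option linter.unusedVariables false

universe u v

variable {Z : Type u} [Fintype Z] {V : Type v} [Fintype V]

/-- The number of maps compatible with a rooted forest. -/
theorem tree_count (p : Z → Z) (ρ : Z → ℕ) (g : Z → V) (Sel : Z → V → Finset V) (b : Z → ℕ)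
    (hroot : ∀ w x x', p w = w → Sel w x = Sel w x') :
    ∀ (B : Finset Z) (hρ : ∀ w ∈ B, p w ≠ w → p w ∈ B → ρ (p w) < ρ w)
      (hb : ∀ w ∈ B, ∀ x, (Sel w x).card ≤ b w) (𝓕 : Finset (Z → V))
      (h𝓕 : ∀ f ∈ 𝓕, (∀ z, z ∉ B → f z = g z) ∧ ∀ w ∈ B, f w ∈ Sel w (f (p w))),
      𝓕.card ≤ ∏ w ∈ B, b w := by
  intro B
  induction' hk : B.card with k ih generalizing B
  · intro hρ hb 𝓕 h𝓕
    have hB : B = ∅ := Finset.card_eq_zero.mp hk
    subst hB
    simp only [Finset.prod_empty]
    refine Finset.card_le_one.mpr ?_
    intro f hf f' hf'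
    funext z
    rw [(h𝓕 f hf).1 z (by simp), (h𝓕 f' hf').1 z (by simp)]
  · intro hρ hb 𝓕 h𝓕
    have hBne : B.Nonempty := Finset.card_pos.mp (by omega)
    obtain ⟨w, hw, hmax⟩ := Finset.exists_max_image B ρ hBne
    set B' := B.erase w with hB'
    have hk' : B'.card = k := by
      rw [hB', Finset.card_erase_of_mem hw, hk]
      simp
    set rs : (Z → V) → (Z → V) := fun f => Function.update f w (g w) with hrs
    have hno : ∀ w' ∈ B', p w' ≠ w := by
      intro w' hw' h
      have hw'B := Finset.mem_of_mem_erase hw'
      have hne : w' ≠ w := Finset.ne_of_mem_erase hw'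
      have h1 := hρ w' hw'B (by rw [h]; exact hne.symm) (by rw [h]; exact hw)
      rw [h] at h1
      have h2 := hmax w' hw'B
      omega
    have hrs_other : ∀ f z, z ≠ w → rs f z = f z := by
      intro f z hz
      simp only [hrs]
      rw [Function.update_of_ne hz]
    have hrs_self : ∀ f, rs f w = g w := by
      intro f
      simp only [hrs]
      rw [Function.update_self]
    have h1 := ih B' hk' (fun w' hw' h2 h3 => hρ w' (Finset.mem_of_mem_erase hw') h2
        (Finset.mem_of_mem_erase h3))
      (fun w' hw' => hb w' (Finset.mem_of_mem_erase hw')) (𝓕.image rs) (by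
        intro f' hf'
        obtain ⟨f, hf, rfl⟩ := Finset.mem_image.mp hf'
        refine ⟨fun z hz => ?_, fun w' hw' => ?_⟩
        · by_cases hzw : z = w
          · rw [hzw, hrs_self]
          · rw [hrs_other f z hzw]
            refine (h𝓕 f hf).1 z ?_
            intro hzB
            exact hz (Finset.mem_erase.mpr ⟨hzw, hzB⟩)
        · have hne : w' ≠ w := Finset.ne_of_mem_erase hw'
          rw [hrs_other f w' hne, hrs_other f (p w') (hno w' hw')]
          exact (h𝓕 f hf).2 w' (Finset.mem_of_mem_erase hw'))
    have h2 : 𝓕.card ≤ b w * (𝓕.image rs).card := by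
      refine Finset.card_le_mul_card_image 𝓕 (b w) ?_
      intro f' hf'
      obtain ⟨f₀, hf₀, rfl⟩ := Finset.mem_image.mp hf'
      refine le_trans ?_ (hb w hw (rs f₀ (p w)))
      refine Finset.card_le_card_of_injOn (fun f => f w) ?_ ?_
      · intro f hf
        rcases Finset.mem_filter.mp (Finset.mem_coe.mp hf) with ⟨h3, h4⟩
        have h5 := (h𝓕 f h3).2 w hw
        refine Finset.mem_coe.mpr ?_
        by_cases hpw : p w = w
        · rw [hroot w _ (rs f₀ (p w)) hpw] at h5
          exact h5
        · have h6 : f (p w) = rs f₀ (p w) := by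
            rw [← h4, hrs_other f (p w) hpw]
          rw [← h6]
          exact h5
      · intro f hf f' hf' hff
        rcases Finset.mem_filter.mp (Finset.mem_coe.mp hf) with ⟨h3, h4⟩
        rcases Finset.mem_filter.mp (Finset.mem_coe.mp hf') with ⟨h5, h6⟩
        funext z
        by_cases hz : z = w
        · rw [hz]
          exact hff
        · have h7 : rs f z = rs f' z := by rw [h4, h6]
          rw [hrs_other f z hz, hrs_other f' z hz] at h7
          exact h7
    calc 𝓕.card ≤ b w * (𝓕.image rs).card := h2
      _ ≤ b w * ∏ w ∈ B', b w := Nat.mul_le_mul_left _ h1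
      _ = ∏ w ∈ B, b w := by
          rw [hB', Finset.mul_prod_erase B b hw]

end Vale.Agent.Lib.P064r
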