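import Vale.Agent.Lib.P064r.Root
import Vale.Agent.Lib.P064r.Tree
import Vale.Agent.Lib.P064r.Tokens

/-!
Counting the extensions of a map to a rigid block: every extension has a code consisting of parent
pointers and flags, and the extensions with a fixed code are counted along the forest.
-/

namespace Vale.Agent.Lib.P064r

open Finset SimpleGraph Vale.Agent.Lib.P064
open scoped Classical Nat

set_option linter.unusedSectionVars false
set_option linter.unusedVariables false

universe u v

variable {V : Type v} [Fintype V] {Z : Type u} [Fintype Z]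

/-- The numbers governing the walk. -/
structure WP (N c Nt θ θ' E' τw : ℝ) : Prop where
  hc : 0 < c
  hN : 0 < N
  hθ0 : 0 ≤ θ
  hθ' : 0 < θ'
  hNt : Nt ≤ N + 1 / 2
  hτw0 : 0 ≤ τw
  hτw : τw ≤ c / 2
  hτw2 : 8 * Nt * τw ≤ c
  hτs : θ * N ≤ c / 2
  hE' : 0 < E'
  hP : PerElt N c θ θ' E'

/-- Tokens on `H`. -/
structure HTok (H : SimpleGraph V) (T : V → V → ℝ) (c Nt : ℝ) : Prop where
  nonneg : ∀ x y, H.Adj x y → 0 ≤ T x y
  sum_eq : ∀ x y, H.Adj x y → T x y + T y x = c
  cap : ∀ x, ∑ y ∈ Finset.univ.filter (H.Adj x), T x y ≤ Nt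

/-- The tokens seen along an initial piece of an embedding. -/
lemma tok_of_PE {H : SimpleGraph V} {T : V → V → ℝ} {c Nt : ℝ} (hT : HTok H T c Nt)
    {F : SimpleGraph Z} {x₀ : V} {Y B : Finset Z} (hBY : B ⊆ Y) {f : Z → V}
    (hf : f ∈ PE F H x₀ Y) : Tok F Y B (fun a b => T (f a) (f b)) c Nt := by
  rcases mem_PE.mp hf with ⟨_, hinj, hadj⟩
  refine ⟨?_, ?_, ?_⟩
  · intro a ha b hb h
    exact hT.nonneg _ _ (hadj a ha b hb h)
  · intro a ha b hb h
    exact hT.sum_eq _ _ (hadj a ha b hb h)
  · intro a ha
    have haY := hBY ha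
    have hsub : (Y.filter (F.Adj a)).image f ⊆ Finset.univ.filter (H.Adj (f a)) := by
      intro y hy
      obtain ⟨b, hb, rfl⟩ := Finset.mem_image.mp hy
      rcases Finset.mem_filter.mp hb with ⟨hb1, hb2⟩
      exact Finset.mem_filter.mpr ⟨Finset.mem_univ _, hadj a haY b hb1 hb2⟩
    have hinj' : Set.InjOn f ((Y.filter (F.Adj a) : Finset Z) : Set Z) :=
      hinj.mono (fun z hz => Finset.mem_coe.mpr (Finset.mem_filter.mp (Finset.mem_coe.mp hz)).1)
    calc ∑ b ∈ Y.filter (F.Adj a), T (f a) (f b)
        = ∑ y ∈ (Y.filter (F.Adj a)).image f, T (f a) y :=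
          (Finset.sum_image hinj').symm
      _ ≤ ∑ y ∈ Finset.univ.filter (H.Adj (f a)), T (f a) y := by
          refine Finset.sum_le_sum_of_subset_of_nonneg hsub ?_
          intro y hy _
          exact hT.nonneg _ _ (Finset.mem_filter.mp hy).2
      _ ≤ Nt := hT.cap _

/-- The possible numbers of weak arcs and roots. -/
def Outcome (β : ℝ) (w r : ℕ) : Prop :=
  (r = 0 ∧ (w : ℝ) ≤ β) ∨ (r = 1 ∧ (w = 0 ∨ (w : ℝ) + 1 ≤ β))

/-- The number of values of the code. -/
noncomputable def codeCount (F : SimpleGraph Z) (Y B : Finset Z) : ℕ :=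
  ∏ w ∈ B, (2 * ((Y.filter (F.Adj w)).card + 1))

/-- The count of extensions. -/
theorem fib_card_le {H : SimpleGraph V} {T : V → V → ℝ} {N c Nt θ θ' E' τw : ℝ}
    (hT : HTok H T c Nt) (hW : WP N c Nt θ θ' E' τw) {F : SimpleGraph Z} {x₀ : V}
    {U B Y : Finset Z} {g : Z → V} (hY : Y = U ∪ B) (hdisj : Disjoint U B) (hBne : B.Nonempty)
    (hrigid : ∀ T', T' ⊆ B → T'.Nonempty → T' ≠ B →
      (T'.card : ℝ) * N - (eT F Y T' : ℝ) * c ≤ -(T'.card : ℝ))
    {Sn Dn : ℕ} (hSn : ∀ x, (Finset.univ.filter (fun y => H.Adj x y ∧ θ * N ≤ T x y)).card ≤ Sn)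
    (hDn : ∀ x, (Finset.univ.filter (fun y => H.Adj x y ∧ τw ≤ T x y)).card ≤ Dn)
    (hS1 : 1 ≤ Sn) (hD1 : 1 ≤ Dn) {X : ℝ} (hX0 : 0 ≤ X)
    (hX : ∀ w r : ℕ, Outcome ((1 / E' + θ / θ') * (eT F Y B : ℝ)) w r →
      ((Sn : ℝ) ^ B.card * (Dn : ℝ) ^ w * ((imgI B (Fib F H x₀ U Y g)).card : ℝ) ^ r) ≤ X) :
    ((Fib F H x₀ U Y g).card : ℝ) ≤ (codeCount F Y B : ℝ) * X := by
  have hBY : B ⊆ Y := by rw [hY]; exact Finset.subset_union_right
  have hUY : U ⊆ Y := by rw [hY]; exact Finset.subset_union_left
  set FF := Fib F H x₀ U Y g with hFF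
  -- every extension has a forest
  have hwalk : ∀ f ∈ FF, ∃ (p : Z → Z) (Wk Rt : Finset Z) (ρ : Z → ℕ),
      Forest F B (fun a b => T (f a) (f b)) (θ * N) τw Y p Wk Rt ρ ∧
      ((Rt = ∅ ∧ (Wk.card : ℝ) ≤ (1 / E' + θ / θ') * (eT F Y B : ℝ)) ∨
        (Rt.card = 1 ∧ (Wk = ∅ ∨ (Wk.card : ℝ) + 1 ≤ (1 / E' + θ / θ') * (eT F Y B : ℝ)))) := by
    intro f hf
    exact walk (tok_of_PE hT hBY (mem_Fib.mp hf).1) hBY hBne hW.hc hW.hN hW.hθ0 hW.hθ' hW.hNt
      hW.hτw0 hW.hτw hW.hτw2 hW.hτs hW.hE' hW.hP hrigid
  haveI : Nonempty (Z → Z) := ⟨id⟩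
  haveI : Nonempty (Z → ℕ) := ⟨fun _ => 0⟩
  haveI : Nonempty (Finset Z) := ⟨∅⟩
  choose! pF WkF RtF ρF hforest hout using hwalk
  -- the code
  set code : (Z → V) → (Z → Z × Bool) := fun f w =>
    if w ∈ B then (pF f w, decide (w ∈ WkF f)) else (w, false) with hcode
  set Codes : Finset (Z → Z × Bool) := Fintype.piFinset (fun w =>
    if w ∈ B then (insert w (Y.filter (F.Adj w))) ×ˢ (Finset.univ : Finset Bool)
    else {(w, false)}) with hCodes
  have hpne : ∀ f ∈ FF, ∀ w ∈ B, pF f w = w → w ∈ RtF f := by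
    intro f hf w hw h
    by_contra hR
    have h1 := (hforest f hf).par w (hBY hw) hw hR
    rw [h] at h1
    exact F.loopless.irrefl _ h1.2.1
  have hcodeMem : ∀ f ∈ FF, code f ∈ Codes := by
    intro f hf
    refine Fintype.mem_piFinset.mpr fun w => ?_
    by_cases hw : w ∈ B
    · simp only [hcode, if_pos hw]
      refine Finset.mem_product.mpr ⟨?_, Finset.mem_univ _⟩
      by_cases hR : w ∈ RtF f
      · rw [(hforest f hf).root w hR]
        exact Finset.mem_insert_self _ _
      · have h1 := (hforest f hf).par w (hBY hw) hw hR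
        exact Finset.mem_insert_of_mem (Finset.mem_filter.mpr ⟨h1.1, h1.2.1.symm⟩)
    · simp only [hcode, if_neg hw]
      exact Finset.mem_singleton_self _
  have hCodesCard : Codes.card = codeCount F Y B := by
    rw [hCodes, Fintype.card_piFinset]
    have h1 : ∀ w : Z, (if w ∈ B then (insert w (Y.filter (F.Adj w))) ×ˢ
        (Finset.univ : Finset Bool) else {(w, false)} : Finset (Z × Bool)).card =
        if w ∈ B then 2 * ((Y.filter (F.Adj w)).card + 1) else 1 := by
      intro w
      by_cases hw : w ∈ B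
      · rw [if_pos hw, if_pos hw, Finset.card_product, Finset.card_univ, Fintype.card_bool]
        have h2 : w ∉ Y.filter (F.Adj w) := fun h =>
          F.loopless.irrefl _ (Finset.mem_filter.mp h).2
        rw [Finset.card_insert_of_notMem h2]
        ring
      · rw [if_neg hw, if_neg hw, Finset.card_singleton]
    rw [Finset.prod_congr rfl (fun w _ => h1 w), Finset.prod_ite_mem, Finset.univ_inter]
    rfl
  -- the fibres of the code
  have hfiber : ∀ κ ∈ FF.image code, ((FF.filter (fun f => code f = κ)).card : ℝ) ≤ X := by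
    intro κ hκ
    obtain ⟨f₀, hf₀, rfl⟩ := Finset.mem_image.mp hκ
    have hF₀ := hforest f₀ hf₀
    set p := pF f₀ with hp
    set ρ := ρF f₀ with hρ
    set Wk := WkF f₀ with hWk
    set Rt := RtF f₀ with hRt
    have hsame : ∀ f ∈ FF.filter (fun f => code f = code f₀), ∀ w ∈ B,
        pF f w = p w ∧ (w ∈ WkF f ↔ w ∈ Wk) := by
      intro f hf w hw
      have h1 := (Finset.mem_filter.mp hf).2
      have h2 := congrFun h1 w
      simp only [hcode, if_pos hw, Prod.mk.injEq, decide_eq_decide] at h2
      exact h2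
    have hf₀F : f₀ ∈ PE F H x₀ Y := (mem_Fib.mp hf₀).1
    have hI1 : 1 ≤ (imgI B FF).card := by
      obtain ⟨a, ha⟩ := hBne
      exact Finset.card_pos.mpr ⟨f₀ a, mem_imgI.mpr ⟨f₀, hf₀, a, ha, rfl⟩⟩
    -- the selection sets
    set Sel : Z → V → Finset V := fun w x =>
      if p w = w then imgI B FF
      else if w ∈ Wk then Finset.univ.filter (fun y => H.Adj x y ∧ τw ≤ T x y)
      else Finset.univ.filter (fun y => H.Adj x y ∧ θ * N ≤ T x y) with hSel
    set b : Z → ℕ := fun w =>
      if p w = w then (imgI B FF).card else if w ∈ Wk then Dn else Sn with hb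
    have hcount := tree_count p ρ f₀ Sel b (by
        intro w x x' h
        simp only [hSel, if_pos h]) B
      (by
        intro w hw hne hpB
        have hR : w ∉ Rt := fun h => hne (hF₀.root w h)
        exact (hF₀.par w (hBY hw) hw hR).2.2 hpB)
      (by
        intro w hw x
        simp only [hSel, hb]
        by_cases h1 : p w = w
        · simp only [if_pos h1]
          exact le_rfl
        · simp only [if_neg h1]
          by_cases h2 : w ∈ Wk
          · simp only [if_pos h2]
            exact hDn x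
          · simp only [if_neg h2]
            exact hSn x)
      (FF.filter (fun f => code f = code f₀))
      (by
        intro f hf
        have hfF : f ∈ FF := (Finset.mem_filter.mp hf).1
        have hfPE := (mem_Fib.mp hfF).1
        rcases mem_PE.mp hfPE with ⟨hf1, _, hf3⟩
        rcases mem_PE.mp hf₀F with ⟨hf01, _, _⟩
        refine ⟨fun z hz => ?_, fun w hw => ?_⟩
        · by_cases hzY : z ∈ Y
          · have hzU : z ∈ U := by
              rw [hY] at hzY
              rcases Finset.mem_union.mp hzY with h | h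
              · exact h
              · exact absurd h hz
            rw [(mem_Fib.mp hfF).2 z hzU, (mem_Fib.mp hf₀).2 z hzU]
          · rw [hf1 z hzY, hf01 z hzY]
        · obtain ⟨h1, h2⟩ := hsame f hf w hw
          simp only [hSel]
          by_cases h3 : p w = w
          · simp only [if_pos h3]
            exact mem_imgI.mpr ⟨f, hfF, w, hw, rfl⟩
          · simp only [if_neg h3]
            have hRf : w ∉ RtF f := by
              intro hR
              have := (hforest f hfF).root w hR
              rw [h1] at this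
              exact h3 this
            have hpar := (hforest f hfF).par w (hBY hw) hw hRf
            rw [h1] at hpar
            have hHadj := hf3 _ hpar.1 w (hBY hw) hpar.2.1
            by_cases h4 : w ∈ Wk
            · simp only [if_pos h4]
              have h5 := (hforest f hfF).weak w (h2.mpr h4)
              rw [h1] at h5
              exact Finset.mem_filter.mpr ⟨Finset.mem_univ _, hHadj, h5⟩
            · simp only [if_neg h4]
              have h5 := (hforest f hfF).strong w (hBY hw) hw hRf (fun h => h4 (h2.mp h))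
              rw [h1] at h5
              exact Finset.mem_filter.mpr ⟨Finset.mem_univ _, hHadj, h5⟩)
    -- the product
    have hprod : ∏ w ∈ B, b w ≤ Sn ^ B.card * Dn ^ Wk.card * (imgI B FF).card ^ Rt.card := by
      have hWkB : Wk ⊆ B := fun z hz => (Finset.mem_inter.mp (hF₀.wk_sub hz)).2
      have hRtB : Rt ⊆ B := fun z hz => (Finset.mem_inter.mp (hF₀.rt_sub hz)).2
      calc ∏ w ∈ B, b w ≤ ∏ w ∈ B, (Sn * (if w ∈ Wk then Dn else 1) *
            (if w ∈ Rt then (imgI B FF).card else 1)) := by
            refine Finset.prod_le_prod' fun w hw => ?_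
            simp only [hb]
            by_cases h1 : p w = w
            · have hR : w ∈ Rt := hpne f₀ hf₀ w hw h1
              simp only [if_pos h1, if_pos hR]
              have hD' : 1 ≤ (if w ∈ Wk then Dn else 1) := by
                split_ifs
                · exact hD1
                · exact le_rfl
              calc (imgI B FF).card = 1 * (imgI B FF).card := (one_mul _).symm
                _ ≤ _ := Nat.mul_le_mul_right _ (Nat.mul_pos hS1 hD')
            · have hR : w ∉ Rt := fun h => h1 (hF₀.root w h)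
              simp only [if_neg h1, if_neg hR, mul_one]
              by_cases h2 : w ∈ Wk
              · simp only [if_pos h2]
                exact Nat.le_mul_of_pos_left _ hS1
              · simp only [if_neg h2, mul_one]
                exact le_rfl
        _ = Sn ^ B.card * Dn ^ Wk.card * (imgI B FF).card ^ Rt.card := by
            rw [Finset.prod_mul_distrib, Finset.prod_mul_distrib, Finset.prod_const,
              Finset.prod_ite_mem, Finset.prod_ite_mem, Finset.prod_const, Finset.prod_const,
              Finset.inter_eq_right.mpr hWkB, Finset.inter_eq_right.mpr hRtB]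
    have hprodR : ((FF.filter (fun f => code f = code f₀)).card : ℝ) ≤
        (Sn : ℝ) ^ B.card * (Dn : ℝ) ^ Wk.card * ((imgI B FF).card : ℝ) ^ Rt.card := by
      exact_mod_cast hcount.trans hprod
    refine hprodR.trans (hX Wk.card Rt.card ?_)
    rcases hout f₀ hf₀ with ⟨h1, h2⟩ | ⟨h1, h2⟩
    · left
      exact ⟨by rw [hRt, h1, Finset.card_empty], h2⟩
    · right
      refine ⟨h1, ?_⟩
      rcases h2 with h2 | h2
      · left
        rw [hWk, h2, Finset.card_empty]
      · right
        exact h2
  -- sum over the codes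
  have hsum : (FF.card : ℝ) = ∑ κ ∈ FF.image code, ((FF.filter (fun f => code f = κ)).card : ℝ) := by
    rw [Finset.card_eq_sum_card_image code FF]
    push_cast
    rfl
  have himg : (FF.image code).card ≤ Codes.card := by
    refine Finset.card_le_card ?_
    intro κ hκ
    obtain ⟨f, hf, rfl⟩ := Finset.mem_image.mp hκ
    exact hcodeMem f hf
  calc (FF.card : ℝ) = _ := hsum
    _ ≤ ∑ _κ ∈ FF.image code, X := Finset.sum_le_sum hfiber
    _ = ((FF.image code).card : ℝ) * X := by rw [Finset.sum_const, nsmul_eq_mul]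
    _ ≤ (Codes.card : ℝ) * X := by
        refine mul_le_mul_of_nonneg_right ?_ hX0
        exact_mod_cast himg
    _ = _ := by rw [hCodesCard]

end Vale.Agent.Lib.P064r
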