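import Vale.Agent.Lib.P064r.ShortCyc

/-!
The count of long closed paths: a path of most of the length and then a rigid closing path.
-/

namespace Vale.Agent.Lib.P064r

open Finset SimpleGraph Vale.Agent.Lib.P064 Vale.Agent.Lib.P064k
open scoped Classical Nat

set_option linter.unusedSectionVars false
set_option linter.unusedVariables false

universe u u' v

variable {U : Type u'} [Fintype U] {V₀ : Type v} [Fintype V₀] {Z : Type u} [Fintype Z]

/-- The count of closed paths of length `k` with a closing rigid part of length `l`. -/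
theorem long_count {H : SimpleGraph V₀} {n : ℕ} {q : ℝ} (hn : 0 < n) (hq : 0 < q)
    (hV : Fintype.card V₀ ≤ n) (hyp : ∀ F : H.Subgraph, 1 ≤ expCopies n q F.coe)
    (ha : 2 ≤ (n : ℝ) * q) {y : ℕ → U} {k : ℕ} (hy : ClosedP y k) {l : ℕ} (hl : 1 ≤ l)
    (hlk : l < k) (hal : ((n : ℝ) * q) ^ (l + 1) ≤ n) :
    ((Emb (cycG (pEdges y k)) H Finset.univ).card : ℝ) ≤
      2 ^ (2 * l + 1) * (((k - l : ℕ) + 1 : ℝ) * (constK * n * q) ^ (k - l) * (24 * n)) := by
  obtain ⟨K, hKd⟩ : ∃ K, K = pEdges y k := ⟨_, rfl⟩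
  rw [← hKd]
  obtain ⟨h, hh⟩ : ∃ h, h = k - l := ⟨_, rfl⟩
  rw [← hh]
  have hk3 := hy.three
  have hmem : ∀ i, y (i % k) ∈ vtx K := fun i => by
    rw [hKd]
    exact hy.mem.mpr ⟨i % k, Nat.mod_lt _ (by omega), rfl⟩
  obtain ⟨y', hy'⟩ : ∃ y' : ℕ → ↥(vtx K), ∀ i, y' i = ⟨y (i % k), hmem i⟩ :=
    ⟨fun i => ⟨y (i % k), hmem i⟩, fun _ => rfl⟩
  have hy1 : ∀ i, i ≤ k → (y' i).1 = y i := by
    intro i hi
    rw [hy']
    by_cases h1 : i < k
    · simp only [Nat.mod_eq_of_lt h1]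
    · have h2 : i = k := by omega
      subst h2
      simp only [Nat.mod_self]
      exact hy.close.symm
  have hyk : y' k = y' 0 := by
    apply Subtype.ext
    rw [hy1 k le_rfl, hy1 0 (by omega), hy.close]
  have hysurj : ∀ u : ↥(vtx K), ∃ i, i < k ∧ y' i = u := by
    intro u
    have key : ∀ v, v ∈ vtx K → ∃ i, i < k ∧ y i = v := by
      rw [hKd]
      exact fun v hv => hy.mem.mp hv
    obtain ⟨i, hi, hiu⟩ := key u.1 u.2
    refine ⟨i, hi, Subtype.ext ?_⟩
    rw [hy1 i hi.le, hiu]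
  have hyinj : ∀ i j, i < k → j < k → y' i = y' j → i = j := by
    intro i j hi hj hij
    refine hy.inj i j hi hj ?_
    rw [← hy1 i hi.le, ← hy1 j hj.le, hij]
  have hyadj : ∀ i, i < k → (cycG K).Adj (y' i) (y' (i + 1)) := by
    intro i hi
    refine ⟨fun h1 => ?_, ?_⟩
    · have h2 := congrArg Subtype.val h1
      rw [hy1 i hi.le, hy1 (i + 1) hi] at h2
      exact hy.nd i hi h2
    · rw [hy1 i hi.le, hy1 (i + 1) hi, hKd]
      exact mem_pEdges.mpr ⟨i, hi, rfl⟩
  have hh1 : 1 ≤ h := by omega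
  have hhl : h + l = k := by omega
  obtain ⟨D, hD⟩ : ∃ D, D = Emb (cycG K) H Finset.univ := ⟨_, rfl⟩
  rw [← hD]
  have hDinj : ∀ β ∈ D, Function.Injective β := fun β hβ => (mem_Emb.mp (hD ▸ hβ)).1
  have hDadj : ∀ β ∈ D, ∀ i, i < k → H.Adj (β (y' i)) (β (y' (i + 1))) :=
    fun β hβ i hi => (mem_Emb.mp (hD ▸ hβ)).2.1 _ _ (hyadj i hi)
  have hDinj' : ∀ β ∈ D, ∀ i j, i < k → j < k → β (y' i) = β (y' j) → i = j :=
    fun β hβ i j hi hj hij => hyinj i j hi hj (hDinj β hβ hij)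
  -- the first part
  obtain ⟨Φ, hΦ⟩ : ∃ Φ : (↥(vtx K) → V₀) → (Fin (h + 1) → V₀), ∀ β i, Φ β i = β (y' i.val) :=
    ⟨fun β i => β (y' i.val), fun _ _ => rfl⟩
  have hΦmem : ∀ β ∈ D, Φ β ∈ Emb (pathGraph (h + 1)) H Finset.univ := by
    intro β hβ
    refine mem_Emb.mpr ⟨?_, ?_, fun _ => Finset.mem_univ _⟩
    · intro i j hij
      rw [hΦ, hΦ] at hij
      have := hDinj' β hβ i.val j.val (by omega) (by omega) hij
      exact Fin.ext this
    · intro a b hab
      rw [hΦ, hΦ]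
      rcases pathGraph_adj.mp hab with h1 | h1
      · rw [← h1]
        exact hDadj β hβ _ (by omega)
      · rw [← h1]
        exact (hDadj β hβ _ (by omega)).symm
  have hE : ∀ W ⊆ edgesF H, 1 ≤ (n : ℝ) ^ (vtx W).card * q ^ W.card := by
    intro W hW
    refine one_le_of_sub hn hq hyp (ι := id) Function.injective_id ?_
    intro e he
    exact Finset.mem_image.mpr ⟨e, hW he, by simp⟩
  -- the fibres
  have hfib : ∀ π ∈ Emb (pathGraph (h + 1)) H Finset.univ,
      (D.filter (fun β => Φ β = π)).card ≤ 2 ^ (2 * l + 1) := by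
    intro π _
    obtain ⟨F, hF⟩ : ∃ F, F = D.filter (fun β => Φ β = π) := ⟨_, rfl⟩
    rw [← hF]
    have hFmem : ∀ β ∈ F, β ∈ D ∧ Φ β = π := fun β hβ => Finset.mem_filter.mp (hF ▸ hβ)
    obtain ⟨x₀, hx₀⟩ : ∃ x₀, x₀ = π ⟨h, by omega⟩ := ⟨_, rfl⟩
    obtain ⟨x₁, hx₁⟩ : ∃ x₁, x₁ = π ⟨0, by omega⟩ := ⟨_, rfl⟩
    have hend0 : ∀ β ∈ F, β (y' h) = x₀ := by
      intro β hβ
      have h1 := congrFun (hFmem β hβ).2 ⟨h, by omega⟩
      rw [hΦ] at h1
      rw [hx₀, ← h1]
    have hend1 : ∀ β ∈ F, β (y' 0) = x₁ := by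
      intro β hβ
      have h1 := congrFun (hFmem β hβ).2 ⟨0, by omega⟩
      rw [hΦ] at h1
      rw [hx₁, ← h1]
    obtain ⟨P, hP⟩ : ∃ P : (↥(vtx K) → V₀) → ℕ → V₀, ∀ β i, P β i = β (y' (h + i)) :=
      ⟨fun β i => β (y' (h + i)), fun _ _ => rfl⟩
    have hP0 : ∀ β ∈ F, P β 0 = x₀ := fun β hβ => by
      rw [hP, add_zero, hend0 β hβ]
    have hPl : ∀ β ∈ F, P β l = x₁ := fun β hβ => by
      rw [hP, hhl, hyk, hend1 β hβ]
    have hPinj : ∀ β ∈ F, ∀ i j, i ≤ l → j ≤ l → P β i = P β j → i = j := by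
      intro β hβ i j hi hj hij
      have hβD := (hFmem β hβ).1
      rw [hP, hP] at hij
      by_cases hi1 : h + i < k
      · by_cases hj1 : h + j < k
        · have := hDinj' β hβD _ _ hi1 hj1 hij
          omega
        · have hj2 : h + j = k := by omega
          rw [hj2, hyk] at hij
          have := hDinj' β hβD _ _ hi1 (by omega) hij
          omega
      · have hi2 : h + i = k := by omega
        by_cases hj1 : h + j < k
        · rw [hi2, hyk] at hij
          have := hDinj' β hβD _ _ (by omega) hj1 hij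
          omega
        · omega
    obtain ⟨χ, hχ⟩ : ∃ χ : V₀ → ℕ, χ = fun v => (if v = x₀ then 1 else 0) + (if v = x₁ then 1 else 0) :=
      ⟨_, rfl⟩
    have hadm : ∀ β ∈ F, Adm x₀ χ l (pEdges (P β) l) := by
      intro β hβ
      have h1 := adm_path hl (hPinj β hβ)
      rw [hP0 β hβ, hPl β hβ] at h1
      rw [hχ]
      exact h1
    have hsubE : ∀ β ∈ F, pEdges (P β) l ⊆ edgesF H := by
      intro β hβ e he
      obtain ⟨i, hi, rfl⟩ := mem_pEdges.mp he
      refine mem_edgesF.mpr ?_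
      rw [hP, hP, SimpleGraph.mem_edgeSet]
      have := hDadj β (hFmem β hβ).1 (h + i) (by omega)
      exact this
    have hr := rigid (A := {x₀, x₁}) (x := x₀) (χ := χ) (l := l) hn hq hE ha hal
      (by simp) (by
        intro v hv
        simp only [Finset.mem_insert, Finset.mem_singleton, not_or] at hv
        rw [hχ]
        simp [hv.1, hv.2]) (F.image (fun β => pEdges (P β) l)) (by
        intro B hB
        obtain ⟨β, hβ, rfl⟩ := Finset.mem_image.mp hB
        exact ⟨hsubE β hβ, hadm β hβ⟩)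
    have hAc : ({x₀, x₁} : Finset V₀).card ≤ 2 := Finset.card_le_two
    have hinj : Set.InjOn (fun β => pEdges (P β) l) (F : Set (↥(vtx K) → V₀)) := by
      intro β hβ β' hβ' hEq
      have hβ1 := Finset.mem_coe.mp hβ
      have hβ2 := Finset.mem_coe.mp hβ'
      simp only at hEq
      have h1 := path_unique (hPinj β hβ1) (hPinj β' hβ2) (by rw [hP0 β hβ1, hP0 β' hβ2]) hEq
      funext u
      obtain ⟨i, hi, rfl⟩ := hysurj u
      by_cases hih : i ≤ h
      · have h2 := congrFun ((hFmem β hβ1).2.trans (hFmem β' hβ2).2.symm) ⟨i, by omega⟩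
        rw [hΦ, hΦ] at h2
        exact h2
      · obtain ⟨t, rfl⟩ : ∃ t, i = h + t := ⟨i - h, by omega⟩
        have h2 := h1 t (by omega)
        rw [hP, hP] at h2
        exact h2
    rw [Finset.card_image_of_injOn hinj] at hr
    refine hr.trans (Nat.pow_le_pow_right (by norm_num) ?_)
    have : ({x₀, x₁} : Finset V₀).card * l ≤ 2 * l := Nat.mul_le_mul_right _ hAc
    omega
  have hc := Finset.card_le_mul_card_image_of_maps_to hΦmem (2 ^ (2 * l + 1)) hfib
  have hge := card_emb_general hn hV hq (oBound_of_hyp hq hyp) (pathGraph_connected h) (m := h)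
    (by simp)
  have hcR : (D.card : ℝ) ≤ 2 ^ (2 * l + 1) * ((Emb (pathGraph (h + 1)) H Finset.univ).card : ℝ) := by
    exact_mod_cast hc
  refine hcR.trans (mul_le_mul_of_nonneg_left ?_ (by positivity))
  exact hge

end Vale.Agent.Lib.P064r
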