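import Vale.Agent.Lib.P064r.Chain
import Vale.Agent.Lib.P064k.SpreadG

/-!
From the block bound to a bound for all graphs, and to `p_c`.
-/

namespace Vale.Agent.Lib.P064r

open Finset SimpleGraph Vale.Agent.Lib.P064 Vale.Agent.Lib.P064k
open scoped Classical Nat

set_option linter.unusedSectionVars false
set_option linter.unusedVariables false

variable {V : Type} [Fintype V]

lemma LamB_pos {N c θ θ' E' KS : ℝ} (h : BP N c θ θ' E' KS) : 0 < LamB N c θ θ' E' KS := by
  unfold LamB
  have h1 : 0 < KS := by linarith [h.hKS1]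
  have h2 := h.hθ'0
  have h3 := h.hc0
  have h4 : 0 < N + 1 / 2 := by linarith [h.hN1]
  have h5 : 0 < 8 * (N + 1 / 2) ^ 2 / c := by positivity
  have h6 := Real.rpow_pos_of_pos h5 (1 / E' + θ / θ')
  positivity

/-- The bound for all graphs at a density satisfying the conditions. -/
theorem emb_BP {H : SimpleGraph V} {n : ℕ} {q N c θ θ' E' KS : ℝ} (hn : 1 ≤ n)
    (hV : Fintype.card V ≤ n) (hq : 0 < q) (hq1 : q ≤ 1)
    (hyp : ∀ F : H.Subgraph, 1 ≤ expCopies n q F.coe)
    (hNd : N = Real.log n) (hcd : c = Real.log (1 / q)) (hBP : BP N c θ θ' E' KS) :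
    EmbBound H n (9 * (LamB N c θ θ' E' KS * q)) := by
  have hN1 := hBP.hN1
  have hN0 : 0 ≤ N := by linarith
  obtain ⟨T, hT0, hTs, hTc⟩ := exists_real_tokens (H := H) (N := N) (c := c) (Nt := N + 1 / 2) hBP.hc0
    (by linarith) hN0 (by
      intro E' hE'
      rw [hNd, hcd]
      exact density_log hn hq hyp E' hE')
  have hT : HTok H T c (N + 1 / 2) := ⟨hT0, hTs, hTc⟩
  have hΛ := LamB_pos hBP
  obtain ⟨Λ, hΛdef⟩ : ∃ Λ, Λ = LamB N c θ θ' E' KS := ⟨_, rfl⟩
  rw [← hΛdef] at hΛ ⊢
  intro Z _ F
  refine emb_strip (s := 9 * (Λ * q)) (by positivity) hV ?_ (Fintype.card Z) Z F rfl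
  intro Z _ F hno
  by_cases hne : Nonempty Z
  · have h1 := emb_of_blocks (F := F) hn hq hq1 hyp hΛ (by
      intro x₀ U B Y g hY hd hB hg hr hv
      rw [hΛdef]
      subst hNd hcd
      exact block_bound hn hV hq hq1 hyp rfl rfl hT hBP hY hd hB hg hr hv) hne
    set e := numEdges F with he
    set v := Fintype.card Z with hv
    have hve : v ≤ 2 * e := card_le_two_edges F hno
    by_cases hvn : v ≤ n
    · have h2 := pow_le_three_desc hvn
      have h3 : (3 : ℝ) ^ v ≤ 9 ^ e := by
        have : (9 : ℝ) ^ e = 3 ^ (2 * e) := by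
          rw [pow_mul]
          norm_num
        rw [this]
        exact pow_le_pow_right₀ (by norm_num) hve
      have hdn : (0 : ℝ) ≤ (n.descFactorial v : ℝ) := by positivity
      calc ((Emb F H Finset.univ).card : ℝ) ≤ (n : ℝ) ^ v * (Λ * q) ^ e := h1
        _ ≤ (9 ^ e * (n.descFactorial v : ℝ)) * (Λ * q) ^ e := by
            refine mul_le_mul_of_nonneg_right ?_ (by positivity)
            exact h2.trans (mul_le_mul_of_nonneg_right h3 hdn)
        _ = _ := by
            rw [mul_pow]
            ring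
    · have h0 : Emb F H Finset.univ = ∅ := by
        refine Finset.eq_empty_of_forall_notMem fun f hf => ?_
        rcases mem_Emb.mp hf with ⟨h2, _, _⟩
        have h4 := Fintype.card_le_of_injective f h2
        omega
      rw [h0]
      simp only [Finset.card_empty, Nat.cast_zero]
      positivity
  · rw [not_nonempty_iff] at hne
    have h1 : (Emb F H Finset.univ).card ≤ 1 := by
      refine Finset.card_le_one.mpr ?_
      intro a _ b _
      funext z
      exact hne.elim z
    have h2 : numEdges F = 0 := by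
      unfold numEdges
      have : F.edgeSet = ∅ := by
        ext e
        induction e using Sym2.ind with
        | _ a b => exact hne.elim a
      rw [this, Set.ncard_empty]
    have h3 : Fintype.card Z = 0 := Fintype.card_eq_zero
    rw [h2, h3]
    simp only [Nat.descFactorial_zero, Nat.cast_one, pow_zero, mul_one]
    exact_mod_cast h1

/-- The bound for `p_c` at a density satisfying the conditions. -/
theorem pCrit_BP {H : SimpleGraph V} {n : ℕ} {q N c θ θ' E' KS : ℝ} (hn : 2 ≤ n)
    (hV : Fintype.card V ≤ n) (hE : 1 ≤ numEdges H) (hq : 0 < q) (hq1 : q ≤ 1)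
    (hyp : ∀ F : H.Subgraph, 1 ≤ expCopies n q F.coe)
    (hNd : N = Real.log n) (hcd : c = Real.log (1 / q)) (hBP : BP N c θ θ' E' KS) :
    pCrit n H ≤ 1728 * LamB N c θ θ' E' KS * N * q := by
  have hΛ := LamB_pos hBP
  have h1 := pCrit_le_of_bound (s := 9 * (LamB N c θ θ' E' KS * q)) (by positivity) hV
    (emb_BP (by omega) hV hq hq1 hyp hNd hcd hBP)
  have h2 := log_edges_le hn hV hE
  rw [← hNd] at h2
  refine h1.trans ?_
  have h3 : 0 ≤ 9 * (LamB N c θ θ' E' KS * q) * 32 := by positivity
  have h4 := mul_le_mul_of_nonneg_left h2 h3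
  calc 9 * (LamB N c θ θ' E' KS * q) * (32 * ((Nat.log 2 (numEdges H) : ℝ) + 1))
      = 9 * (LamB N c θ θ' E' KS * q) * 32 * ((Nat.log 2 (numEdges H) : ℝ) + 1) := by ring
    _ ≤ _ := h4
    _ = _ := by ring

end Vale.Agent.Lib.P064r
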