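import Vale.Agent.Lib.P064r.Block2

/-!
The choice of the parameters.
-/

namespace Vale.Agent.Lib.P064r

open Finset SimpleGraph Vale.Agent.Lib.P064
open scoped Classical Nat

set_option linter.unusedSectionVars false
set_option linter.unusedVariables false

/-- The basic threshold. -/
noncomputable def th0 (E : ℕ) (δ θ' : ℝ) : ℝ := θ' * min (1 / (2 * (E : ℝ))) (δ / 2)

lemma th0_pos {E : ℕ} {δ θ' : ℝ} (hE : 2 ≤ E) (hδ : 0 < δ) (hθ' : 0 < θ') : 0 < th0 E δ θ' := by
  unfold th0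
  have h1 : (0 : ℝ) < E := by
    have : 0 < E := by omega
    exact_mod_cast this
  have h2 : 0 < 1 / (2 * (E : ℝ)) := by positivity
  have h3 : 0 < δ / 2 := by positivity
  exact mul_pos hθ' (lt_min h2 h3)

lemma th0_le_one {E : ℕ} {δ θ' : ℝ} (hE : 2 ≤ E) (hδ : 0 < δ) (hδ1 : δ ≤ 1) (hθ' : 0 < θ')
    (hθ'1 : θ' ≤ 1 / 2) : th0 E δ θ' ≤ 1 := by
  unfold th0
  have h3 : min (1 / (2 * (E : ℝ))) (δ / 2) ≤ δ / 2 := min_le_right _ _
  have h4 : 0 ≤ min (1 / (2 * (E : ℝ))) (δ / 2) := by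
    have h1 : (0 : ℝ) < E := by
      have : 0 < E := by omega
      exact_mod_cast this
    exact le_min (by positivity) (by positivity)
  nlinarith

/-- The parameters satisfy the conditions of the block bound. -/
theorem BP_params {N c δ θ' : ℝ} {E : ℕ} (hE : 2 ≤ E) (hδ0 : 0 < δ) (hδ1 : δ ≤ 1) (hθ'0 : 0 < θ')
    (hθ'1 : θ' ≤ 1 / 2) (hN0 : 2 * (E : ℝ) / θ' ≤ N) (hN1 : 1 ≤ N) (hc1 : 1 ≤ c) (hcN : c ≤ N)
    (hNR : ∀ s e : ℕ, 1 ≤ s → s ≤ e → e < E →
      θ' * N ≤ |(s : ℝ) * N - (e : ℝ) * c|) :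
    BP N c (min (th0 E δ θ') (c / (2 * N))) θ' (max (E : ℝ) (N / (2 * c))) (23 / th0 E δ θ') := by
  have hN : 0 < N := by linarith
  have hc : 0 < c := by linarith
  have hEpos : (0 : ℝ) < E := by
    have : 0 < E := by omega
    exact_mod_cast this
  have ht0 := th0_pos hE hδ0 hθ'0
  have ht1 := th0_le_one hE hδ0 hδ1 hθ'0 hθ'1
  have hcN2 : 0 < c / (2 * N) := by positivity
  obtain ⟨θ, hθdef⟩ : ∃ θ, θ = min (th0 E δ θ') (c / (2 * N)) := ⟨_, rfl⟩
  rw [← hθdef]
  have hθ : 0 < θ := by rw [hθdef]; exact lt_min ht0 hcN2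
  have hθle : θ ≤ th0 E δ θ' := by rw [hθdef]; exact min_le_left _ _
  have hθle2 : θ ≤ c / (2 * N) := by rw [hθdef]; exact min_le_right _ _
  have hτs : θ * N ≤ c / 2 := by
    have := mul_le_mul_of_nonneg_right hθle2 hN.le
    have e1 : c / (2 * N) * N = c / 2 := by
      field_simp
    linarith
  have hθE : θ * (E : ℝ) ≤ θ' / 2 := by
    have h1 : th0 E δ θ' ≤ θ' * (1 / (2 * (E : ℝ))) := by
      unfold th0
      exact mul_le_mul_of_nonneg_left (min_le_left _ _) hθ'0.le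
    have h2 : θ * (E : ℝ) ≤ (θ' * (1 / (2 * (E : ℝ)))) * (E : ℝ) :=
      mul_le_mul_of_nonneg_right (hθle.trans h1) hEpos.le
    have e1 : (θ' * (1 / (2 * (E : ℝ)))) * (E : ℝ) = θ' / 2 := by
      field_simp
    linarith
  have hEθ : (E : ℝ) ≤ θ' * N / 2 := by
    rw [div_le_iff₀ hθ'0] at hN0
    linarith
  refine ⟨hN1, hc, hcN, hθ, hθ'0, by linarith, hτs, lt_of_lt_of_le hEpos (le_max_left _ _), ?_, ?_, ?_⟩
  · rw [le_div_iff₀ ht0]
    linarith
  · -- non-resonance
    intro s e hs he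
    have hs1 : (1 : ℝ) ≤ (s : ℝ) := by exact_mod_cast hs
    by_cases h1 : (e : ℝ) < N / (2 * c)
    · left
      have h2 : (e : ℝ) * c ≤ N / 2 := by
        rw [lt_div_iff₀ (by positivity)] at h1
        linarith
      have h3 : (s : ℝ) * N ≥ 1 * N := mul_le_mul_of_nonneg_right hs1 hN.le
      have h4 : θ' * N ≤ 1 / 2 * N := mul_le_mul_of_nonneg_right hθ'1 hN.le
      linarith
    · have heE : e < E := by
        have h2 : (e : ℝ) < (E : ℝ) := by
          rcases lt_max_iff.mp he with h3 | h3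
          · exact h3
          · exact absurd h3 h1
        exact_mod_cast h2
      by_cases hse : s ≤ e
      · have h2 := hNR s e hs hse heE
        by_cases hV : 0 ≤ (s : ℝ) * N - (e : ℝ) * c
        · left
          rwa [abs_of_nonneg hV] at h2
        · push Not at hV
          right
          rw [abs_of_neg hV] at h2
          refine ⟨by linarith, ?_⟩
          have h3 : (s : ℝ) ≤ (E : ℝ) := by
            have : s ≤ E := by omega
            exact_mod_cast this
          have h4 : (s : ℝ) < θ' * N / 2 := by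
            have : (s : ℝ) < (E : ℝ) := by
              have : s < E := by omega
              exact_mod_cast this
            linarith
          have h5 : θ * N * (e : ℝ) ≤ θ' * N / 2 := by
            have h6 : (e : ℝ) ≤ (E : ℝ) := by exact_mod_cast heE.le
            have h7 : θ * (e : ℝ) ≤ θ * (E : ℝ) := mul_le_mul_of_nonneg_left h6 hθ.le
            have h8 : θ * (e : ℝ) ≤ θ' / 2 := by linarith
            have h9 := mul_le_mul_of_nonneg_right h8 hN.le
            calc θ * N * (e : ℝ) = θ * (e : ℝ) * N := by ring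
              _ ≤ θ' / 2 * N := h9
              _ = θ' * N / 2 := by ring
          linarith
      · left
        have hes : (e : ℝ) + 1 ≤ (s : ℝ) := by
          have : e + 1 ≤ s := by omega
          exact_mod_cast this
        have he0 : (0 : ℝ) ≤ (e : ℝ) := by positivity
        have h2 : ((e : ℝ) + 1) * N ≤ (s : ℝ) * N := mul_le_mul_of_nonneg_right hes hN.le
        have h3 : (e : ℝ) * c ≤ (e : ℝ) * N := mul_le_mul_of_nonneg_left hcN he0
        have h4 : θ' * N ≤ 1 / 2 * N := mul_le_mul_of_nonneg_right hθ'1 hN.le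
        nlinarith
  · -- the strong ranks
    intro m e hm hmN
    obtain ⟨γ, hγ⟩ : ∃ γ, γ = N / c := ⟨_, rfl⟩
    have hγ1 : 1 ≤ γ := by
      rw [hγ, le_div_iff₀ hc]
      linarith
    have hγN : γ * c = N := by
      rw [hγ]
      field_simp
    have hSr : (N + 1 / 2) / (θ * N) ≤ 3 * γ / th0 E δ θ' := by
      -- `1 / θ ≤ 2 γ / th0`
      rw [div_le_div_iff₀ (by positivity) ht0]
      have h2 : th0 E δ θ' ≤ 2 * γ * θ := by
        -- either `θ = th0` or `θ = c / (2 N)`
        rcases min_choice (th0 E δ θ') (c / (2 * N)) with h2 | h2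
        · rw [← hθdef] at h2
          rw [h2]
          nlinarith
        · rw [← hθdef] at h2
          rw [h2]
          have e1 : 2 * γ * (c / (2 * N)) = 1 := by
            rw [hγ]
            field_simp
          rw [e1]
          exact ht1
      have h3 : N + 1 / 2 ≤ 3 / 2 * N := by linarith
      have h4 : (N + 1 / 2) * th0 E δ θ' ≤ (3 / 2 * N) * (2 * γ * θ) :=
        mul_le_mul h3 h2 ht0.le (by positivity)
      calc (N + 1 / 2) * th0 E δ θ' ≤ (3 / 2 * N) * (2 * γ * θ) := h4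
        _ = 3 * γ * (θ * N) := by ring
    have hfl : ((⌊(N + 1 / 2) / (θ * N)⌋₊ : ℕ) : ℝ) ≤ (N + 1 / 2) / (θ * N) :=
      Nat.floor_le (by positivity)
    have hmγ : (m : ℝ) * γ ≤ 2 * (e : ℝ) := by
      have h1 : (m : ℝ) * γ * c ≤ 2 * (e : ℝ) * c := by
        calc (m : ℝ) * γ * c = (m : ℝ) * (γ * c) := by ring
          _ = (m : ℝ) * N := by rw [hγN]
          _ ≤ _ := hmN
      exact le_of_mul_le_mul_right h1 hc
    have hγpow : γ ^ m ≤ Real.exp 2 ^ e := by
      have h1 : Real.log γ ≤ γ - 1 := Real.log_le_sub_one_of_pos (by linarith)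
      have h2 : γ ^ m = Real.exp ((m : ℝ) * Real.log γ) := by
        rw [← Real.rpow_natCast, Real.rpow_def_of_pos (by linarith)]
        congr 1
        ring
      have h3 : Real.exp 2 ^ e = Real.exp ((e : ℝ) * 2) := by
        rw [← Real.exp_nat_mul]
      rw [h2, h3]
      apply Real.exp_le_exp.mpr
      have hm0 : (0 : ℝ) ≤ (m : ℝ) := by positivity
      have h4 : (m : ℝ) * Real.log γ ≤ (m : ℝ) * (γ - 1) := mul_le_mul_of_nonneg_left h1 hm0
      nlinarith
    have he2 : Real.exp 2 ≤ 23 / 3 := by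
      have h1 : Real.exp 1 < 2.7182818286 := Real.exp_one_lt_d9
      have h2 : Real.exp 2 = Real.exp 1 * Real.exp 1 := by
        rw [← Real.exp_add]
        norm_num
      rw [h2]
      have h3 := Real.exp_pos 1
      nlinarith
    have h3t : 1 ≤ 3 / th0 E δ θ' := by
      rw [le_div_iff₀ ht0]
      linarith
    have hS0 : (0 : ℝ) ≤ ((⌊(N + 1 / 2) / (θ * N)⌋₊ : ℕ) : ℝ) := by positivity
    calc ((⌊(N + 1 / 2) / (θ * N)⌋₊ : ℕ) : ℝ) ^ m ≤ (3 * γ / th0 E δ θ') ^ m :=
          pow_le_pow_left₀ hS0 (hfl.trans hSr) m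
      _ = (3 / th0 E δ θ') ^ m * γ ^ m := by
          rw [← mul_pow]
          congr 1
          field_simp
      _ ≤ (3 / th0 E δ θ') ^ e * Real.exp 2 ^ e :=
          mul_le_mul (pow_le_pow_right₀ h3t hm) hγpow (by positivity) (by positivity)
      _ = (3 / th0 E δ θ' * Real.exp 2) ^ e := by rw [mul_pow]
      _ ≤ (23 / th0 E δ θ') ^ e := by
          refine pow_le_pow_left₀ (by positivity) ?_ e
          have h5 : 3 / th0 E δ θ' * Real.exp 2 ≤ 3 / th0 E δ θ' * (23 / 3) :=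
            mul_le_mul_of_nonneg_left he2 (by positivity)
          have e3 : 3 / th0 E δ θ' * (23 / 3) = 23 / th0 E δ θ' := by
            field_simp
          linarith

/-- The power of the weak rank. -/
theorem Dr_rpow_le {N c δ θ' : ℝ} {E : ℕ} (hE : 2 ≤ E) (hδ0 : 0 < δ) (hδ1 : δ ≤ 1) (hθ'0 : 0 < θ')
    (hN1 : 1 ≤ N) (hc1 : 1 ≤ c) (hcN : c ≤ N) :
    (8 * (N + 1 / 2) ^ 2 / c) ^ (1 / max (E : ℝ) (N / (2 * c)) +
        min (th0 E δ θ') (c / (2 * N)) / θ') ≤ 134 * N ^ (1 / (E : ℝ) + δ) := by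
  have hN : 0 < N := by linarith
  have hc : 0 < c := by linarith
  have hEpos : (0 : ℝ) < E := by
    have : 0 < E := by omega
    exact_mod_cast this
  have hE2 : (2 : ℝ) ≤ E := by exact_mod_cast hE
  have ht0 := th0_pos hE hδ0 hθ'0
  obtain ⟨E', hE'⟩ : ∃ E', E' = max (E : ℝ) (N / (2 * c)) := ⟨_, rfl⟩
  obtain ⟨θ, hθ⟩ : ∃ θ, θ = min (th0 E δ θ') (c / (2 * N)) := ⟨_, rfl⟩
  rw [← hE', ← hθ]
  obtain ⟨γ, hγ⟩ : ∃ γ, γ = N / c := ⟨_, rfl⟩
  have hγ1 : 1 ≤ γ := by
    rw [hγ, le_div_iff₀ hc]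
    linarith
  have hEE : (E : ℝ) ≤ E' := by rw [hE']; exact le_max_left _ _
  have hEγ : γ / 2 ≤ E' := by
    have h1 : N / (2 * c) ≤ E' := by rw [hE']; exact le_max_right _ _
    have e1 : γ / 2 = N / (2 * c) := by
      rw [hγ]
      field_simp
    linarith
  have hE'0 : 0 < E' := by linarith
  have hθ0 : 0 < θ := by
    rw [hθ]
    exact lt_min ht0 (by positivity)
  have hθθ : θ / θ' ≤ δ / 2 := by
    have h1 : θ ≤ th0 E δ θ' := by rw [hθ]; exact min_le_left _ _
    have h2 : th0 E δ θ' ≤ θ' * (δ / 2) := by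
      unfold th0
      exact mul_le_mul_of_nonneg_left (min_le_right _ _) hθ'0.le
    rw [div_le_iff₀ hθ'0]
    linarith
  obtain ⟨Dr, hDr⟩ : ∃ Dr, Dr = 8 * (N + 1 / 2) ^ 2 / c := ⟨_, rfl⟩
  rw [← hDr]
  have hDr0 : 0 < Dr := by rw [hDr]; positivity
  have hDr1 : Dr ≤ 18 * N * γ := by
    rw [hDr, hγ, div_le_iff₀ hc]
    have e1 : 18 * N * (N / c) * c = 18 * N * N := by
      field_simp
    rw [e1]
    nlinarith
  have hDrN : N ≤ Dr := by
    rw [hDr, le_div_iff₀ hc]
    nlinarith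
  have hDr2 : Dr ≤ 18 * N * N := by
    rw [hDr, div_le_iff₀ hc]
    have h1 : 8 * (N + 1 / 2) ^ 2 ≤ 18 * N * N := by nlinarith
    have h2 : 18 * N * N * 1 ≤ 18 * N * N * c := mul_le_mul_of_nonneg_left hc1 (by positivity)
    linarith
  have hlogN : 0 ≤ Real.log N := Real.log_nonneg hN1
  have hlogD0 : 0 ≤ Real.log Dr := Real.log_nonneg (by linarith)
  have hlog18 : 0 ≤ Real.log 18 := Real.log_nonneg (by norm_num)
  have hlogγ0 : 0 ≤ Real.log γ := Real.log_nonneg hγ1
  have hlogγ : Real.log γ ≤ γ - 1 := Real.log_le_sub_one_of_pos (by linarith)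
  have hl1 : Real.log Dr ≤ Real.log 18 + Real.log N + Real.log γ := by
    have h1 := Real.log_le_log hDr0 hDr1
    rw [Real.log_mul (by positivity) (by positivity), Real.log_mul (by norm_num) hN.ne'] at h1
    exact h1
  have hl2 : Real.log Dr ≤ Real.log 18 + 2 * Real.log N := by
    have h1 := Real.log_le_log hDr0 hDr2
    rw [Real.log_mul (by positivity) hN.ne', Real.log_mul (by norm_num) hN.ne'] at h1
    linarith
  -- the two exponents
  obtain ⟨r1, hr1⟩ : ∃ r1, r1 = 1 / E' := ⟨_, rfl⟩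
  obtain ⟨r2, hr2⟩ : ∃ r2, r2 = θ / θ' := ⟨_, rfl⟩
  rw [← hr1, ← hr2]
  have hr10 : 0 ≤ r1 := by rw [hr1]; positivity
  have hr20 : 0 ≤ r2 := by rw [hr2]; positivity
  have hr1a : r1 ≤ 1 / (E : ℝ) := by
    rw [hr1]
    exact one_div_le_one_div_of_le hEpos hEE
  have hr1b : r1 ≤ 1 / 2 := by
    have : 1 / (E : ℝ) ≤ 1 / 2 := one_div_le_one_div_of_le (by norm_num) hE2
    linarith
  have hr1c : r1 * γ ≤ 2 := by
    rw [hr1, div_mul_eq_mul_div, one_mul, div_le_iff₀ hE'0]
    linarith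
  have hr2a : r2 ≤ δ / 2 := by rw [hr2]; exact hθθ
  have hterm1 : r1 * Real.log Dr ≤ 1 / 2 * Real.log 18 + 1 / (E : ℝ) * Real.log N + 2 := by
    have h1 := mul_le_mul_of_nonneg_left hl1 hr10
    have h2 : r1 * Real.log 18 ≤ 1 / 2 * Real.log 18 := mul_le_mul_of_nonneg_right hr1b hlog18
    have h3 : r1 * Real.log N ≤ 1 / (E : ℝ) * Real.log N := mul_le_mul_of_nonneg_right hr1a hlogN
    have h4 : r1 * Real.log γ ≤ r1 * (γ - 1) := mul_le_mul_of_nonneg_left hlogγ hr10
    have h5 : r1 * (γ - 1) ≤ 2 := by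
      have e1 : r1 * (γ - 1) = r1 * γ - r1 := by ring
      linarith
    have e2 : r1 * (Real.log 18 + Real.log N + Real.log γ) =
        r1 * Real.log 18 + r1 * Real.log N + r1 * Real.log γ := by ring
    linarith
  have hterm2 : r2 * Real.log Dr ≤ 1 / 2 * Real.log 18 + δ * Real.log N := by
    have h1 := mul_le_mul_of_nonneg_left hl2 hr20
    have h2 : r2 * Real.log 18 ≤ 1 / 2 * Real.log 18 :=
      mul_le_mul_of_nonneg_right (by linarith) hlog18
    have h3 : r2 * (2 * Real.log N) ≤ (δ / 2) * (2 * Real.log N) :=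
      mul_le_mul_of_nonneg_right hr2a (by positivity)
    have e2 : r2 * (Real.log 18 + 2 * Real.log N) = r2 * Real.log 18 + r2 * (2 * Real.log N) := by
      ring
    have e3 : (δ / 2) * (2 * Real.log N) = δ * Real.log N := by ring
    linarith
  rw [Real.rpow_def_of_pos hDr0, Real.rpow_def_of_pos hN]
  -- compare the exponents
  have he : Real.log Dr * (r1 + r2) ≤ Real.log 18 + 2 + Real.log N * (1 / (E : ℝ) + δ) := by
    have e1 : Real.log Dr * (r1 + r2) = r1 * Real.log Dr + r2 * Real.log Dr := by ring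
    have e2 : Real.log N * (1 / (E : ℝ) + δ) = 1 / (E : ℝ) * Real.log N + δ * Real.log N := by ring
    linarith
  have h134 : Real.exp (Real.log 18 + 2) ≤ 134 := by
    rw [Real.exp_add, Real.exp_log (by norm_num)]
    have h1 : Real.exp 1 < 2.7182818286 := Real.exp_one_lt_d9
    have h2 : Real.exp 2 = Real.exp 1 * Real.exp 1 := by
      rw [← Real.exp_add]
      norm_num
    rw [h2]
    have h3 := Real.exp_pos 1
    have h4 : Real.exp 1 * Real.exp 1 ≤ 2.7182818286 * 2.7182818286 :=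
      mul_le_mul h1.le h1.le h3.le (by norm_num)
    norm_num at h4 ⊢
    linarith
  calc Real.exp (Real.log Dr * (r1 + r2))
      ≤ Real.exp (Real.log 18 + 2 + Real.log N * (1 / (E : ℝ) + δ)) := Real.exp_le_exp.mpr he
    _ = Real.exp (Real.log 18 + 2) * Real.exp (Real.log N * (1 / (E : ℝ) + δ)) := Real.exp_add _ _
    _ ≤ _ := mul_le_mul_of_nonneg_right h134 (Real.exp_pos _).le

end Vale.Agent.Lib.P064r
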