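import Vale.Agent.Lib.P064r.Main1
import Vale.Agent.Lib.P064r.Num
import Vale.Agent.Lib.P064k.MainSmall

/-!
The bound for `p_c` away from the resonant densities.
-/

namespace Vale.Agent.Lib.P064r

open Finset SimpleGraph Vale.Agent.Lib.P064 Vale.Agent.Lib.P064k
open scoped Classical Nat

set_option linter.unusedSectionVars false
set_option linter.unusedVariables false

variable {V : Type} [Fintype V]

/-- The bound when the logarithm is large compared with the parameters. -/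
theorem pCrit_large {H : SimpleGraph V} {n : ℕ} {q δ θ' : ℝ} {E : ℕ} (hn : 2 ≤ n)
    (hV : Fintype.card V ≤ n) (hEH : 1 ≤ numEdges H) (hE : 2 ≤ E) (hδ0 : 0 < δ) (hδ1 : δ ≤ 1)
    (hθ'0 : 0 < θ') (hθ'1 : θ' ≤ 1 / 2) (hq : 0 < q)
    (hyp : ∀ F : H.Subgraph, 1 ≤ expCopies n q F.coe)
    (hc1 : 1 ≤ Real.log (1 / q)) (hcN : Real.log (1 / q) ≤ Real.log n)
    (hN0 : 2 * (E : ℝ) / θ' ≤ Real.log n)
    (hNR : ∀ s e : ℕ, 1 ≤ s → s ≤ e → e < E →
      θ' * Real.log n ≤ |(s : ℝ) * Real.log n - (e : ℝ) * Real.log (1 / q)|) :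
    pCrit n H ≤ 43968946176 * ((E : ℝ) + 1 / δ) * (1 / θ') ^ 2 *
      (Real.log n) ^ (1 + 1 / (E : ℝ) + δ) * q := by
  obtain ⟨N, hN⟩ : ∃ N, N = Real.log n := ⟨_, rfl⟩
  obtain ⟨c, hc⟩ : ∃ c, c = Real.log (1 / q) := ⟨_, rfl⟩
  rw [← hN] at hN0 ⊢
  rw [← hc, ← hN] at hcN
  rw [← hc] at hc1
  have hNR' : ∀ s e : ℕ, 1 ≤ s → s ≤ e → e < E →
      θ' * N ≤ |(s : ℝ) * N - (e : ℝ) * c| := by
    intro s e h1 h2 h3
    rw [hN, hc]
    exact hNR s e h1 h2 h3
  have hN1 : 1 ≤ N := by linarith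
  have hN0' : 0 < N := by linarith
  have hq1 : q ≤ 1 := by
    by_contra h
    push Not at h
    have h1 : Real.log (1 / q) < 0 := by
      apply Real.log_neg (by positivity)
      rw [div_lt_one hq]
      exact h
    rw [← hc] at h1
    linarith
  have hBP := BP_params hE hδ0 hδ1 hθ'0 hθ'1 hN0 hN1 hc1 hcN hNR'
  have h1 := pCrit_BP hn hV hEH hq hq1 hyp hN hc hBP
  refine h1.trans ?_
  have hDr := Dr_rpow_le (θ' := θ') hE hδ0 hδ1 hθ'0 hN1 hc1 hcN
  have ht0 := th0_pos hE hδ0 hθ'0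
  have hEpos : (0 : ℝ) < E := by
    have : 0 < E := by omega
    exact_mod_cast this
  -- the inverse of the threshold
  have hinv : 1 / th0 E δ θ' ≤ (1 / θ') * (2 * ((E : ℝ) + 1 / δ)) := by
    unfold th0
    have hm : 0 < min (1 / (2 * (E : ℝ))) (δ / 2) := lt_min (by positivity) (by positivity)
    have h2 : 1 / min (1 / (2 * (E : ℝ))) (δ / 2) ≤ 2 * ((E : ℝ) + 1 / δ) := by
      rcases min_choice (1 / (2 * (E : ℝ))) (δ / 2) with h3 | h3
      · rw [h3]
        have e1 : 1 / (1 / (2 * (E : ℝ))) = 2 * (E : ℝ) := by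
          field_simp
        rw [e1]
        have : 0 < 1 / δ := by positivity
        nlinarith
      · rw [h3]
        have e1 : 1 / (δ / 2) = 2 * (1 / δ) := by
          field_simp
        rw [e1]
        nlinarith
    have e2 : 1 / (θ' * min (1 / (2 * (E : ℝ))) (δ / 2)) =
        (1 / θ') * (1 / min (1 / (2 * (E : ℝ))) (δ / 2)) := by
      field_simp
    rw [e2]
    exact mul_le_mul_of_nonneg_left h2 (by positivity)
  obtain ⟨P, hP⟩ : ∃ P, P = N ^ (1 / (E : ℝ) + δ) := ⟨_, rfl⟩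
  have hP0 : 0 ≤ P := by rw [hP]; positivity
  rw [← hP] at hDr
  have hLam : LamB N c (min (th0 E δ θ') (c / (2 * N))) θ' (max (E : ℝ) (N / (2 * c)))
      (23 / th0 E δ θ') ≤ 4128 * (23 * ((1 / θ') * (2 * ((E : ℝ) + 1 / δ)))) * (1 / θ') *
        (134 * P) := by
    unfold LamB
    have h3 : 23 / th0 E δ θ' ≤ 23 * ((1 / θ') * (2 * ((E : ℝ) + 1 / δ))) := by
      have e1 : 23 / th0 E δ θ' = 23 * (1 / th0 E δ θ') := by ring
      rw [e1]
      exact mul_le_mul_of_nonneg_left hinv (by norm_num)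
    have h4 : 0 ≤ (8 * (N + 1 / 2) ^ 2 / c) ^ (1 / max (E : ℝ) (N / (2 * c)) +
        min (th0 E δ θ') (c / (2 * N)) / θ') := by
      have hc0 : 0 < c := by linarith
      positivity
    refine mul_le_mul ?_ hDr h4 (by positivity)
    refine mul_le_mul_of_nonneg_right ?_ (by positivity)
    exact mul_le_mul_of_nonneg_left h3 (by norm_num)
  have hpow : N ^ (1 + 1 / (E : ℝ) + δ) = P * N := by
    rw [hP, ← Real.rpow_add_one hN0'.ne']
    congr 1
    ring
  rw [hpow]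
  calc 1728 * LamB N c (min (th0 E δ θ') (c / (2 * N))) θ' (max (E : ℝ) (N / (2 * c)))
        (23 / th0 E δ θ') * N * q
      ≤ 1728 * (4128 * (23 * ((1 / θ') * (2 * ((E : ℝ) + 1 / δ)))) * (1 / θ') * (134 * P)) * N *
        q := by
        refine mul_le_mul_of_nonneg_right ?_ hq.le
        refine mul_le_mul_of_nonneg_right ?_ hN0'.le
        exact mul_le_mul_of_nonneg_left hLam (by norm_num)
    _ = _ := by ring

/-- The hypothesis for `H`, at all densities above twice the expectation threshold. -/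
lemma hyp_of_le {H : SimpleGraph V} {n : ℕ} {q : ℝ} (hV : Fintype.card V ≤ n)
    (hEH : 1 ≤ numEdges H) (hq : 2 * pExp n H ≤ q) :
    0 < pExp n H ∧ ∀ F : H.Subgraph, 1 ≤ expCopies n q F.coe := by
  obtain ⟨hp0, _, hp⟩ := pExp_mem (H := H) hV
  obtain ⟨hppos, hyp2⟩ := hyp_double hV hEH hp0 hp
  refine ⟨hppos, fun F => (hyp2 F).trans (expCopies_mono (by positivity) hq _)⟩

lemma pCrit_le_one {H : SimpleGraph V} {n : ℕ} (hV : Fintype.card V ≤ n) : pCrit n H ≤ 1 := by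
  have hPbd : BddBelow {p : ℝ | 0 ≤ p ∧ p ≤ 1 ∧
      1 / 2 ≤ gnpProb n p (fun G => 0 < G.copyCount H)} := ⟨0, fun p hp => hp.1⟩
  exact csInf_le hPbd ⟨zero_le_one, le_rfl, gnp_one hV⟩

/-- The constant of the five thirds bound. -/
noncomputable def constT : ℝ := 82944 * constH + 3456 * constC + 8064 * constC

lemma constT_pos : 0 < constT := by
  unfold constT
  have h1 := constC_pos
  have h2 : 0 < constH := by
    have := constH_ge
    linarith
  positivity

/-- The main theorem: away from the resonant densities the ratio is at most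
`(log n)^{1 + 1/E + δ}`. -/
theorem pCrit_resonance_free : ∃ C : ℝ, 0 < C ∧ ∀ (E : ℕ) (δ θ' : ℝ), 2 ≤ E → 0 < δ → δ ≤ 1 →
    0 < θ' → θ' ≤ 1 / 2 → ∀ (n : ℕ) (V : Type) [Fintype V] (H : SimpleGraph V) (q : ℝ),
    2 ≤ n → Fintype.card V ≤ n → 1 ≤ numEdges H → 2 * pExp n H ≤ q → 1 / (n : ℝ) ≤ q →
    (∀ s e : ℕ, 1 ≤ s → s ≤ e → e < E →
      θ' * Real.log n ≤ |(s : ℝ) * Real.log n - (e : ℝ) * Real.log (1 / q)|) →
    pCrit n H ≤ C * ((E : ℝ) + 1 / δ) * (1 / θ') ^ 2 * (Real.log n) ^ (1 + 1 / (E : ℝ) + δ) * q := by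
  refine ⟨43968946176 + constT + 24, by have := constT_pos; positivity, ?_⟩
  intro E δ θ' hE hδ0 hδ1 hθ'0 hθ'1 n V _ H q hn hV hEH hqE hqn hNR
  have hT := constT_pos
  obtain ⟨hp0, hyp⟩ := hyp_of_le hV hEH hqE
  have hq : 0 < q := by linarith
  have hnR : (2 : ℝ) ≤ n := by exact_mod_cast hn
  have hn0 : (0 : ℝ) < n := by linarith
  have hEpos : (0 : ℝ) < E := by
    have : 0 < E := by omega
    exact_mod_cast this
  have hE2 : (2 : ℝ) ≤ E := by exact_mod_cast hE
  obtain ⟨N, hN⟩ : ∃ N, N = Real.log n := ⟨_, rfl⟩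
  obtain ⟨c, hc⟩ : ∃ c, c = Real.log (1 / q) := ⟨_, rfl⟩
  have hNhalf : 1 / 2 ≤ N := by
    rw [hN]
    have h1 : Real.log 2 ≤ Real.log n := Real.log_le_log (by norm_num) hnR
    have h2 := Real.log_two_gt_d9
    linarith
  have hN0 : 0 < N := by linarith
  obtain ⟨a, ha⟩ : ∃ a, a = 1 + 1 / (E : ℝ) + δ := ⟨_, rfl⟩
  have ha1 : 1 ≤ a := by
    rw [ha]
    have : 0 < 1 / (E : ℝ) := by positivity
    linarith
  have ha3 : a ≤ 3 := by
    rw [ha]
    have : 1 / (E : ℝ) ≤ 1 := by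
      rw [div_le_one hEpos]
      linarith
    linarith
  have hK : (8 : ℝ) ≤ ((E : ℝ) + 1 / δ) * (1 / θ') ^ 2 := by
    have h1 : (2 : ℝ) ≤ 1 / θ' := by
      rw [le_div_iff₀ hθ'0]
      linarith
    have h2 : (4 : ℝ) ≤ (1 / θ') ^ 2 := by nlinarith
    have h3 : (2 : ℝ) ≤ (E : ℝ) + 1 / δ := by
      have : 0 < 1 / δ := by positivity
      linarith
    nlinarith
  have hNa0 : 0 < N ^ a := Real.rpow_pos_of_pos hN0 a
  rw [← hN, ← ha]
  by_cases hc1 : 1 ≤ c
  · have hcN : c ≤ N := by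
      rw [hc, hN]
      refine Real.log_le_log (by positivity) ?_
      rw [div_le_iff₀ hq]
      rw [div_le_iff₀ hn0] at hqn
      linarith
    by_cases hlarge : 2 * (E : ℝ) / θ' ≤ N
    · have h1 := pCrit_large hn hV hEH hE hδ0 hδ1 hθ'0 hθ'1 hq hyp (by rw [← hc]; exact hc1)
        (by rw [← hc, ← hN]; exact hcN) (by rw [← hN]; exact hlarge) hNR
      rw [← hN, ← ha] at h1
      refine h1.trans ?_
      refine mul_le_mul_of_nonneg_right ?_ hq.le
      refine mul_le_mul_of_nonneg_right ?_ hNa0.le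
      have h2 : 0 ≤ ((E : ℝ) + 1 / δ) * (1 / θ') ^ 2 := by positivity
      nlinarith
    · -- small logarithm: the five thirds bound
      push Not at hlarge
      have hN1 : 1 ≤ N := by linarith
      have h1 := pCrit_five_thirds hn hV hEH
      rw [← hN] at h1
      have h2 : (1 / 2 : ℝ) * q ≥ pExp n H := by linarith
      have hN53 : N ^ ((5 : ℝ) / 3) ≤ N ^ a * N := by
        rw [← Real.rpow_add_one hN0.ne']
        exact Real.rpow_le_rpow_of_exponent_le hN1 (by linarith)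
      have hNE : N ≤ 2 * (((E : ℝ) + 1 / δ) * (1 / θ') ^ 2) := by
        have h3 : (2 : ℝ) ≤ 1 / θ' := by
          rw [le_div_iff₀ hθ'0]
          linarith
        have h4 : 1 / θ' ≤ (1 / θ') ^ 2 := by nlinarith
        have h5 : 2 * (E : ℝ) / θ' = 2 * ((E : ℝ) * (1 / θ')) := by ring
        rw [h5] at hlarge
        have h6 : (E : ℝ) * (1 / θ') ≤ ((E : ℝ) + 1 / δ) * (1 / θ') ^ 2 := by
          have h7 : 0 < 1 / δ := by positivity
          calc (E : ℝ) * (1 / θ') ≤ (E : ℝ) * (1 / θ') ^ 2 :=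
                mul_le_mul_of_nonneg_left h4 hEpos.le
            _ ≤ _ := by
                refine mul_le_mul_of_nonneg_right (by linarith) (by positivity)
        linarith
      have h8 : pCrit n H ≤ constT * N ^ ((5 : ℝ) / 3) * ((1 / 2) * q) := by
        refine h1.trans ?_
        refine mul_le_mul_of_nonneg_left h2 ?_
        positivity
      refine h8.trans ?_
      have h9 : N ^ ((5 : ℝ) / 3) ≤ N ^ a * (2 * (((E : ℝ) + 1 / δ) * (1 / θ') ^ 2)) :=
        hN53.trans (mul_le_mul_of_nonneg_left hNE hNa0.le)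
      have h10 : constT * N ^ ((5 : ℝ) / 3) ≤
          constT * (N ^ a * (2 * (((E : ℝ) + 1 / δ) * (1 / θ') ^ 2))) :=
        mul_le_mul_of_nonneg_left h9 hT.le
      have h11 : 0 ≤ ((E : ℝ) + 1 / δ) * (1 / θ') ^ 2 * N ^ a * q := by positivity
      calc constT * N ^ ((5 : ℝ) / 3) * ((1 / 2) * q)
          ≤ constT * (N ^ a * (2 * (((E : ℝ) + 1 / δ) * (1 / θ') ^ 2))) * ((1 / 2) * q) :=
            mul_le_mul_of_nonneg_right h10 (by positivity)
        _ = constT * (((E : ℝ) + 1 / δ) * (1 / θ') ^ 2 * N ^ a * q) := by ring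
        _ ≤ (43968946176 + constT + 24) * (((E : ℝ) + 1 / δ) * (1 / θ') ^ 2 * N ^ a * q) :=
            mul_le_mul_of_nonneg_right (by linarith) h11
        _ = _ := by ring
  · -- large density: the bound is trivial
    push Not at hc1
    have h1 := pCrit_le_one (H := H) (n := n) hV
    refine h1.trans ?_
    have hq3 : 1 / 3 ≤ q := by
      by_contra h
      push Not at h
      have h2 : (3 : ℝ) < 1 / q := by
        rw [lt_div_iff₀ hq]
        linarith
      have h3 : Real.log 3 < Real.log (1 / q) := Real.log_lt_log (by norm_num) h2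
      rw [← hc] at h3
      have h4 : (1 : ℝ) ≤ Real.log 3 := by
        rw [Real.le_log_iff_exp_le (by norm_num)]
        exact Real.exp_one_lt_three.le
      linarith
    have hNa : 1 / 8 ≤ N ^ a := by
      have h2 : (1 / 2 : ℝ) ^ a ≤ N ^ a := Real.rpow_le_rpow (by norm_num) hNhalf (by linarith)
      have h3 : (1 / 2 : ℝ) ^ (3 : ℝ) ≤ (1 / 2 : ℝ) ^ a :=
        Real.rpow_le_rpow_of_exponent_ge (by norm_num) (by norm_num) ha3
      have h4 : (1 / 2 : ℝ) ^ (3 : ℝ) = 1 / 8 := by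
        rw [show (3 : ℝ) = ((3 : ℕ) : ℝ) by norm_num, Real.rpow_natCast]
        norm_num
      linarith
    have h6 : (8 : ℝ) * (1 / 8) ≤ ((E : ℝ) + 1 / δ) * (1 / θ') ^ 2 * N ^ a :=
      mul_le_mul hK hNa (by norm_num) (by linarith)
    have h8 : (8 : ℝ) * (1 / 8) * (1 / 3) ≤ ((E : ℝ) + 1 / δ) * (1 / θ') ^ 2 * N ^ a * q :=
      mul_le_mul h6 hq3 (by norm_num) (by linarith)
    have h9 : (24 : ℝ) * ((8 : ℝ) * (1 / 8) * (1 / 3)) ≤
        (43968946176 + constT + 24) * (((E : ℝ) + 1 / δ) * (1 / θ') ^ 2 * N ^ a * q) :=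
      mul_le_mul (by linarith) h8 (by norm_num) (by linarith)
    calc (1 : ℝ) ≤ (24 : ℝ) * ((8 : ℝ) * (1 / 8) * (1 / 3)) := by norm_num
      _ ≤ _ := h9
      _ = _ := by ring

end Vale.Agent.Lib.P064r
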