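import Vale.Agent.Lib.P064r.Main2

/-!
The bound `p_c ≤ C (log n)^{3/2+δ} max(p_E, √(log n)/n)`.
-/

namespace Vale.Agent.Lib.P064r

open Finset SimpleGraph Vale.Agent.Lib.P064 Vale.Agent.Lib.P064k
open scoped Classical Nat

set_option linter.unusedSectionVars false
set_option linter.unusedVariables false

/-- The numerics behind the condition on the number of vertices. -/
lemma square_three_le : ∀ x : ℕ, 8 ≤ x → 2 * ((x + 3) * (x + 2)) + 2 ≤ 2 ^ x := by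
  intro x hx
  induction x, hx using Nat.le_induction with
  | base => norm_num
  | succ x hx ih =>
    rw [pow_succ]
    calc 2 * ((x + 1 + 3) * (x + 1 + 2)) + 2 ≤ (2 * ((x + 3) * (x + 2)) + 2) * 2 := by nlinarith
      _ ≤ 2 ^ x * 2 := Nat.mul_le_mul_right 2 ih

/-- Facts on the binary logarithm of the binary logarithm. -/
lemma ell_facts {n : ℕ} (hn : 2 ≤ n) (hell : 256 ≤ Nat.log 2 n + 1) :
    ∃ x : ℕ, 8 ≤ x ∧ Nat.log 2 (2 * (Nat.log 2 n + 1)) + 1 = x + 2 ∧ 2 ^ x ≤ Nat.log 2 n + 1 ∧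
      Nat.log 2 n + 1 < 2 ^ (x + 1) ∧ 2 ^ (Nat.log 2 n) ≤ n := by
  obtain ⟨ell, he⟩ : ∃ ell, ell = Nat.log 2 n + 1 := ⟨_, rfl⟩
  rw [← he] at hell ⊢
  obtain ⟨x, hx⟩ : ∃ x, x = Nat.log 2 ell := ⟨_, rfl⟩
  have hell0 : ell ≠ 0 := by omega
  refine ⟨x, ?_, ?_, ?_, ?_, ?_⟩
  · rw [hx]
    exact Nat.le_log_of_pow_le (by norm_num) (by norm_num; omega)
  · have hl3 : Nat.log 2 (2 * ell) = x + 1 := by
      rw [Nat.mul_comm, ← Nat.succ_eq_add_one, hx]
      exact Nat.log_mul_base (by norm_num) hell0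
    rw [hl3]
  · rw [hx]
    exact Nat.pow_log_le_self 2 hell0
  · rw [hx]
    exact Nat.lt_pow_succ_log_self (by norm_num) ell
  · exact Nat.pow_log_le_self 2 (by omega)

/-- The logarithm is at least half the binary logarithm. -/
lemma half_ell_le_log {n : ℕ} (hn : 2 ≤ n) (hell : 4 ≤ Nat.log 2 n + 1) :
    ((Nat.log 2 n + 1 : ℕ) : ℝ) / 2 ≤ Real.log n := by
  have h1 : 2 ^ (Nat.log 2 n) ≤ n := Nat.pow_log_le_self 2 (by omega)
  have h2 : (2 : ℝ) ^ (Nat.log 2 n) ≤ n := by exact_mod_cast h1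
  have h3 : Real.log ((2 : ℝ) ^ (Nat.log 2 n)) ≤ Real.log n :=
    Real.log_le_log (by positivity) h2
  rw [Real.log_pow] at h3
  have h4 := Real.log_two_gt_d9
  have h5 : (3 : ℝ) ≤ (Nat.log 2 n : ℝ) := by
    have : 3 ≤ Nat.log 2 n := by omega
    exact_mod_cast this
  push_cast
  nlinarith

/-- The numeric condition at `q = log n / n`. -/
lemma big_three {n : ℕ} (hn : 2 ≤ n) (hell : 256 ≤ Nat.log 2 n + 1) :
    (3 * (n : ℝ) * (Real.log n / n)) ^ (2 * (Nat.log 2 (2 * (Nat.log 2 n + 1)) + 1)) < n := by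
  obtain ⟨x, hx8, hm, hx1, hx2, hnl⟩ := ell_facts hn hell
  rw [hm]
  have hn0 : (0 : ℝ) < n := by
    have : 0 < n := by omega
    exact_mod_cast this
  have e1 : 3 * (n : ℝ) * (Real.log n / n) = 3 * Real.log n := by
    field_simp
  rw [e1]
  have hL0 : 0 ≤ Real.log n := Real.log_natCast_nonneg n
  have h1 : 3 * Real.log n ≤ (2 : ℝ) ^ (x + 3) := by
    have h2 := log_le_ell hn
    have h3 : ((Nat.log 2 n + 1 : ℕ) : ℝ) ≤ (2 : ℝ) ^ (x + 1) := by exact_mod_cast hx2.le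
    have h4 : (2 : ℝ) ^ (x + 3) = 4 * (2 : ℝ) ^ (x + 1) := by ring
    have h5 : (0 : ℝ) < (2 : ℝ) ^ (x + 1) := by positivity
    rw [h4]
    linarith
  have hs := square_three_le x hx8
  have h2 : (3 * Real.log n) ^ (2 * (x + 2)) ≤ ((2 : ℝ) ^ (x + 3)) ^ (2 * (x + 2)) :=
    pow_le_pow_left₀ (by positivity) h1 _
  have h3 : ((2 : ℝ) ^ (x + 3)) ^ (2 * (x + 2)) = (2 : ℝ) ^ (2 * ((x + 3) * (x + 2))) := by
    rw [← pow_mul]
    congr 1
    ring
  have h4 : 2 * ((x + 3) * (x + 2)) < Nat.log 2 n := by omega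
  have h5 : (2 : ℝ) ^ (2 * ((x + 3) * (x + 2))) < (2 : ℝ) ^ (Nat.log 2 n) :=
    pow_lt_pow_right₀ (by norm_num) h4
  have h6 : (2 : ℝ) ^ (Nat.log 2 n) ≤ n := by exact_mod_cast hnl
  rw [h3] at h2
  linarith

/-- The parameter `m` is small against the logarithm. -/
lemma m_log_three {n : ℕ} (hn : 2 ≤ n) (hell : 256 ≤ Nat.log 2 n + 1) :
    4 * ((Nat.log 2 (2 * (Nat.log 2 n + 1)) + 1 : ℕ) : ℝ) * Real.log 3 ≤ Real.log n := by
  obtain ⟨x, hx8, hm, hx1, hx2, hnl⟩ := ell_facts hn hell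
  rw [hm]
  have h1 := half_ell_le_log hn (by omega)
  have h3 : Real.log 3 ≤ 6 / 5 := by
    have e1 : Real.log 3 = Real.log (3 / 2) + Real.log 2 := by
      rw [← Real.log_mul (by norm_num) (by norm_num)]
      norm_num
    have h4 : Real.log (3 / 2) ≤ 3 / 2 - 1 := Real.log_le_sub_one_of_pos (by norm_num)
    have h5 := Real.log_two_lt_d9
    linarith
  have h4 : 10 * (x + 2) ≤ 2 ^ x := by
    have := square_three_le x hx8
    have h6 : (x + 3) * (x + 2) = x * (x + 2) + 3 * (x + 2) := by ring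
    have h7 : 8 * (x + 2) ≤ x * (x + 2) := Nat.mul_le_mul_right _ hx8
    omega
  have h5 : (10 : ℝ) * ((x : ℝ) + 2) ≤ ((Nat.log 2 n + 1 : ℕ) : ℝ) := by
    have : 10 * (x + 2) ≤ Nat.log 2 n + 1 := h4.trans hx1
    exact_mod_cast this
  have hx0 : (0 : ℝ) ≤ x := by positivity
  have h6 : 4 * ((x + 2 : ℕ) : ℝ) * Real.log 3 ≤ 4 * ((x + 2 : ℕ) : ℝ) * (6 / 5) :=
    mul_le_mul_of_nonneg_left h3 (by positivity)
  have h7 : ((x + 2 : ℕ) : ℝ) = (x : ℝ) + 2 := by push_cast; ring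
  rw [h7] at h6 ⊢
  linarith

/-- The square of the parameter `m` is at most a small power of the logarithm. -/
lemma m_sq_le {n : ℕ} (hn : 2 ≤ n) (hell : 256 ≤ Nat.log 2 n + 1) {δ : ℝ} (hδ : 0 < δ) :
    (4 * ((Nat.log 2 (2 * (Nat.log 2 n + 1)) + 1 : ℕ) : ℝ)) ^ 2 ≤
      512 * (1 / δ) ^ 2 * (Real.log n) ^ δ := by
  obtain ⟨x, hx8, hm, hx1, hx2, hnl⟩ := ell_facts hn hell
  rw [hm]
  have h1 := half_ell_le_log hn (by omega)
  have hx8R : (8 : ℝ) ≤ x := by exact_mod_cast hx8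
  -- `2 ^ (x - 1) ≤ log n`
  have h2 : (2 : ℝ) ^ ((x : ℝ) - 1) ≤ Real.log n := by
    have h3 : (2 : ℝ) ^ x ≤ ((Nat.log 2 n + 1 : ℕ) : ℝ) := by exact_mod_cast hx1
    have h4 : (2 : ℝ) ^ ((x : ℝ) - 1) = (2 : ℝ) ^ x / 2 := by
      rw [Real.rpow_sub_one (by norm_num), Real.rpow_natCast]
    rw [h4]
    linarith
  have h3 : (2 : ℝ) ^ (((x : ℝ) - 1) * δ) ≤ (Real.log n) ^ δ := by
    rw [Real.rpow_mul (by norm_num)]
    exact Real.rpow_le_rpow (by positivity) h2 hδ.le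
  obtain ⟨y, hy⟩ : ∃ y : ℝ, y = ((x : ℝ) - 1) * δ * Real.log 2 := ⟨_, rfl⟩
  have hy0 : 0 ≤ y := by
    rw [hy]
    have h4 := Real.log_two_gt_d9
    have : 0 ≤ (x : ℝ) - 1 := by linarith
    positivity
  have h4 : (2 : ℝ) ^ (((x : ℝ) - 1) * δ) = Real.exp y := by
    rw [Real.rpow_def_of_pos (by norm_num), hy]
    congr 1
    ring
  rw [h4] at h3
  have h5 : y ^ 2 / 2 ≤ Real.exp y := by
    have h6 := Real.quadratic_le_exp_of_nonneg hy0
    linarith
  have h6 : (x : ℝ) - 1 ≤ 2 * (1 / δ) * y := by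
    rw [hy]
    have h7 := Real.log_two_gt_d9
    have h8 : 1 / 2 ≤ Real.log 2 := by linarith
    have h9 : 0 ≤ (x : ℝ) - 1 := by linarith
    have h10 : (1 / δ) * δ = 1 := by field_simp
    have e1 : 2 * (1 / δ) * (((x : ℝ) - 1) * δ * Real.log 2) =
        ((1 / δ) * δ) * (2 * Real.log 2 * ((x : ℝ) - 1)) := by ring
    rw [e1, h10]
    have h11 : 1 * ((x : ℝ) - 1) ≤ (2 * Real.log 2) * ((x : ℝ) - 1) :=
      mul_le_mul_of_nonneg_right (by linarith) h9
    linarith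
  have h7 : ((x + 2 : ℕ) : ℝ) ≤ 2 * ((x : ℝ) - 1) := by
    push_cast
    linarith
  have h8 : ((x : ℝ) - 1) ^ 2 ≤ 4 * (1 / δ) ^ 2 * y ^ 2 := by
    have h9 : 0 ≤ (x : ℝ) - 1 := by linarith
    calc ((x : ℝ) - 1) ^ 2 ≤ (2 * (1 / δ) * y) ^ 2 := pow_le_pow_left₀ h9 h6 2
      _ = _ := by ring
  have h9 : (4 * ((x + 2 : ℕ) : ℝ)) ^ 2 ≤ 64 * ((x : ℝ) - 1) ^ 2 := by
    have h10 : 0 ≤ ((x + 2 : ℕ) : ℝ) := by positivity
    have h11 : (4 * ((x + 2 : ℕ) : ℝ)) ^ 2 ≤ (4 * (2 * ((x : ℝ) - 1))) ^ 2 :=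
      pow_le_pow_left₀ (by positivity) (by linarith) 2
    calc (4 * ((x + 2 : ℕ) : ℝ)) ^ 2 ≤ (4 * (2 * ((x : ℝ) - 1))) ^ 2 := h11
      _ = _ := by ring
  have h10 : 0 ≤ (1 / δ) ^ 2 := by positivity
  have h11 : y ^ 2 ≤ 2 * (Real.log n) ^ δ := by linarith
  calc (4 * ((x + 2 : ℕ) : ℝ)) ^ 2 ≤ 64 * ((x : ℝ) - 1) ^ 2 := h9
    _ ≤ 64 * (4 * (1 / δ) ^ 2 * y ^ 2) := by linarith
    _ = 256 * (1 / δ) ^ 2 * y ^ 2 := by ring
    _ ≤ 256 * (1 / δ) ^ 2 * (2 * (Real.log n) ^ δ) :=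
        mul_le_mul_of_nonneg_left h11 (by positivity)
    _ = _ := by ring

/-- The bound `p_c ≤ C (log n)^{3/2+δ} max(p_E, √(log n)/n)`. -/
theorem pCrit_three_halves {δ : ℝ} (hδ : 0 < δ) : ∃ C : ℝ, 0 < C ∧
    ∀ (n : ℕ) (V : Type) [Fintype V] (H : SimpleGraph V),
    2 ≤ n → Fintype.card V ≤ n → 1 ≤ numEdges H →
    pCrit n H ≤ C * (Real.log n) ^ ((3 : ℝ) / 2 + δ) *
      max (pExp n H) (Real.sqrt (Real.log n) / n) := by
  obtain ⟨C₀, hC₀, hRF⟩ := pCrit_resonance_free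
  obtain ⟨δ₁, hδ₁⟩ : ∃ δ₁, δ₁ = min δ 1 := ⟨_, rfl⟩
  have hδ₁0 : 0 < δ₁ := by
    rw [hδ₁]
    exact lt_min hδ one_pos
  have hδ₁1 : δ₁ ≤ 1 := by
    rw [hδ₁]
    exact min_le_right _ _
  have hδ₁δ : δ₁ ≤ δ := by
    rw [hδ₁]
    exact min_le_left _ _
  obtain ⟨δ₂, hδ₂⟩ : ∃ δ₂, δ₂ = δ₁ / 2 := ⟨_, rfl⟩
  have hδ₂0 : 0 < δ₂ := by
    rw [hδ₂]
    positivity
  have hδ₂1 : δ₂ ≤ 1 := by
    rw [hδ₂]
    linarith
  have hT := constT_pos
  have hU : (0 : ℝ) < constU := by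
    have := constU_ge
    linarith
  obtain ⟨K₁, hK₁⟩ : ∃ K₁ : ℝ, K₁ = constT * 65536 * (2 : ℝ) ^ ((3 : ℝ) / 2 + δ) := ⟨_, rfl⟩
  obtain ⟨K₂, hK₂⟩ : ∃ K₂ : ℝ, K₂ = 41472 * constU := ⟨_, rfl⟩
  obtain ⟨K₃, hK₃⟩ : ∃ K₃ : ℝ, K₃ = C₀ * (2 + 1 / δ₂) * (512 * (1 / δ₂) ^ 2) * 2 := ⟨_, rfl⟩
  have hK₁0 : 0 < K₁ := by
    rw [hK₁]
    positivity
  have hK₂0 : 0 < K₂ := by
    rw [hK₂]
    positivity
  have hK₃0 : 0 < K₃ := by
    rw [hK₃]
    positivity
  refine ⟨K₁ + K₂ + K₃, by positivity, ?_⟩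
  intro n V _ H hn hV hE
  have hnR : (2 : ℝ) ≤ n := by exact_mod_cast hn
  have hn0 : (0 : ℝ) < n := by linarith
  obtain ⟨hp0, _, _⟩ := pExp_mem (H := H) hV
  obtain ⟨N, hN⟩ : ∃ N, N = Real.log n := ⟨_, rfl⟩
  obtain ⟨p, hp⟩ : ∃ p, p = pExp n H := ⟨_, rfl⟩
  rw [← hp] at hp0 ⊢
  rw [← hN]
  obtain ⟨M, hM⟩ : ∃ M, M = max p (Real.sqrt N / n) := ⟨_, rfl⟩
  rw [← hM]
  have hM1 : p ≤ M := by
    rw [hM]
    exact le_max_left _ _
  have hM2 : Real.sqrt N / n ≤ M := by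
    rw [hM]
    exact le_max_right _ _
  have hM0 : 0 ≤ M := hp0.trans hM1
  have hNhalf : 1 / 2 ≤ N := by
    rw [hN]
    have h1 : Real.log 2 ≤ Real.log n := Real.log_le_log (by norm_num) hnR
    have h2 := Real.log_two_gt_d9
    linarith
  have hN0 : 0 < N := by linarith
  have hpow0 : 0 < N ^ ((3 : ℝ) / 2 + δ) := Real.rpow_pos_of_pos hN0 _
  have hKK : K₁ + K₂ + K₃ = K₁ + K₂ + K₃ := rfl
  by_cases hell : 256 ≤ Nat.log 2 n + 1
  · -- large `n`
    have hN128 : 128 ≤ N := by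
      have h1 := half_ell_le_log hn (by omega)
      have h2 : (256 : ℝ) ≤ ((Nat.log 2 n + 1 : ℕ) : ℝ) := by exact_mod_cast hell
      rw [hN]
      linarith
    have hN1 : 1 ≤ N := by linarith
    have hNp : N ≤ N ^ ((3 : ℝ) / 2 + δ) := by
      have h1 : N ^ (1 : ℝ) ≤ N ^ ((3 : ℝ) / 2 + δ) :=
        Real.rpow_le_rpow_of_exponent_le hN1 (by linarith)
      rwa [Real.rpow_one] at h1
    by_cases hA : 2 * p ≤ N / n
    · -- the density `log n / n`
      have h1 := pCrit_uni hn hV hE (q := N / n) (by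
          rw [← hp]
          have : 0 ≤ N / n := by positivity
          linarith) (by rw [← hN]) (by rw [hN]; exact big_three hn hell)
      rw [← hN] at h1
      refine h1.trans ?_
      obtain ⟨r, hr⟩ : ∃ r, r = Real.sqrt N := ⟨_, rfl⟩
      have hr2 : r * r = N := by
        rw [hr]
        exact Real.mul_self_sqrt hN0.le
      have hr0 : 0 ≤ r := by
        rw [hr]
        positivity
      have hpow : N * r ≤ N ^ ((3 : ℝ) / 2 + δ) := by
        have h3 : N * r = N ^ ((3 : ℝ) / 2) := by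
          rw [hr, Real.sqrt_eq_rpow, ← Real.rpow_one_add' hN0.le (by norm_num)]
          norm_num
        rw [h3]
        exact Real.rpow_le_rpow_of_exponent_le hN1 (by linarith)
      rw [← hr] at hM2
      have e1 : 20736 * constU * (N / n) * N = 20736 * constU * (N * r) * (r / n) := by
        rw [← hr2]
        ring
      rw [e1]
      have h5 : 20736 * constU * (N * r) * (r / n) ≤
          K₂ * N ^ ((3 : ℝ) / 2 + δ) * M := by
        rw [hK₂]
        refine mul_le_mul ?_ hM2 (by positivity) (by positivity)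
        have h6 : 0 ≤ constU * N ^ ((3 : ℝ) / 2 + δ) := by positivity
        have h7 : 20736 * constU * (N * r) ≤ 20736 * constU * N ^ ((3 : ℝ) / 2 + δ) :=
          mul_le_mul_of_nonneg_left hpow (by positivity)
        linarith
      refine h5.trans ?_
      refine mul_le_mul_of_nonneg_right ?_ hM0
      refine mul_le_mul_of_nonneg_right ?_ hpow0.le
      linarith
    · push Not at hA
      have hpq : p ≤ 2 * p := by linarith
      have hq0 : 0 < 2 * p := by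
        have : 0 < N / n := by positivity
        linarith
      have hm : (0 : ℝ) < ((Nat.log 2 (2 * (Nat.log 2 n + 1)) + 1 : ℕ) : ℝ) := by
        have : 0 < Nat.log 2 (2 * (Nat.log 2 n + 1)) + 1 := by omega
        exact_mod_cast this
      by_cases hnum : (3 * (n : ℝ) * (2 * p)) ^ (2 * (Nat.log 2 (2 * (Nat.log 2 n + 1)) + 1)) < n
      · have h1 := pCrit_uni hn hV hE (q := 2 * p) (by rw [← hp]; exact hpq)
            (by rw [← hN]; exact hA.le) hnum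
        rw [← hN] at h1
        refine h1.trans ?_
        have h2 : p * N ≤ M * N ^ ((3 : ℝ) / 2 + δ) := mul_le_mul hM1 hNp hN0.le hM0
        have e1 : 20736 * constU * (2 * p) * N = K₂ * (p * N) := by
          rw [hK₂]
          ring
        have e2 : (K₁ + K₂ + K₃) * N ^ ((3 : ℝ) / 2 + δ) * M =
            (K₁ + K₂ + K₃) * (M * N ^ ((3 : ℝ) / 2 + δ)) := by ring
        rw [e1, e2]
        have h3 : 0 ≤ M * N ^ ((3 : ℝ) / 2 + δ) := by positivity
        exact mul_le_mul (by linarith) h2 (by positivity) (by positivity)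
      · -- the resonance-free range
        push Not at hnum
        obtain ⟨m, hmd⟩ : ∃ m : ℕ, m = Nat.log 2 (2 * (Nat.log 2 n + 1)) + 1 := ⟨_, rfl⟩
        rw [← hmd] at hnum hm
        have hlog3 := m_log_three hn hell
        rw [← hmd, ← hN] at hlog3
        have hsq := m_sq_le hn hell hδ₂0
        rw [← hmd, ← hN] at hsq
        obtain ⟨c, hc⟩ : ∃ c, c = Real.log (1 / (2 * p)) := ⟨_, rfl⟩
        have hcN : Real.log (3 * (n : ℝ) * (2 * p)) = Real.log 3 + N - c := by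
          rw [hc, hN, Real.log_mul (by positivity) (by positivity),
            Real.log_mul (by norm_num) (by positivity), one_div, Real.log_inv]
          ring
        have h3 : 0 < 3 * (n : ℝ) * (2 * p) := by positivity
        have h4 : N ≤ ((2 * m : ℕ) : ℝ) * Real.log (3 * (n : ℝ) * (2 * p)) := by
          rw [← Real.log_pow, hN]
          exact Real.log_le_log hn0 hnum
        rw [hcN] at h4
        obtain ⟨θ', hθ'⟩ : ∃ θ' : ℝ, θ' = 1 / (4 * (m : ℝ)) := ⟨_, rfl⟩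
        have hm1 : (1 : ℝ) ≤ m := by
          have : 1 ≤ m := by omega
          exact_mod_cast this
        have hθ'0 : 0 < θ' := by
          rw [hθ']
          positivity
        have hθ'1 : θ' ≤ 1 / 2 := by
          rw [hθ', div_le_div_iff₀ (by positivity) (by norm_num)]
          linarith
        have hgap : θ' * N ≤ N - c := by
          have h5 : ((2 * m : ℕ) : ℝ) = 2 * (m : ℝ) := by push_cast; ring
          rw [h5] at h4
          have h6 : θ' * N * (4 * (m : ℝ)) = N := by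
            rw [hθ']
            field_simp
          have h7 : (N - c) * (4 * (m : ℝ)) ≥ N := by
            have e7 : (N - c) * (4 * (m : ℝ)) =
                2 * (2 * (m : ℝ) * (Real.log 3 + N - c)) - 4 * (m : ℝ) * Real.log 3 := by ring
            rw [e7]
            linarith
          have h8 : 0 < 4 * (m : ℝ) := by positivity
          have h9 : θ' * N * (4 * (m : ℝ)) ≤ (N - c) * (4 * (m : ℝ)) := by linarith
          exact le_of_mul_le_mul_right h9 h8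
        have h1 := hRF 2 δ₂ θ' le_rfl hδ₂0 hδ₂1 hθ'0 hθ'1 n V H (2 * p) hn hV hE
          (by rw [← hp]) (by
            have h5 : (1 : ℝ) / n ≤ N / n :=
              div_le_div_of_nonneg_right hN1 hn0.le
            linarith) (by
            intro s e h5 h6 h7
            have h8 : s = 1 := by omega
            have h9 : e = 1 := by omega
            subst h8
            subst h9
            rw [← hN, ← hc]
            have h10 : ((1 : ℕ) : ℝ) * N - ((1 : ℕ) : ℝ) * c = N - c := by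
              push_cast
              ring
            rw [h10]
            exact hgap.trans (le_abs_self _))
        rw [← hN] at h1
        refine h1.trans ?_
        have hinv : (1 / θ') ^ 2 = (4 * (m : ℝ)) ^ 2 := by
          rw [hθ']
          congr 1
          field_simp
        rw [hinv]
        have e2 : (1 : ℝ) + 1 / ((2 : ℕ) : ℝ) + δ₂ = (3 : ℝ) / 2 + δ₂ := by
          push_cast
          ring
        rw [e2]
        have h6 : N ^ δ₂ * N ^ ((3 : ℝ) / 2 + δ₂) ≤ N ^ ((3 : ℝ) / 2 + δ) := by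
          rw [← Real.rpow_add hN0]
          refine Real.rpow_le_rpow_of_exponent_le hN1 ?_
          rw [hδ₂]
          linarith
        have h7 : (4 * (m : ℝ)) ^ 2 * N ^ ((3 : ℝ) / 2 + δ₂) ≤
            (512 * (1 / δ₂) ^ 2) * N ^ ((3 : ℝ) / 2 + δ) := by
          calc (4 * (m : ℝ)) ^ 2 * N ^ ((3 : ℝ) / 2 + δ₂)
              ≤ (512 * (1 / δ₂) ^ 2 * N ^ δ₂) * N ^ ((3 : ℝ) / 2 + δ₂) :=
                mul_le_mul_of_nonneg_right hsq (by positivity)
            _ = (512 * (1 / δ₂) ^ 2) * (N ^ δ₂ * N ^ ((3 : ℝ) / 2 + δ₂)) := by ring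
            _ ≤ _ := mul_le_mul_of_nonneg_left h6 (by positivity)
        have e3 : C₀ * (2 + 1 / δ₂) * (4 * (m : ℝ)) ^ 2 * N ^ ((3 : ℝ) / 2 + δ₂) * (2 * p) =
            C₀ * (2 + 1 / δ₂) * ((4 * (m : ℝ)) ^ 2 * N ^ ((3 : ℝ) / 2 + δ₂)) * (2 * p) := by ring
        have hcast : ((2 : ℕ) : ℝ) = 2 := by norm_num
        rw [hcast, e3]
        have h8 : C₀ * (2 + 1 / δ₂) * ((4 * (m : ℝ)) ^ 2 * N ^ ((3 : ℝ) / 2 + δ₂)) * (2 * p) ≤
            C₀ * (2 + 1 / δ₂) * ((512 * (1 / δ₂) ^ 2) * N ^ ((3 : ℝ) / 2 + δ)) * (2 * M) := by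
          refine mul_le_mul ?_ (by linarith) (by positivity) (by positivity)
          exact mul_le_mul_of_nonneg_left h7 (by positivity)
        refine h8.trans ?_
        have e4 : C₀ * (2 + 1 / δ₂) * ((512 * (1 / δ₂) ^ 2) * N ^ ((3 : ℝ) / 2 + δ)) * (2 * M) =
            K₃ * (N ^ ((3 : ℝ) / 2 + δ) * M) := by
          rw [hK₃]
          ring
        have e5 : (K₁ + K₂ + K₃) * N ^ ((3 : ℝ) / 2 + δ) * M =
            (K₁ + K₂ + K₃) * (N ^ ((3 : ℝ) / 2 + δ) * M) := by ring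
        rw [e4, e5]
        exact mul_le_mul_of_nonneg_right (by linarith) (by positivity)
  · -- small `n`: the five thirds bound
    push Not at hell
    have h1 := pCrit_five_thirds hn hV hE
    rw [← hN, ← hp] at h1
    have hN256 : N ≤ 256 := by
      have h3 := log_le_ell hn
      have h5 : ((Nat.log 2 n + 1 : ℕ) : ℝ) ≤ ((256 : ℕ) : ℝ) := Nat.cast_le.mpr hell.le
      have h6 : ((256 : ℕ) : ℝ) = 256 := by norm_num
      rw [hN]
      linarith
    have h2 : N ^ ((5 : ℝ) / 3) ≤ 65536 := by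
      calc N ^ ((5 : ℝ) / 3) ≤ (256 : ℝ) ^ ((5 : ℝ) / 3) :=
            Real.rpow_le_rpow hN0.le hN256 (by norm_num)
        _ ≤ (256 : ℝ) ^ (2 : ℝ) := Real.rpow_le_rpow_of_exponent_le (by norm_num) (by norm_num)
        _ = 65536 := by norm_num
    have h3 : 1 ≤ (2 : ℝ) ^ ((3 : ℝ) / 2 + δ) * N ^ ((3 : ℝ) / 2 + δ) := by
      rw [← Real.mul_rpow (by norm_num) hN0.le]
      exact Real.one_le_rpow (by linarith) (by positivity)
    have h4 : N ^ ((5 : ℝ) / 3) ≤ 65536 * (2 : ℝ) ^ ((3 : ℝ) / 2 + δ) * N ^ ((3 : ℝ) / 2 + δ) := by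
      have e1 : 65536 * (2 : ℝ) ^ ((3 : ℝ) / 2 + δ) * N ^ ((3 : ℝ) / 2 + δ) =
          65536 * ((2 : ℝ) ^ ((3 : ℝ) / 2 + δ) * N ^ ((3 : ℝ) / 2 + δ)) := by ring
      rw [e1]
      linarith
    have h5 : pCrit n H ≤ constT * N ^ ((5 : ℝ) / 3) * p := h1
    refine h5.trans ?_
    have h6 : constT * N ^ ((5 : ℝ) / 3) * p ≤
        constT * (65536 * (2 : ℝ) ^ ((3 : ℝ) / 2 + δ) * N ^ ((3 : ℝ) / 2 + δ)) * M := by
      refine mul_le_mul ?_ hM1 hp0 (by positivity)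
      exact mul_le_mul_of_nonneg_left h4 hT.le
    refine h6.trans ?_
    have e1 : constT * (65536 * (2 : ℝ) ^ ((3 : ℝ) / 2 + δ) * N ^ ((3 : ℝ) / 2 + δ)) * M =
        K₁ * (N ^ ((3 : ℝ) / 2 + δ) * M) := by
      rw [hK₁]
      ring
    have e5 : (K₁ + K₂ + K₃) * N ^ ((3 : ℝ) / 2 + δ) * M =
        (K₁ + K₂ + K₃) * (N ^ ((3 : ℝ) / 2 + δ) * M) := by ring
    rw [e1, e5]
    exact mul_le_mul_of_nonneg_right (by linarith) (by positivity)

end Vale.Agent.Lib.P064r
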