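import Vale.Agent.Lib.P064r.Rigid

/-!
Edge sets of paths and closed paths.
-/

namespace Vale.Agent.Lib.P064r

open Finset SimpleGraph Vale.Agent.Lib.P064 Vale.Agent.Lib.P064k
open scoped Classical Nat

set_option linter.unusedSectionVars false
set_option linter.unusedVariables false

variable {U : Type*} [Fintype U]

/-- The edges along a sequence of vertices. -/
noncomputable def pEdges (p : ℕ → U) (l : ℕ) : Finset (Sym2 U) :=
  (Finset.range l).image (fun i => s(p i, p (i + 1)))

lemma mem_pEdges {p : ℕ → U} {l : ℕ} {e : Sym2 U} :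
    e ∈ pEdges p l ↔ ∃ i, i < l ∧ s(p i, p (i + 1)) = e := by
  simp [pEdges]

lemma card_pEdges_le (p : ℕ → U) (l : ℕ) : (pEdges p l).card ≤ l := by
  unfold pEdges
  exact Finset.card_image_le.trans (by simp)

lemma mem_vtx_pEdges {p : ℕ → U} {l : ℕ} (hl : 1 ≤ l) {v : U} :
    v ∈ vtx (pEdges p l) ↔ ∃ i, i ≤ l ∧ p i = v := by
  constructor
  · intro hv
    obtain ⟨e, he, hve⟩ := mem_vtx.mp hv
    obtain ⟨i, hi, rfl⟩ := mem_pEdges.mp he
    rcases Sym2.mem_iff.mp hve with h | h
    · exact ⟨i, by omega, h.symm⟩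
    · exact ⟨i + 1, by omega, h.symm⟩
  · rintro ⟨i, hi, rfl⟩
    by_cases h : i < l
    · exact mem_vtx.mpr ⟨_, mem_pEdges.mpr ⟨i, h, rfl⟩, Sym2.mem_mk_left _ _⟩
    · have h1 : i = (l - 1) + 1 := by omega
      refine mem_vtx.mpr ⟨_, mem_pEdges.mpr ⟨l - 1, by omega, rfl⟩, ?_⟩
      rw [← h1]
      exact Sym2.mem_mk_right _ _

lemma cross_pEdges {p : ℕ → U} {l : ℕ} (hl : 1 ≤ l) (X : Finset U)
    (h1 : ∃ v ∈ vtx (pEdges p l), v ∈ X) (h2 : ∃ v ∈ vtx (pEdges p l), v ∉ X) :
    ∃ e ∈ pEdges p l, (∃ u ∈ e, u ∈ X) ∧ (∃ w ∈ e, w ∉ X) := by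
  by_contra hcon
  push Not at hcon
  have hstep : ∀ i, i < l → (p i ∈ X ↔ p (i + 1) ∈ X) := by
    intro i hi
    have he : s(p i, p (i + 1)) ∈ pEdges p l := mem_pEdges.mpr ⟨i, hi, rfl⟩
    constructor
    · intro h
      exact hcon _ he ⟨_, Sym2.mem_mk_left _ _, h⟩ _ (Sym2.mem_mk_right _ _)
    · intro h
      exact hcon _ he ⟨_, Sym2.mem_mk_right _ _, h⟩ _ (Sym2.mem_mk_left _ _)
  have hall : ∀ i, i ≤ l → (p 0 ∈ X ↔ p i ∈ X) := by
    intro i
    induction i with
    | zero => simp
    | succ i ih =>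
      intro hi
      rw [ih (by omega)]
      exact hstep i (by omega)
  obtain ⟨v₁, hv₁, hv₁X⟩ := h1
  obtain ⟨v₂, hv₂, hv₂X⟩ := h2
  obtain ⟨i₁, hi₁, rfl⟩ := (mem_vtx_pEdges hl).mp hv₁
  obtain ⟨i₂, hi₂, rfl⟩ := (mem_vtx_pEdges hl).mp hv₂
  exact hv₂X ((hall i₂ hi₂).mp ((hall i₁ hi₁).mpr hv₁X))

/-- The parity of the degrees along a sequence. -/
lemma parity_pEdges {p : ℕ → U} : ∀ (l : ℕ), (∀ i, i < l → p i ≠ p (i + 1)) →
    (∀ i j, i < l → j < i → s(p i, p (i + 1)) ≠ s(p j, p (j + 1))) → ∀ v,
    Even ((at' (pEdges p l) v).card + ((if v = p 0 then 1 else 0) + (if v = p l then 1 else 0))) := by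
  intro l
  induction l with
  | zero =>
    intro _ _ v
    have h0 : at' (pEdges p 0) v = ∅ := by
      ext e
      simp [at', pEdges]
    rw [h0, Finset.card_empty, zero_add]
    exact ⟨_, rfl⟩
  | succ l ih =>
    intro h1 h2 v
    have hih := ih (fun i hi => h1 i (by omega)) (fun i j hi hj => h2 i j (by omega) hj) v
    have hnew : s(p l, p (l + 1)) ∉ pEdges p l := by
      intro h
      obtain ⟨j, hj, hje⟩ := mem_pEdges.mp h
      exact h2 l j (by omega) hj hje.symm
    have hins : pEdges p (l + 1) = insert s(p l, p (l + 1)) (pEdges p l) := by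
      unfold pEdges
      rw [Finset.range_add_one, Finset.image_insert]
    have hne := h1 l (by omega)
    have hat : (at' (pEdges p (l + 1)) v).card = (at' (pEdges p l) v).card +
        ((if v = p l then 1 else 0) + (if v = p (l + 1) then 1 else 0)) := by
      by_cases hv : v ∈ s(p l, p (l + 1))
      · have e1 : at' (pEdges p (l + 1)) v = insert s(p l, p (l + 1)) (at' (pEdges p l) v) := by
          ext e
          simp only [mem_at', hins, Finset.mem_insert]
          constructor
          · rintro ⟨h3 | h3, h4⟩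
            · exact Or.inl h3
            · exact Or.inr ⟨h3, h4⟩
          · rintro (h3 | ⟨h3, h4⟩)
            · rw [h3]
              exact ⟨Or.inl rfl, hv⟩
            · exact ⟨Or.inr h3, h4⟩
        rw [e1, Finset.card_insert_of_notMem (fun h => hnew (mem_at'.mp h).1)]
        rcases Sym2.mem_iff.mp hv with h3 | h3
        · have : v ≠ p (l + 1) := fun h => hne (h3.symm.trans h)
          rw [if_pos h3, if_neg this]
        · have : v ≠ p l := fun h => hne (h.symm.trans h3)
          rw [if_neg this, if_pos h3]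
      · have e1 : at' (pEdges p (l + 1)) v = at' (pEdges p l) v := by
          ext e
          simp only [mem_at', hins, Finset.mem_insert]
          constructor
          · rintro ⟨h3 | h3, h4⟩
            · exact absurd (h3 ▸ h4) hv
            · exact ⟨h3, h4⟩
          · rintro ⟨h3, h4⟩
            exact ⟨Or.inr h3, h4⟩
        have h3 : v ≠ p l := fun h => hv (h ▸ Sym2.mem_mk_left _ _)
        have h4 : v ≠ p (l + 1) := fun h => hv (h ▸ Sym2.mem_mk_right _ _)
        rw [e1, if_neg h3, if_neg h4]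
        rfl
    rw [hat]
    obtain ⟨t, ht⟩ := hih
    refine ⟨t + (if v = p (l + 1) then 1 else 0), ?_⟩
    omega

/-- The edge set of an injective path. -/
lemma path_nd {p : ℕ → U} {l : ℕ} (hinj : ∀ i j, i ≤ l → j ≤ l → p i = p j → i = j) :
    ∀ i, i < l → p i ≠ p (i + 1) := by
  intro i hi h
  have := hinj i (i + 1) (by omega) (by omega) h
  omega

lemma path_ed {p : ℕ → U} {l : ℕ} (hinj : ∀ i j, i ≤ l → j ≤ l → p i = p j → i = j) :
    ∀ i j, i < l → j < i → s(p i, p (i + 1)) ≠ s(p j, p (j + 1)) := by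
  intro i j hi hj h
  rcases Sym2.eq_iff.mp h with ⟨h1, _⟩ | ⟨h1, h2⟩
  · have := hinj i j (by omega) (by omega) h1
    omega
  · have h3 := hinj i (j + 1) (by omega) (by omega) h1
    have h4 := hinj (i + 1) j (by omega) (by omega) h2
    omega

/-- An injective path is admissible for the family through its first vertex. -/
lemma adm_path {p : ℕ → U} {l : ℕ} (hl : 1 ≤ l) (hinj : ∀ i j, i ≤ l → j ≤ l → p i = p j → i = j) :
    Adm (p 0) (fun v => (if v = p 0 then 1 else 0) + (if v = p l then 1 else 0)) l (pEdges p l) where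
  nd := by
    intro e he
    obtain ⟨i, hi, rfl⟩ := mem_pEdges.mp he
    simpa using path_nd hinj i hi
  card := card_pEdges_le p l
  par := parity_pEdges l (path_nd hinj) (path_ed hinj)
  cross := cross_pEdges hl
  root := (mem_vtx_pEdges hl).mpr ⟨0, by omega, rfl⟩

/-- Two paths with the same first vertex and the same edge set coincide. -/
lemma path_unique {p p' : ℕ → U} {l : ℕ} (hinj : ∀ i j, i ≤ l → j ≤ l → p i = p j → i = j)
    (hinj' : ∀ i j, i ≤ l → j ≤ l → p' i = p' j → i = j) (h0 : p 0 = p' 0)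
    (hE : pEdges p l = pEdges p' l) : ∀ i, i ≤ l → p i = p' i := by
  have key : ∀ i, i ≤ l → ∀ j, j ≤ i → p j = p' j := by
    intro i
    induction i with
    | zero =>
      intro _ j hj
      have : j = 0 := by omega
      rw [this, h0]
    | succ i ih =>
      intro hi j hj
      by_cases hji : j ≤ i
      · exact ih (by omega) j hji
      have hj' : j = i + 1 := by omega
      subst hj'
      have hprev := ih (by omega)
      have he : s(p i, p (i + 1)) ∈ pEdges p' l := by
        rw [← hE]
        exact mem_pEdges.mpr ⟨i, by omega, rfl⟩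
      obtain ⟨m, hm, hme⟩ := mem_pEdges.mp he
      rcases Sym2.eq_iff.mp hme with ⟨h1, h2⟩ | ⟨h1, h2⟩
      · have h3 : m = i := by
          refine hinj' m i (by omega) (by omega) ?_
          rw [h1, hprev i le_rfl]
        rw [h3] at h2
        exact h2.symm
      · have h3 : m + 1 = i := by
          refine hinj' (m + 1) i (by omega) (by omega) ?_
          rw [h2, hprev i le_rfl]
        have h4 : p (i + 1) = p m := by
          rw [← h1]
          exact (hprev m (by omega)).symm
        have := hinj (i + 1) m (by omega) (by omega) h4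
        omega
  intro i hi
  exact key i hi i le_rfl

/-- A closed path. -/
structure ClosedP (y : ℕ → U) (k : ℕ) : Prop where
  three : 3 ≤ k
  inj : ∀ i j, i < k → j < k → y i = y j → i = j
  close : y k = y 0

lemma ClosedP.comp {y : ℕ → U} {k : ℕ} (h : ClosedP y k) {U' : Type*} {g : U → U'}
    (hg : Function.Injective g) : ClosedP (fun i => g (y i)) k :=
  ⟨h.three, fun i j hi hj hij => h.inj i j hi hj (hg hij), congrArg g h.close⟩

lemma ClosedP.nd {y : ℕ → U} {k : ℕ} (h : ClosedP y k) : ∀ i, i < k → y i ≠ y (i + 1) := by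
  intro i hi he
  have hk := h.three
  by_cases h1 : i + 1 < k
  · have := h.inj i (i + 1) hi h1 he
    omega
  · have h2 : i + 1 = k := by omega
    rw [h2, h.close] at he
    have := h.inj i 0 hi (by omega) he
    omega

lemma ClosedP.ed {y : ℕ → U} {k : ℕ} (h : ClosedP y k) :
    ∀ i j, i < k → j < i → s(y i, y (i + 1)) ≠ s(y j, y (j + 1)) := by
  intro i j hi hj he
  have hk := h.three
  rcases Sym2.eq_iff.mp he with ⟨h1, _⟩ | ⟨h1, h2⟩
  · have := h.inj i j hi (by omega) h1
    omega
  · have h3 : j + 1 < k := by omega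
    have h4 := h.inj i (j + 1) hi h3 h1
    subst h4
    by_cases h5 : j + 1 + 1 < k
    · have := h.inj (j + 1 + 1) j h5 (by omega) h2
      omega
    · have h6 : j + 1 + 1 = k := by omega
      rw [h6, h.close] at h2
      have := h.inj 0 j (by omega) (by omega) h2
      omega

lemma ClosedP.card {y : ℕ → U} {k : ℕ} (h : ClosedP y k) : (pEdges y k).card = k := by
  unfold pEdges
  rw [Finset.card_image_of_injOn, Finset.card_range]
  intro i hi j hj hij
  simp only [Finset.coe_range, Set.mem_Iio] at hi hj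
  by_contra hne
  rcases lt_or_gt_of_ne hne with hl | hl
  · exact h.ed j i hj hl hij.symm
  · exact h.ed i j hi hl hij

lemma ClosedP.mem {y : ℕ → U} {k : ℕ} (h : ClosedP y k) {v : U} :
    v ∈ vtx (pEdges y k) ↔ ∃ i, i < k ∧ y i = v := by
  have hk := h.three
  rw [mem_vtx_pEdges (by omega)]
  constructor
  · rintro ⟨i, hi, rfl⟩
    by_cases h1 : i < k
    · exact ⟨i, h1, rfl⟩
    · have h2 : i = k := by omega
      exact ⟨0, by omega, by rw [h2, h.close]⟩
  · rintro ⟨i, hi, rfl⟩
    exact ⟨i, hi.le, rfl⟩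

lemma ClosedP.vtxCard {y : ℕ → U} {k : ℕ} (h : ClosedP y k) : (vtx (pEdges y k)).card = k := by
  have e1 : vtx (pEdges y k) = (Finset.range k).image y := by
    ext v
    rw [h.mem]
    simp
  rw [e1, Finset.card_image_of_injOn, Finset.card_range]
  intro i hi j hj hij
  simp only [Finset.coe_range, Set.mem_Iio] at hi hj
  exact h.inj i j hi hj hij

lemma ClosedP.even {y : ℕ → U} {k : ℕ} (h : ClosedP y k) (v : U) :
    Even (at' (pEdges y k) v).card := by
  have h1 := parity_pEdges k h.nd h.ed v
  rw [h.close] at h1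
  obtain ⟨t, ht⟩ := h1
  refine ⟨t - (if v = y 0 then 1 else 0), ?_⟩
  omega

/-- A closed path is of cycle type. -/
theorem ClosedP.isCyc {y : ℕ → U} {k : ℕ} (h : ClosedP y k) : IsCyc (pEdges y k) where
  nd := by
    intro e he
    obtain ⟨i, hi, rfl⟩ := mem_pEdges.mp he
    simpa using h.nd i hi
  isM := by
    intro v hv
    obtain ⟨e, he, hve⟩ := mem_vtx.mp hv
    have hpos : 0 < (at' (pEdges y k) v).card := Finset.card_pos.mpr ⟨e, mem_at'.mpr ⟨he, hve⟩⟩
    obtain ⟨t, ht⟩ := h.even v
    omega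
  ne := by
    have hk := h.three
    exact ⟨_, mem_pEdges.mpr ⟨0, by omega, rfl⟩⟩
  card := by rw [h.vtxCard, h.card]
  cross := by
    have hk := h.three
    exact cross_pEdges (by omega)

/-- A closed path through a vertex is admissible for the family through that vertex. -/
lemma ClosedP.adm {y : ℕ → U} {k : ℕ} (h : ClosedP y k) {x : U} (hx : x ∈ vtx (pEdges y k)) :
    Adm x (fun _ => 0) k (pEdges y k) where
  nd := h.isCyc.nd
  card := card_pEdges_le y k
  par := fun v => by simpa using h.even v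
  cross := h.isCyc.cross
  root := hx

end Vale.Agent.Lib.P064r
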