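import Vale.Agent.Lib.P064k.Cycle

/-!
Rigidity: few even edge sets with prescribed odd vertices through a common vertex, when the expected
degree is a small power of the number of vertices.
-/

namespace Vale.Agent.Lib.P064r

open Finset SimpleGraph Vale.Agent.Lib.P064 Vale.Agent.Lib.P064k
open scoped Classical Nat

set_option linter.unusedSectionVars false
set_option linter.unusedVariables false

variable {U : Type*} [Fintype U]

/-- The properties of the members of a rigid family. -/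
structure Adm (x : U) (χ : U → ℕ) (l : ℕ) (B : Finset (Sym2 U)) : Prop where
  nd : NoDiag B
  card : B.card ≤ l
  par : ∀ v, Even ((at' B v).card + χ v)
  cross : ∀ X : Finset U, (∃ v ∈ vtx B, v ∈ X) → (∃ v ∈ vtx B, v ∉ X) →
    ∃ e ∈ B, (∃ u ∈ e, u ∈ X) ∧ (∃ w ∈ e, w ∉ X)
  root : x ∈ vtx B

/-- Adding a member of the family raises the excess. -/
lemma exc_step {A : Finset U} {x : U} {χ : U → ℕ} {l : ℕ} (hx : x ∈ A) (hχ : ∀ v, v ∉ A → χ v = 0)
    {B W : Finset (Sym2 U)} (hB : Adm x χ l B) (hnot : ¬ B ⊆ W) :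
    (vtx (W ∪ B) ∪ A).card + W.card + 1 ≤ (W ∪ B).card + (vtx W ∪ A).card := by
  obtain ⟨S, hS⟩ : ∃ S, S = vtx W ∪ A := ⟨_, rfl⟩
  obtain ⟨Y, hY⟩ : ∃ Y, Y = vtx B \ S := ⟨_, rfl⟩
  obtain ⟨D, hD⟩ : ∃ D, D = B \ W := ⟨_, rfl⟩
  have hv : vtx (W ∪ B) ∪ A = S ∪ Y := by
    ext v
    simp only [Finset.mem_union, hS, hY, Finset.mem_sdiff]
    constructor
    · rintro (h | h)
      · obtain ⟨e, he, hve⟩ := mem_vtx.mp h
        rcases Finset.mem_union.mp he with h1 | h1
        · exact Or.inl (Or.inl (mem_vtx.mpr ⟨e, h1, hve⟩))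
        · by_cases h2 : v ∈ vtx W ∨ v ∈ A
          · exact Or.inl h2
          · exact Or.inr ⟨mem_vtx.mpr ⟨e, h1, hve⟩, fun h3 => h2 (by simpa using h3)⟩
      · exact Or.inl (Or.inr h)
    · rintro (h | h)
      · rcases h with h | h
        · exact Or.inl (vtx_mono Finset.subset_union_left h)
        · exact Or.inr h
      · exact Or.inl (vtx_mono Finset.subset_union_right h.1)
  have hvc : (vtx (W ∪ B) ∪ A).card = S.card + Y.card := by
    rw [hv, hY, Finset.card_union_of_disjoint Finset.disjoint_sdiff]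
  have hec : (W ∪ B).card = W.card + D.card := by
    rw [hD, ← Finset.union_sdiff_self_eq_union, Finset.card_union_of_disjoint Finset.disjoint_sdiff]
  rw [hvc, hec, ← hS]
  have hDne : D.Nonempty := by
    rw [hD, Finset.sdiff_nonempty]
    exact hnot
  have hD1 : 1 ≤ D.card := Finset.card_pos.mpr hDne
  suffices Y.card + 1 ≤ D.card by omega
  by_cases hYe : Y.Nonempty
  · obtain ⟨y₀, hy₀⟩ := hYe
    have hy₀' := hY ▸ hy₀
    have hxS : x ∈ S := by
      rw [hS]
      exact Finset.mem_union_right _ hx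
    obtain ⟨e, he, ⟨y, hy, hyY⟩, ⟨z, hz, hzY⟩⟩ := hB.cross Y
      ⟨y₀, (Finset.mem_sdiff.mp hy₀').1, hy₀⟩
      ⟨x, hB.root, fun h => (Finset.mem_sdiff.mp (hY ▸ h)).2 hxS⟩
    have hoff : ∀ a ∈ Y, ∀ e' ∈ B, a ∈ e' → e' ∈ D := by
      intro a ha e' he' hae'
      rw [hD]
      refine Finset.mem_sdiff.mpr ⟨he', fun h => ?_⟩
      have h1 := (Finset.mem_sdiff.mp (hY ▸ ha)).2
      apply h1
      rw [hS]
      exact Finset.mem_union_left _ (mem_vtx.mpr ⟨e', h, hae'⟩)
    have heD : e ∈ D := hoff y hyY e he hy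
    have h1 : ∑ a ∈ Y, (at' D a).card = ∑ e' ∈ D, (Y.filter (fun a => a ∈ e')).card := by
      simp only [at']
      exact Finset.sum_card_bipartiteAbove_eq_sum_card_bipartiteBelow _
    have h2 : ∑ a ∈ Y, 2 ≤ ∑ a ∈ Y, (at' D a).card := by
      refine Finset.sum_le_sum fun a ha => ?_
      have ha' := Finset.mem_sdiff.mp (hY ▸ ha)
      have haA : a ∉ A := fun h => ha'.2 (by rw [hS]; exact Finset.mem_union_right _ h)
      have hev := hB.par a
      rw [hχ a haA, add_zero] at hev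
      obtain ⟨e', he', hae'⟩ := mem_vtx.mp ha'.1
      have hpos : 0 < (at' B a).card := Finset.card_pos.mpr ⟨e', mem_at'.mpr ⟨he', hae'⟩⟩
      have h3 : 2 ≤ (at' B a).card := by
        obtain ⟨t, ht⟩ := hev
        omega
      refine h3.trans (Finset.card_le_card ?_)
      intro e'' he''
      rcases mem_at'.mp he'' with ⟨h4, h5⟩
      exact mem_at'.mpr ⟨hoff a ha e'' h4 h5, h5⟩
    rw [Finset.sum_const, smul_eq_mul] at h2
    have h3 : ∀ e' : Sym2 U, (Y.filter (fun a => a ∈ e')).card ≤ 2 := by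
      intro e'
      refine le_trans (Finset.card_le_card ?_) (pair_card_le e')
      intro a ha
      exact Finset.mem_filter.mpr ⟨Finset.mem_univ _, (Finset.mem_filter.mp ha).2⟩
    have h4 : (Y.filter (fun a => a ∈ e)).card ≤ 1 := by
      have hyz : y ≠ z := fun h => hzY (h ▸ hyY)
      have he' : e = s(y, z) := (Sym2.mem_and_mem_iff hyz).mp ⟨hy, hz⟩
      refine Finset.card_le_one.mpr ?_
      intro a ha b hb
      have ha' := Finset.mem_filter.mp ha
      have hb' := Finset.mem_filter.mp hb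
      rw [he', Sym2.mem_iff] at ha' hb'
      rcases ha'.2 with rfl | rfl
      · rcases hb'.2 with rfl | rfl
        · rfl
        · exact absurd hb'.1 hzY
      · exact absurd ha'.1 hzY
    have h5 : ∑ e' ∈ D, (Y.filter (fun a => a ∈ e')).card ≤ 2 * D.card - 1 := by
      rw [← Finset.add_sum_erase D _ heD]
      have h6 : ∑ e' ∈ D.erase e, (Y.filter (fun a => a ∈ e')).card ≤ (D.erase e).card * 2 := by
        rw [← smul_eq_mul, ← Finset.sum_const]
        exact Finset.sum_le_sum fun e' _ => h3 e'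
      rw [Finset.card_erase_of_mem heD] at h6
      omega
    omega
  · rw [Finset.not_nonempty_iff_eq_empty] at hYe
    rw [hYe, Finset.card_empty]
    omega

/-- A set of pairs with excess `s` has at least `(l+1) s` pairs. -/
lemma exc_bound {E : Finset (Sym2 U)} {n l : ℕ} {q : ℝ} (hn : 0 < n) (hq : 0 < q)
    (hE : ∀ W ⊆ E, 1 ≤ (n : ℝ) ^ (vtx W).card * q ^ W.card) (ha : 2 ≤ (n : ℝ) * q)
    (hal : ((n : ℝ) * q) ^ (l + 1) ≤ n) {W : Finset (Sym2 U)} (hW : W ⊆ E) {s : ℕ}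
    (hs : (vtx W).card + s ≤ W.card) : (l + 1) * s ≤ W.card := by
  obtain ⟨x, hx⟩ : ∃ x, W.card = (vtx W).card + x := ⟨W.card - (vtx W).card, by omega⟩
  have hsx : s ≤ x := by omega
  have hn1 : (1 : ℝ) ≤ n := by exact_mod_cast hn
  have h1 := hE W hW
  have h2 : (n : ℝ) ^ x ≤ ((n : ℝ) * q) ^ W.card := by
    have e1 : ((n : ℝ) * q) ^ W.card = (n : ℝ) ^ x * ((n : ℝ) ^ (vtx W).card * q ^ W.card) := by
      rw [mul_pow, ← mul_assoc, ← pow_add]
      congr 2
      omega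
    rw [e1]
    calc (n : ℝ) ^ x = (n : ℝ) ^ x * 1 := (mul_one _).symm
      _ ≤ _ := mul_le_mul_of_nonneg_left h1 (by positivity)
  have h3 : ((n : ℝ) * q) ^ ((l + 1) * s) ≤ ((n : ℝ) * q) ^ W.card := by
    rw [pow_mul]
    calc (((n : ℝ) * q) ^ (l + 1)) ^ s ≤ (n : ℝ) ^ s := pow_le_pow_left₀ (by positivity) hal s
      _ ≤ (n : ℝ) ^ x := pow_le_pow_right₀ hn1 hsx
      _ ≤ _ := h2
  have ha1 : (1 : ℝ) < (n : ℝ) * q := by linarith
  exact (pow_le_pow_iff_right₀ ha1).mp h3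

/-- All members of the family lie in a set of controlled size. -/
lemma exists_hull {A : Finset U} {x : U} {χ : U → ℕ} {l n : ℕ} {q : ℝ} {E : Finset (Sym2 U)}
    (hn : 0 < n) (hq : 0 < q)
    (hE : ∀ W ⊆ E, 1 ≤ (n : ℝ) ^ (vtx W).card * q ^ W.card) (ha : 2 ≤ (n : ℝ) * q)
    (hal : ((n : ℝ) * q) ^ (l + 1) ≤ n) (hx : x ∈ A) (hχ : ∀ v, v ∉ A → χ v = 0)
    (BB : Finset (Finset (Sym2 U))) (hBB : ∀ B ∈ BB, B ⊆ E ∧ Adm x χ l B) :
    ∃ W, W ⊆ E ∧ (∀ B ∈ BB, B ⊆ W) ∧ W.card ≤ A.card * (l + 1) * l := by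
  have hub : ∀ (t : ℕ) (W : Finset (Sym2 U)), W ⊆ E → W.card ≤ t * l →
      (vtx W ∪ A).card + t ≤ W.card + A.card → t ≤ A.card * (l + 1) := by
    intro t W hW h1 h2
    by_contra hcon
    push Not at hcon
    have h3 : A.card ≤ t := by
      have : A.card ≤ A.card * (l + 1) := Nat.le_mul_of_pos_right _ (by omega)
      omega
    obtain ⟨s, hs⟩ : ∃ s, t = A.card + s := ⟨t - A.card, by omega⟩
    have h4 : (vtx W).card ≤ (vtx W ∪ A).card := Finset.card_le_card Finset.subset_union_left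
    have h5 := exc_bound (s := s) hn hq hE ha hal hW (by omega)
    have h6 : (l + 1) * s ≤ (A.card + s) * l := by
      rw [hs] at h1
      omega
    have h7 : s ≤ A.card * l := by nlinarith
    have h8 : t ≤ A.card * (l + 1) := by
      rw [hs, Nat.mul_add]
      omega
    omega
  have key : ∀ (d t : ℕ) (W : Finset (Sym2 U)), t + d = A.card * (l + 1) + 1 → W ⊆ E →
      W.card ≤ t * l → (vtx W ∪ A).card + t ≤ W.card + A.card →
      ∃ W', W' ⊆ E ∧ (∀ B ∈ BB, B ⊆ W') ∧ W'.card ≤ A.card * (l + 1) * l := by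
    intro d
    induction d with
    | zero =>
      intro t W ht hW h1 h2
      have := hub t W hW h1 h2
      omega
    | succ d ih =>
      intro t W ht hW h1 h2
      by_cases hall : ∀ B ∈ BB, B ⊆ W
      · refine ⟨W, hW, hall, h1.trans ?_⟩
        have := hub t W hW h1 h2
        exact Nat.mul_le_mul_right _ this
      · push Not at hall
        obtain ⟨B, hB, hnot⟩ := hall
        obtain ⟨hBE, hBa⟩ := hBB B hB
        refine ih (t + 1) (W ∪ B) (by omega) (Finset.union_subset hW hBE) ?_ ?_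
        · have h3 := Finset.card_union_le W B
          have h4 := hBa.card
          rw [Nat.add_mul, one_mul]
          omega
        · have h3 := exc_step hx hχ hBa hnot
          omega
  refine key (A.card * (l + 1) + 1) 0 ∅ (by omega) (Finset.empty_subset _) (by simp) ?_
  simp [vtx]

/-- The symmetric difference of two members of the family. -/
lemma isM_symm {χ : U → ℕ} {B B' : Finset (Sym2 U)} (h1 : ∀ v, Even ((at' B v).card + χ v))
    (h2 : ∀ v, Even ((at' B' v).card + χ v)) : IsM ((B \ B') ∪ (B' \ B)) := by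
  intro v hv
  obtain ⟨e, he, hve⟩ := mem_vtx.mp hv
  have hpos : 0 < (at' ((B \ B') ∪ (B' \ B)) v).card :=
    Finset.card_pos.mpr ⟨e, mem_at'.mpr ⟨he, hve⟩⟩
  have hev : Even (at' ((B \ B') ∪ (B' \ B)) v).card := by
    have e1 : at' ((B \ B') ∪ (B' \ B)) v = (at' B v \ at' B' v) ∪ (at' B' v \ at' B v) := by
      ext e'
      simp only [mem_at', Finset.mem_union, Finset.mem_sdiff]
      tauto
    have e2 : (at' ((B \ B') ∪ (B' \ B)) v).card + 2 * (at' B v ∩ at' B' v).card =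
        (at' B v).card + (at' B' v).card := by
      rw [e1, Finset.card_union_of_disjoint]
      · have h3 := Finset.card_sdiff_add_card_inter (at' B v) (at' B' v)
        have h4 := Finset.card_sdiff_add_card_inter (at' B' v) (at' B v)
        rw [Finset.inter_comm] at h4
        omega
      · refine Finset.disjoint_left.mpr fun e' h3 h4 => ?_
        exact (Finset.mem_sdiff.mp h3).2 (Finset.mem_sdiff.mp h4).1
    obtain ⟨t₁, ht₁⟩ := h1 v
    obtain ⟨t₂, ht₂⟩ := h2 v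
    exact ⟨(t₁ + t₂) - χ v - (at' B v ∩ at' B' v).card, by omega⟩
  obtain ⟨t, ht⟩ := hev
  omega

/-- The main bound on a rigid family. -/
theorem rigid {A : Finset U} {x : U} {χ : U → ℕ} {l n : ℕ} {q : ℝ} {E : Finset (Sym2 U)}
    (hn : 0 < n) (hq : 0 < q)
    (hE : ∀ W ⊆ E, 1 ≤ (n : ℝ) ^ (vtx W).card * q ^ W.card) (ha : 2 ≤ (n : ℝ) * q)
    (hal : ((n : ℝ) * q) ^ (l + 1) ≤ n) (hx : x ∈ A) (hχ : ∀ v, v ∉ A → χ v = 0)
    (BB : Finset (Finset (Sym2 U))) (hBB : ∀ B ∈ BB, B ⊆ E ∧ Adm x χ l B) :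
    BB.card ≤ 2 ^ (A.card * l + 1) := by
  obtain ⟨W, hWE, hBW, hWc⟩ := exists_hull hn hq hE ha hal hx hχ BB hBB
  by_cases hne : BB.Nonempty
  swap
  · rw [Finset.not_nonempty_iff_eq_empty] at hne
    rw [hne, Finset.card_empty]
    exact Nat.zero_le _
  obtain ⟨Ω, hΩ⟩ : ∃ Ω, Ω = BB.biUnion id := ⟨_, rfl⟩
  have hΩW : Ω ⊆ W := by
    rw [hΩ]
    exact Finset.biUnion_subset.mpr hBW
  have hBΩ : ∀ B ∈ BB, B ⊆ Ω := by
    intro B hB e he
    rw [hΩ]
    exact Finset.mem_biUnion.mpr ⟨B, hB, he⟩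
  obtain ⟨B₀, hB₀⟩ := hne
  have hxΩ : x ∈ vtx Ω := vtx_mono (hBΩ B₀ hB₀) (hBB B₀ hB₀).2.root
  -- connectivity
  have hconn : (cycG Ω).Connected := by
    have hreach : ∀ u (hu : u ∈ vtx Ω), (cycG Ω).Reachable ⟨x, hxΩ⟩ ⟨u, hu⟩ := by
      intro u hu
      by_contra hcon
      obtain ⟨Xr, hXr⟩ : ∃ Xr : Finset U, Xr = Finset.univ.filter
        (fun v => ∃ h : v ∈ vtx Ω, (cycG Ω).Reachable ⟨x, hxΩ⟩ ⟨v, h⟩) := ⟨_, rfl⟩
      have hmem : ∀ v, v ∈ Xr ↔ ∃ h : v ∈ vtx Ω, (cycG Ω).Reachable ⟨x, hxΩ⟩ ⟨v, h⟩ := by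
        intro v
        rw [hXr]
        simp
      obtain ⟨e₀, he₀, hue₀⟩ := mem_vtx.mp hu
      rw [hΩ] at he₀
      obtain ⟨B, hB, he₀B⟩ := Finset.mem_biUnion.mp he₀
      have hB' := (hBB B hB).2
      obtain ⟨e, he, ⟨u', hu', hu'X⟩, ⟨w, hw, hwX⟩⟩ := hB'.cross Xr
        ⟨x, hB'.root, (hmem x).mpr ⟨hxΩ, SimpleGraph.Reachable.refl _⟩⟩
        ⟨u, mem_vtx.mpr ⟨e₀, he₀B, hue₀⟩, fun h => by
          obtain ⟨_, h2⟩ := (hmem u).mp h
          exact hcon h2⟩
      have hu'w : u' ≠ w := fun h => hwX (h ▸ hu'X)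
      have hee : e = s(u', w) := (Sym2.mem_and_mem_iff hu'w).mp ⟨hu', hw⟩
      have heΩ : e ∈ Ω := hBΩ B hB he
      obtain ⟨hu'Ω, hr⟩ := (hmem u').mp hu'X
      have hwΩ : w ∈ vtx Ω := mem_vtx.mpr ⟨e, heΩ, hw⟩
      apply hwX
      refine (hmem w).mpr ⟨hwΩ, hr.trans (SimpleGraph.Adj.reachable ?_)⟩
      refine ⟨fun h => hu'w (congrArg Subtype.val h), ?_⟩
      simpa [hee] using heΩ
    have : Nonempty ↥(vtx Ω) := ⟨⟨x, hxΩ⟩⟩
    refine ⟨fun a b => ?_⟩
    obtain ⟨a, ha'⟩ := a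
    obtain ⟨b, hb'⟩ := b
    exact (hreach a ha').symm.trans (hreach b hb')
  obtain ⟨T', hT'le, hT'⟩ := hconn.exists_isTree_le
  have hn1 := numEdges_tree hT'
  rw [Fintype.card_coe] at hn1
  obtain ⟨S, hS⟩ : ∃ S, S = imgE (Subtype.val : ↥(vtx Ω) → U) (edgesF T') := ⟨_, rfl⟩
  have hScard : S.card = numEdges T' := by
    rw [hS, card_imgE Subtype.val_injective, card_edgesF]
  have hSΩ : S ⊆ Ω := by
    intro e he
    rw [hS] at he
    obtain ⟨e', he', rfl⟩ := Finset.mem_image.mp he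
    induction e' using Sym2.ind with
    | _ a b =>
      have h1 : T'.Adj a b := mem_edgesF.mp he'
      exact (hT'le h1).2
  -- the excess of the union
  have hexc : (Ω \ S).card ≤ A.card * l + 1 := by
    rw [Finset.card_sdiff_of_subset hSΩ, hScard]
    obtain ⟨s, hs⟩ : ∃ s, s = Ω.card - (vtx Ω).card := ⟨_, rfl⟩
    have h2 : (l + 1) * s ≤ Ω.card := by
      by_cases h3 : (vtx Ω).card ≤ Ω.card
      · exact exc_bound hn hq hE ha hal (hΩW.trans hWE) (by omega)
      · have : s = 0 := by omega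
        rw [this]
        simp
    have h4 : Ω.card ≤ W.card := Finset.card_le_card hΩW
    have h5 : s ≤ A.card * l := by
      have h6 : (l + 1) * s ≤ (l + 1) * (A.card * l) := by
        calc (l + 1) * s ≤ A.card * (l + 1) * l := by omega
          _ = _ := by ring
      exact Nat.le_of_mul_le_mul_left h6 (by omega)
    omega
  -- the injection
  have hinj : Set.InjOn (fun B : Finset (Sym2 U) => B \ S) (BB : Set (Finset (Sym2 U))) := by
    intro B hB B' hB' hEq
    by_contra hne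
    have hB1 := hBB B (Finset.mem_coe.mp hB)
    have hB2 := hBB B' (Finset.mem_coe.mp hB')
    simp only at hEq
    have hsub : (B \ B') ∪ (B' \ B) ⊆ S := by
      intro e he
      by_contra heS
      rcases Finset.mem_union.mp he with h3 | h3
      · rcases Finset.mem_sdiff.mp h3 with ⟨h4, h5⟩
        have h6 : e ∈ B \ S := Finset.mem_sdiff.mpr ⟨h4, heS⟩
        rw [hEq] at h6
        exact h5 (Finset.mem_sdiff.mp h6).1
      · rcases Finset.mem_sdiff.mp h3 with ⟨h4, h5⟩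
        have h6 : e ∈ B' \ S := Finset.mem_sdiff.mpr ⟨h4, heS⟩
        rw [← hEq] at h6
        exact h5 (Finset.mem_sdiff.mp h6).1
    have hnonempty : ((B \ B') ∪ (B' \ B)).Nonempty := by
      by_contra hemp
      rw [Finset.not_nonempty_iff_eq_empty, Finset.union_eq_empty] at hemp
      have h3 := Finset.sdiff_eq_empty_iff_subset.mp hemp.1
      have h4 := Finset.sdiff_eq_empty_iff_subset.mp hemp.2
      exact hne (Finset.Subset.antisymm h3 h4)
    refine noCore_img hT'.isAcyclic Subtype.val_injective (hS ▸ hsub) hnonempty ?_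
    exact isM_symm hB1.2.par hB2.2.par
  have hmaps : ∀ B ∈ BB, B \ S ∈ (Ω \ S).powerset := by
    intro B hB
    exact Finset.mem_powerset.mpr (Finset.sdiff_subset_sdiff (hBΩ B hB) (Finset.Subset.refl _))
  have h3 : BB.card ≤ (Ω \ S).powerset.card :=
    Finset.card_le_card_of_injOn _ (fun B hB => Finset.mem_coe.mpr (hmaps B (Finset.mem_coe.mp hB))) hinj
  rw [Finset.card_powerset] at h3
  exact h3.trans (Nat.pow_le_pow_right (by norm_num) hexc)

end Vale.Agent.Lib.P064r
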