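import Vale.Agent.Lib.P064r.Walk
import Vale.Agent.Lib.P064h.Hyp

/-!
The set of images of a block over a fixed base is small: a greedy union of all extensions.
-/

namespace Vale.Agent.Lib.P064r

open Finset SimpleGraph Vale.Agent.Lib.P064
open scoped Classical Nat

set_option linter.unusedSectionVars false
set_option linter.unusedVariables false

universe u v

variable {V : Type v} [Fintype V] {Z : Type u} [Fintype Z]

/-- Partial embeddings with domain `Y`, with the value `x₀` outside `Y`. -/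
noncomputable def PE (F : SimpleGraph Z) (H : SimpleGraph V) (x₀ : V) (Y : Finset Z) :
    Finset (Z → V) :=
  Finset.univ.filter (fun f => (∀ z, z ∉ Y → f z = x₀) ∧ Set.InjOn f (Y : Set Z) ∧
    ∀ a ∈ Y, ∀ b ∈ Y, F.Adj a b → H.Adj (f a) (f b))

lemma mem_PE {F : SimpleGraph Z} {H : SimpleGraph V} {x₀ : V} {Y : Finset Z} {f : Z → V} :
    f ∈ PE F H x₀ Y ↔ (∀ z, z ∉ Y → f z = x₀) ∧ Set.InjOn f (Y : Set Z) ∧
      ∀ a ∈ Y, ∀ b ∈ Y, F.Adj a b → H.Adj (f a) (f b) := by
  simp [PE]

/-- The extensions of `g` from `U` to `Y`. -/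
noncomputable def Fib (F : SimpleGraph Z) (H : SimpleGraph V) (x₀ : V) (U Y : Finset Z)
    (g : Z → V) : Finset (Z → V) :=
  (PE F H x₀ Y).filter (fun f => ∀ z ∈ U, f z = g z)

lemma mem_Fib {F : SimpleGraph Z} {H : SimpleGraph V} {x₀ : V} {U Y : Finset Z} {g f : Z → V} :
    f ∈ Fib F H x₀ U Y g ↔ f ∈ PE F H x₀ Y ∧ ∀ z ∈ U, f z = g z := by
  simp [Fib]

/-- The images of the block under a family of maps. -/
noncomputable def imgI (B : Finset Z) (G : Finset (Z → V)) : Finset V :=
  G.biUnion (fun f => B.image f)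

/-- The edges of the family. -/
noncomputable def imgEd (F : SimpleGraph Z) (Y B : Finset Z) (G : Finset (Z → V)) :
    Finset (Sym2 V) :=
  G.biUnion (fun f => (cutE F Y B).image (Sym2.map f))

lemma mem_imgI {B : Finset Z} {G : Finset (Z → V)} {x : V} :
    x ∈ imgI B G ↔ ∃ f ∈ G, ∃ a ∈ B, f a = x := by
  simp [imgI]

/-- The greedy union over a family of extensions. -/
theorem greedy {F : SimpleGraph Z} {H : SimpleGraph V} {x₀ : V} {U B Y : Finset Z} {g : Z → V}
    (hY : Y = U ∪ B) (hdisj : Disjoint U B) {N c κ : ℝ} (hN : 0 ≤ N) (hc : 0 ≤ c) (hκ : 0 ≤ κ)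
    (hrigid : ∀ T, T ⊆ B → T.Nonempty → T ≠ B →
      (T.card : ℝ) * N - (eT F Y T : ℝ) * c ≤ -(κ * (T.card : ℝ)))
    (G : Finset (Z → V)) (hG : G ⊆ Fib F H x₀ U Y g) :
    ∃ (𝓕 : Finset (Z → V)) (P : ℕ), 𝓕 ⊆ G ∧
      (∀ f ∈ 𝓕, ∀ f' ∈ 𝓕, f ≠ f' → ∀ a ∈ B, ∀ b ∈ B, f a ≠ f' b) ∧
      (imgI B G).card = 𝓕.card * B.card + P ∧
      ((imgI B G).card : ℝ) * N - ((imgEd F Y B G).card : ℝ) * c ≤
        (𝓕.card : ℝ) * ((B.card : ℝ) * N - (eT F Y B : ℝ) * c) - κ * (P : ℝ) := by
  classical
  induction G using Finset.induction_on with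
  | empty =>
    refine ⟨∅, 0, Finset.Subset.refl _, by simp, by simp [imgI], ?_⟩
    simp [imgI, imgEd]
  | insert f G hfG ih =>
    have hfF : f ∈ Fib F H x₀ U Y g := hG (Finset.mem_insert_self _ _)
    obtain ⟨𝓕, P, h𝓕G, hdis, hcard, hval⟩ := ih ((Finset.subset_insert _ _).trans hG)
    rcases mem_Fib.mp hfF with ⟨hfPE, hfg⟩
    rcases mem_PE.mp hfPE with ⟨_, hfinj, hfadj⟩
    have hBY : B ⊆ Y := by rw [hY]; exact Finset.subset_union_right
    have hUY : U ⊆ Y := by rw [hY]; exact Finset.subset_union_left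
    set T : Finset Z := B.filter (fun w => f w ∉ imgI B G) with hT
    have hTB : T ⊆ B := Finset.filter_subset _ _
    -- the new images
    have hI : imgI B (insert f G) = imgI B G ∪ T.image f := by
      ext x
      simp only [mem_imgI, Finset.mem_insert, Finset.mem_union, Finset.mem_image]
      constructor
      · rintro ⟨f', hf' | hf', a, ha, rfl⟩
        · subst hf'
          by_cases h : f' a ∈ imgI B G
          · exact Or.inl (mem_imgI.mp h)
          · exact Or.inr ⟨a, Finset.mem_filter.mpr ⟨ha, h⟩, rfl⟩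
        · exact Or.inl ⟨f', hf', a, ha, rfl⟩
      · rintro (⟨f', hf', a, ha, rfl⟩ | ⟨a, ha, rfl⟩)
        · exact ⟨f', Or.inr hf', a, ha, rfl⟩
        · exact ⟨f, Or.inl rfl, a, hTB ha, rfl⟩
    have hfTinj : Set.InjOn f (T : Set Z) := hfinj.mono (fun z hz => hBY (hTB hz))
    have hIdisj : Disjoint (imgI B G) (T.image f) := by
      rw [Finset.disjoint_left]
      intro x hx hx'
      obtain ⟨a, ha, rfl⟩ := Finset.mem_image.mp hx'
      exact (Finset.mem_filter.mp ha).2 hx
    have hIcard : (imgI B (insert f G)).card = (imgI B G).card + T.card := by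
      rw [hI, Finset.card_union_of_disjoint hIdisj, Finset.card_image_of_injOn hfTinj]
    -- the new edges
    have hEsub : imgEd F Y B G ∪ (cutE F Y T).image (Sym2.map f) ⊆ imgEd F Y B (insert f G) := by
      intro e he
      rcases Finset.mem_union.mp he with he | he
      · obtain ⟨f', hf', he'⟩ := Finset.mem_biUnion.mp he
        exact Finset.mem_biUnion.mpr ⟨f', Finset.mem_insert_of_mem hf', he'⟩
      · obtain ⟨e', he', rfl⟩ := Finset.mem_image.mp he
        refine Finset.mem_biUnion.mpr ⟨f, Finset.mem_insert_self _ _, ?_⟩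
        exact Finset.mem_image_of_mem _ (cutE_mono hTB he')
    -- the endpoints of old edges
    have hold : ∀ e ∈ imgEd F Y B G, ∀ a ∈ T, f a ∉ e := by
      intro e he a ha hae
      obtain ⟨f', hf', he'⟩ := Finset.mem_biUnion.mp he
      obtain ⟨e', he'', rfl⟩ := Finset.mem_image.mp he'
      obtain ⟨z, hz, hza⟩ := Sym2.mem_map.mp hae
      have hzY := (mem_cutE.mp he'').2.1 z hz
      have hf'F : f' ∈ Fib F H x₀ U Y g := hG (Finset.mem_insert_of_mem hf')
      rcases mem_Fib.mp hf'F with ⟨_, hf'g⟩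
      by_cases hzB : z ∈ B
      · have : f a ∈ imgI B G := by
          rw [← hza]
          exact mem_imgI.mpr ⟨f', hf', z, hzB, rfl⟩
        exact (Finset.mem_filter.mp ha).2 this
      · have hzU : z ∈ U := by
          rw [hY] at hzY
          rcases Finset.mem_union.mp hzY with h | h
          · exact h
          · exact absurd h hzB
        have h1 : f' z = f z := by rw [hf'g z hzU, hfg z hzU]
        rw [h1] at hza
        have h2 := hfinj (Finset.mem_coe.mpr hzY) (Finset.mem_coe.mpr (hBY (hTB ha))) hza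
        exact hzB (h2 ▸ hTB ha)
    have hEdisj : Disjoint (imgEd F Y B G) ((cutE F Y T).image (Sym2.map f)) := by
      rw [Finset.disjoint_left]
      intro e he he'
      obtain ⟨e', he'', rfl⟩ := Finset.mem_image.mp he'
      rcases mem_cutE.mp he'' with ⟨_, _, a, hae, haT⟩
      exact hold _ he a haT (Sym2.mem_map.mpr ⟨a, hae, rfl⟩)
    have hEimg : ((cutE F Y T).image (Sym2.map f)).card = eT F Y T := by
      unfold eT
      rw [Finset.card_image_of_injOn]
      intro e he e' he' h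
      exact sym2_map_injOn hfinj
        (fun a ha => Finset.mem_coe.mpr ((mem_cutE.mp (Finset.mem_coe.mp he)).2.1 a ha))
        (fun a ha => Finset.mem_coe.mpr ((mem_cutE.mp (Finset.mem_coe.mp he')).2.1 a ha)) h
    have hEcard : (imgEd F Y B G).card + eT F Y T ≤ (imgEd F Y B (insert f G)).card := by
      rw [← hEimg, ← Finset.card_union_of_disjoint hEdisj]
      exact Finset.card_le_card hEsub
    have hEcardR : ((imgEd F Y B G).card : ℝ) + (eT F Y T : ℝ) ≤
        ((imgEd F Y B (insert f G)).card : ℝ) := by exact_mod_cast hEcard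
    have hmulc : (((imgEd F Y B G).card : ℝ) + (eT F Y T : ℝ)) * c ≤
        ((imgEd F Y B (insert f G)).card : ℝ) * c := mul_le_mul_of_nonneg_right hEcardR hc
    have hIcardR : ((imgI B (insert f G)).card : ℝ) = ((imgI B G).card : ℝ) + (T.card : ℝ) := by
      exact_mod_cast hIcard
    by_cases hTB' : T = B
    · -- fresh
      have hf𝓕 : f ∉ 𝓕 := fun h => hfG (h𝓕G h)
      refine ⟨insert f 𝓕, P, Finset.insert_subset_insert _ h𝓕G, ?_, ?_, ?_⟩
      · intro f₁ hf₁ f₂ hf₂ hne a ha b hb
        have hfresh : ∀ f' ∈ 𝓕, ∀ a ∈ B, ∀ b ∈ B, f a ≠ f' b := by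
          intro f' hf' a ha b hb h
          have haT : a ∈ T := hTB' ▸ ha
          exact (Finset.mem_filter.mp haT).2 (mem_imgI.mpr ⟨f', h𝓕G hf', b, hb, h.symm⟩)
        rcases Finset.mem_insert.mp hf₁ with rfl | h1
        · rcases Finset.mem_insert.mp hf₂ with rfl | h2
          · exact absurd rfl hne
          · exact hfresh f₂ h2 a ha b hb
        · rcases Finset.mem_insert.mp hf₂ with rfl | h2
          · exact fun h => hfresh f₁ h1 b hb a ha h.symm
          · exact hdis f₁ h1 f₂ h2 hne a ha b hb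
      · rw [hIcard, hTB', hcard, Finset.card_insert_of_notMem hf𝓕]
        ring
      · rw [hIcardR, Finset.card_insert_of_notMem hf𝓕]
        rw [hTB'] at hmulc
        rw [hTB']
        push_cast
        nlinarith
    · by_cases hT0 : T.Nonempty
      · -- partly new
        have hr := hrigid T hTB hT0 hTB'
        refine ⟨𝓕, P + T.card, h𝓕G.trans (Finset.subset_insert _ _), hdis, ?_, ?_⟩
        · rw [hIcard, hcard]
          ring
        · rw [hIcardR]
          push_cast
          nlinarith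
      · -- nothing new
        rw [Finset.not_nonempty_iff_eq_empty] at hT0
        have hT00 : eT F Y T = 0 := by
          rw [hT0]
          unfold eT
          rw [Finset.card_eq_zero]
          refine Finset.eq_empty_of_forall_notMem fun e he => ?_
          rcases mem_cutE.mp he with ⟨_, _, a, _, ha⟩
          simp at ha
        refine ⟨𝓕, P, h𝓕G.trans (Finset.subset_insert _ _), hdis, ?_, ?_⟩
        · rw [hIcard, hT0, hcard]
          simp
        · rw [hIcardR, hT0]
          rw [hT00] at hmulc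
          simp only [Finset.card_empty, Nat.cast_zero, add_zero] at hmulc ⊢
          linarith

/-- The vertices outside the block attached to the block. -/
noncomputable def bdry (F : SimpleGraph Z) (Y B : Finset Z) : Finset Z :=
  Y.filter (fun u => u ∉ B ∧ ∃ w ∈ B, F.Adj u w)

lemma mem_bdry {F : SimpleGraph Z} {Y B : Finset Z} {u : Z} :
    u ∈ bdry F Y B ↔ u ∈ Y ∧ u ∉ B ∧ ∃ w ∈ B, F.Adj u w := by
  simp [bdry]

/-- The number of attached vertices is at most the number of edges of the block. -/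
lemma bdry_card_le {F : SimpleGraph Z} {Y B : Finset Z} (hBY : B ⊆ Y) :
    (bdry F Y B).card ≤ eT F Y B := by
  unfold eT
  have hchoice : ∀ u ∈ bdry F Y B, ∃ w ∈ B, F.Adj u w := fun u hu => (mem_bdry.mp hu).2.2
  choose! w hw1 hw2 using hchoice
  refine Finset.card_le_card_of_injOn (fun u => s(u, w u)) ?_ ?_
  · intro u hu
    have hu' := Finset.mem_coe.mp hu
    have h1 := mem_bdry.mp hu'
    refine Finset.mem_coe.mpr (mem_cutE.mpr ⟨hw2 u hu', ?_, w u, Sym2.mem_mk_right _ _, hw1 u hu'⟩)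
    intro a ha
    rcases Sym2.mem_iff.mp ha with rfl | rfl
    · exact h1.1
    · exact hBY (hw1 u hu')
  · intro u hu u' hu' h
    have hu1 := Finset.mem_coe.mp hu
    have hu2 := Finset.mem_coe.mp hu'
    rcases Sym2.eq_iff.mp h with ⟨h1, _⟩ | ⟨h1, h2⟩
    · exact h1
    · exfalso
      have h3 := hw1 u hu1
      rw [h2] at h3
      exact (mem_bdry.mp hu2).2.1 h3

/-- The hypothesis in logarithmic form. -/
lemma weak_hyp_log {H : SimpleGraph V} {n : ℕ} {q : ℝ} (hn : 1 ≤ n) (hq : 0 < q) (hq1 : q ≤ 1)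
    (hyp : ∀ F : H.Subgraph, 1 ≤ expCopies n q F.coe) (S : Finset V) (X : Finset (Sym2 V))
    (hX : ∀ e ∈ X, e ∈ H.edgeSet) (hS : ∀ e ∈ X, ∀ v ∈ e, v ∈ S) :
    0 ≤ (S.card : ℝ) * Real.log n - (X.card : ℝ) * Real.log (1 / q) := by
  have h1 := Vale.Agent.Lib.P064h.weak_hyp hq hq1 hyp S X hX hS
  have hn0 : (0 : ℝ) < n := by exact_mod_cast hn
  have h2 := Real.log_nonneg h1
  rw [Real.log_mul (by positivity) (by positivity), Real.log_pow, Real.log_pow] at h2
  rw [one_div, Real.log_inv]
  linarith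

/-- The twin bound over a family of extensions with disjoint images of the block. -/
theorem twin_exp {H : SimpleGraph V} {n : ℕ} {q : ℝ} (hn : 1 ≤ n) (hq : 0 < q) (hq1 : q ≤ 1)
    (hyp : ∀ F : H.Subgraph, 1 ≤ expCopies n q F.coe) {F : SimpleGraph Z} {x₀ : V}
    {U B Y : Finset Z} {g : Z → V} (hY : Y = U ∪ B) (hBne : B.Nonempty)
    (hg : Set.InjOn g (U : Set Z)) {s : Finset Z} (hs : s = bdry F Y B)
    {𝓕 : Finset (Z → V)} (h𝓕 : 𝓕 ⊆ Fib F H x₀ U Y g)
    (hdis : ∀ f ∈ 𝓕, ∀ f' ∈ 𝓕, f ≠ f' → ∀ a ∈ B, ∀ b ∈ B, f a ≠ f' b) :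
    ((𝓕.card ! : ℕ) : ℝ) ≤ Real.exp (((bdry F Y B).card : ℝ) * Real.log n + (𝓕.card : ℝ) *
        ((B.card : ℝ) * Real.log n - (eT F Y B : ℝ) * Real.log (1 / q))) := by
  have hn0 : (0 : ℝ) < n := by exact_mod_cast hn
  set N := Real.log n with hNdef
  set c := Real.log (1 / q) with hcdef
  have hBY : B ⊆ Y := by rw [hY]; exact Finset.subset_union_right
  set m := 𝓕.card with hm
  set e := 𝓕.equivFin with he
  set h : Fin m → Z → V := fun i => (e.symm i).1 with hh
  have hmem : ∀ i, h i ∈ Fib F H x₀ U Y g := fun i => h𝓕 (e.symm i).2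
  have htw := twin_bound (H := H) (n := n) (q := q) hq hq1 hyp F (U := Y) (K := B)
    (S := bdry F Y B) hBne hBY
    (fun s hs => ⟨(mem_bdry.mp hs).1, (mem_bdry.mp hs).2.1⟩)
    (fun b hb hbB a ha hadj => mem_bdry.mpr ⟨hb, hbB, a, ha, hadj⟩) (m := m) g
    (hg.mono (by
      intro z hz
      have hz' := mem_bdry.mp (Finset.mem_coe.mp hz)
      have hzU : z ∈ U := by
        have := hz'.1
        rw [hY] at this
        rcases Finset.mem_union.mp this with h | h
        · exact h
        · exact absurd h hz'.2.1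
      exact Finset.mem_coe.mpr hzU)) h
    (fun i => (mem_PE.mp (mem_Fib.mp (hmem i)).1).2.1)
    (fun i => (mem_PE.mp (mem_Fib.mp (hmem i)).1).2.2)
    (fun i a ha haB => by
      have haU : a ∈ U := by
        rw [hY] at ha
        rcases Finset.mem_union.mp ha with h | h
        · exact h
        · exact absurd h haB
      exact (mem_Fib.mp (hmem i)).2 a haU)
    (fun i j hij a ha b hb => by
      refine hdis _ (e.symm i).2 _ (e.symm j).2 ?_ a ha b hb
      intro hfe
      apply hij
      exact e.symm.injective (Subtype.ext hfe))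
  refine htw.trans (le_of_eq ?_)
  have hq' : Real.log q = -c := by
    rw [hcdef, one_div, Real.log_inv]
    ring
  have hcut : (cutE F Y B).card = eT F Y B := rfl
  rw [hcut, ← Real.exp_log (by positivity : (0 : ℝ) < (n : ℝ) ^ ((bdry F Y B).card + m * B.card) *
    q ^ (m * eT F Y B))]
  congr 1
  rw [Real.log_mul (by positivity) (by positivity), Real.log_pow, Real.log_pow, hq', ← hNdef]
  push_cast
  ring

/-- The data on the set of images: `ν` fresh copies and `P` further vertices. -/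
theorem root_data {H : SimpleGraph V} {n : ℕ} {q : ℝ} (hn : 1 ≤ n) (hq : 0 < q) (hq1 : q ≤ 1)
    (hyp : ∀ F : H.Subgraph, 1 ≤ expCopies n q F.coe) {F : SimpleGraph Z} {x₀ : V}
    {U B Y : Finset Z} {g : Z → V} (hY : Y = U ∪ B) (hdisj : Disjoint U B) (hBne : B.Nonempty)
    (hg : Set.InjOn g (U : Set Z)) {κ : ℝ} (hκ : 0 ≤ κ)
    (hrigid : ∀ T, T ⊆ B → T.Nonempty → T ≠ B →
      (T.card : ℝ) * Real.log n - (eT F Y T : ℝ) * Real.log (1 / q) ≤ -(κ * (T.card : ℝ))) :
    ∃ ν P : ℕ, (imgI B (Fib F H x₀ U Y g)).card = ν * B.card + P ∧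
      0 ≤ ((bdry F Y B).card : ℝ) * Real.log n + (ν : ℝ) * ((B.card : ℝ) * Real.log n -
        (eT F Y B : ℝ) * Real.log (1 / q)) - κ * (P : ℝ) ∧
      ((ν ! : ℕ) : ℝ) ≤ Real.exp (((bdry F Y B).card : ℝ) * Real.log n + (ν : ℝ) *
        ((B.card : ℝ) * Real.log n - (eT F Y B : ℝ) * Real.log (1 / q))) := by
  have hn0 : (0 : ℝ) < n := by exact_mod_cast hn
  have hn1 : (1 : ℝ) ≤ n := by exact_mod_cast hn
  set N := Real.log n with hNdef
  have hN : 0 ≤ N := Real.log_nonneg hn1
  set c := Real.log (1 / q) with hcdef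
  have hc : 0 ≤ c := by
    apply Real.log_nonneg
    rw [le_div_iff₀ hq]
    linarith
  have hBY : B ⊆ Y := by rw [hY]; exact Finset.subset_union_right
  have hUY : U ⊆ Y := by rw [hY]; exact Finset.subset_union_left
  obtain ⟨𝓕, P, h𝓕, hdis, hcard, hval⟩ := greedy (F := F) (H := H) (x₀ := x₀) (g := g) hY hdisj hN hc
    hκ hrigid (Fib F H x₀ U Y g) (Finset.Subset.refl _)
  refine ⟨𝓕.card, P, hcard, ?_, ?_⟩
  · -- all the edges of the union
    set S : Finset V := (bdry F Y B).image g ∪ imgI B (Fib F H x₀ U Y g) with hS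
    set X := imgEd F Y B (Fib F H x₀ U Y g) with hX
    have hXH : ∀ e ∈ X, e ∈ H.edgeSet := by
      intro e he
      obtain ⟨f, hf, he'⟩ := Finset.mem_biUnion.mp he
      obtain ⟨e', he'', rfl⟩ := Finset.mem_image.mp he'
      rcases mem_cutE.mp he'' with ⟨h1, h2, _⟩
      rcases mem_Fib.mp hf with ⟨hfPE, _⟩
      rcases mem_PE.mp hfPE with ⟨_, _, hfadj⟩
      induction e' using Sym2.ind with
      | _ a b =>
        exact hfadj a (h2 a (Sym2.mem_mk_left a b)) b (h2 b (Sym2.mem_mk_right a b)) h1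
    have hXS : ∀ e ∈ X, ∀ v ∈ e, v ∈ S := by
      intro e he v hv
      obtain ⟨f, hf, he'⟩ := Finset.mem_biUnion.mp he
      obtain ⟨e', he'', rfl⟩ := Finset.mem_image.mp he'
      obtain ⟨z, hz, rfl⟩ := Sym2.mem_map.mp hv
      rcases mem_Fib.mp hf with ⟨hfPE, hfg⟩
      by_cases hzB : z ∈ B
      · exact Finset.mem_union_right _ (mem_imgI.mpr ⟨f, hf, z, hzB, rfl⟩)
      · obtain ⟨a, ha, y, hy, haY, hadj, rfl⟩ := cutE_rep he''
        have hzy : z = y := by
          rcases Sym2.mem_iff.mp hz with rfl | rfl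
          · exact absurd ha hzB
          · rfl
        subst hzy
        have hzU : z ∈ U := by
          rw [hY] at hy
          rcases Finset.mem_union.mp hy with h | h
          · exact h
          · exact absurd h hzB
        refine Finset.mem_union_left _ (Finset.mem_image.mpr ⟨z, ?_, (hfg z hzU).symm⟩)
        exact mem_bdry.mpr ⟨hy, hzB, a, ha, hadj.symm⟩
    have h1 := weak_hyp_log hn hq hq1 hyp S X hXH hXS
    have h2 : (S.card : ℝ) ≤ ((bdry F Y B).card : ℝ) + ((imgI B (Fib F H x₀ U Y g)).card : ℝ) := by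
      have h3 : S.card ≤ (bdry F Y B).card + (imgI B (Fib F H x₀ U Y g)).card :=
        (Finset.card_union_le _ _).trans (Nat.add_le_add_right Finset.card_image_le _)
      exact_mod_cast h3
    have h3 := mul_le_mul_of_nonneg_right h2 hN
    rw [← hNdef, ← hcdef] at h1
    nlinarith
  · exact twin_exp hn hq hq1 hyp hY hBne hg rfl h𝓕 hdis

end Vale.Agent.Lib.P064r
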