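import Vale.Agent.Lib.P064r.PathE
import Vale.Agent.Lib.P064k.Hub

/-!
The count of closed paths in the range where the copies need not be disjoint, but few of them pass
through any vertex.
-/

namespace Vale.Agent.Lib.P064r

open Finset SimpleGraph Vale.Agent.Lib.P064 Vale.Agent.Lib.P064k
open scoped Classical Nat

set_option linter.unusedSectionVars false
set_option linter.unusedVariables false

universe u u' v

variable {U : Type u'} [Fintype U] {V₀ : Type v} [Fintype V₀] {Z : Type u} [Fintype Z]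

/-- A pairwise disjoint family of copies of a set of cycle type is small. -/
theorem disj_count {E K : Finset (Sym2 U)} {q : ℝ} (hq : 0 < q) (hK : IsCyc K)
    (hHS : ∀ F ⊆ E, (mm F F : ℝ) ≤ ((Fintype.card U)! : ℝ) * q ^ F.card)
    (BB : Finset (Finset (Sym2 U)))
    (hBBim : ∀ B ∈ BB, ∃ σ, σ ∈ intoP E K ∧ imgP σ K = B)
    (hdisj : ∀ B ∈ BB, ∀ B' ∈ BB, B ≠ B' → Disjoint (vtx B) (vtx B')) :
    (BB.card : ℝ) * ((Emb (cycG K) (SimpleGraph.fromEdgeSet (K : Set (Sym2 U))) Finset.univ).card : ℝ)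
      ≤ 3 * ((Fintype.card U : ℝ) * q) ^ K.card := by
  set N := Fintype.card U with hN
  set c := K.card with hc
  have hAc : Fintype.card ↥(vtx K) = c := by
    rw [Fintype.card_coe, hK.card]
  set TK := cycG K with hTK
  set XK := Emb TK (SimpleGraph.fromEdgeSet (K : Set (Sym2 U))) Finset.univ with hXK
  set a := XK.card with ha
  set t := BB.card with ht
  by_cases ht0 : t = 0
  · rw [ht0]
    simp only [Nat.cast_zero, zero_mul]
    positivity
  have htpos : 0 < t := Nat.pos_of_ne_zero ht0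
  have hIc : Fintype.card ↥BB = t := by rw [Fintype.card_coe]
  have hIex : ∀ i : ↥BB, ∃ σ, σ ∈ intoP E K ∧ imgP σ K = i.1 := fun i => hBBim i.1 i.2
  choose sg hsg1 hsg2 using hIex
  have hdI : ∀ i i' : ↥BB, i ≠ i' → Disjoint (vtx i.1) (vtx i'.1) := by
    intro i i' hne
    exact hdisj i.1 i.2 i'.1 i'.2 (fun h => hne (Subtype.ext h))
  have hmemI : ∀ (i : ↥BB) {x : U}, x ∈ vtx K → sg i x ∈ vtx i.1 := by
    intro i x hx
    have := mem_vtx_imgP (sg i) hx
    rwa [hsg2] at this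
  have heqI : ∀ (i i' : ↥BB) {x x' : U}, x ∈ vtx K → x' ∈ vtx K → sg i x = sg i' x' → i = i' := by
    intro i i' x x' hx hx' h
    by_contra hne
    have h1 := hmemI i hx
    have h2 := hmemI i' hx'
    rw [h] at h1
    exact Finset.disjoint_left.mp (hdI i i' hne) h1 h2
  -- the union
  have hZ'c : Fintype.card (↥BB × ↥(vtx K)) = t * c := by
    rw [Fintype.card_prod, hIc, hAc]
  set j : ↥BB × ↥(vtx K) → U := fun p => sg p.1 p.2.1 with hj
  have hjinj : Function.Injective j := by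
    rintro ⟨i, x⟩ ⟨i', x'⟩ h
    have h1 : i = i' := heqI i i' x.2 x'.2 h
    subst h1
    have h2 : x.1 = x'.1 := (sg i).injective h
    rw [Subtype.ext h2]
  set W' := BB.biUnion id with hW'
  have hW'c : W'.card = t * c := by
    rw [hW', Finset.card_biUnion]
    · have h1 : ∀ B ∈ BB, (id B).card = c := by
        intro B hB
        obtain ⟨σ, _, rfl⟩ := hBBim B hB
        exact card_imgP σ K
      rw [Finset.sum_congr rfl h1, Finset.sum_const, smul_eq_mul]
    · intro B hB B' hB' hne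
      refine Finset.disjoint_left.mpr fun e he he' => ?_
      have h1 : Disjoint (vtx B) (vtx B') := by
        refine hdI ⟨B, hB⟩ ⟨B', hB'⟩ ?_
        exact fun h => hne (congrArg Subtype.val h)
      induction e using Sym2.ind with
      | _ u w =>
        exact Finset.disjoint_left.mp h1 (mem_vtx.mpr ⟨_, he, Sym2.mem_mk_left u w⟩)
          (mem_vtx.mpr ⟨_, he', Sym2.mem_mk_left u w⟩)
  have hW'E : W' ⊆ E := by
    intro e he
    obtain ⟨B, hB, he'⟩ := Finset.mem_biUnion.mp he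
    obtain ⟨σ, hσ, rfl⟩ := hBBim B hB
    obtain ⟨e', he'', rfl⟩ := Finset.mem_image.mp he'
    exact mem_intoP.mp hσ e' he''
  set TT : SimpleGraph (↥BB × ↥(vtx K)) :=
    { Adj := fun p p' => p.1 = p'.1 ∧ TK.Adj p.2 p'.2
      symm := ⟨fun p p' h => ⟨h.1.symm, h.2.symm⟩⟩
      loopless := ⟨fun p h => h.2.ne rfl⟩ } with hTT
  set H' := SimpleGraph.fromEdgeSet (W' : Set (Sym2 U)) with hH'
  have h1 : (Emb TT H' Finset.univ).card * (N - t * c)! ≤ mm W' W' := by
    have h2 := emb_mul_le_mm (E := W') (W := W') (T := TT) (H := H') (ι := id) (j := j)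
      Function.injective_id hjinj ?_ ?_
    · rwa [hZ'c] at h2
    · intro e he
      obtain ⟨B, hB, he'⟩ := Finset.mem_biUnion.mp he
      have hi : imgP (sg ⟨B, hB⟩) K = B := hsg2 ⟨B, hB⟩
      rw [id, ← hi] at he'
      obtain ⟨e', he'', rfl⟩ := Finset.mem_image.mp he'
      induction e' using Sym2.ind with
      | _ u w =>
        have huv : u ≠ w := fun h => hK.nd _ he'' (by simp [h])
        have hu : u ∈ vtx K := mem_vtx.mpr ⟨_, he'', Sym2.mem_mk_left u w⟩
        have hw : w ∈ vtx K := mem_vtx.mpr ⟨_, he'', Sym2.mem_mk_right u w⟩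
        refine ⟨(⟨B, hB⟩, ⟨u, hu⟩), (⟨B, hB⟩, ⟨w, hw⟩), ⟨rfl, ?_, he''⟩, rfl⟩
        exact fun h => huv (congrArg Subtype.val h)
    · intro x y hxy
      exact (SimpleGraph.fromEdgeSet_adj _ |>.mp hxy).1
  have hnv : ∀ x : ↥(vtx K), ∃ y : ↥(vtx K), TK.Adj x y := by
    intro x
    obtain ⟨e, he, hxe⟩ := mem_vtx.mp x.2
    obtain ⟨y, rfl⟩ := Sym2.mem_iff_exists.mp hxe
    have hxy : x.1 ≠ y := fun h => hK.nd _ he (by simp [← h])
    have hy : y ∈ vtx K := mem_vtx.mpr ⟨_, he, Sym2.mem_mk_right _ _⟩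
    exact ⟨⟨y, hy⟩, fun h => hxy (congrArg Subtype.val h), he⟩
  have hβK : ∀ β ∈ XK, ∀ x : ↥(vtx K), β x ∈ vtx K := by
    intro β hβ x
    obtain ⟨y, hy⟩ := hnv x
    have h2 := (mem_Emb.mp hβ).2.1 x y hy
    have h3 := (SimpleGraph.fromEdgeSet_adj _ |>.mp h2).1
    exact mem_vtx.mpr ⟨_, h3, Sym2.mem_mk_left _ _⟩
  obtain ⟨x₀⟩ : Nonempty ↥(vtx K) := by
    obtain ⟨e, he⟩ := hK.ne
    induction e using Sym2.ind with
    | _ u w => exact ⟨⟨u, mem_vtx.mpr ⟨_, he, Sym2.mem_mk_left u w⟩⟩⟩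
  -- the lower bound for embeddings
  have h2 : t ! * a ^ t ≤ (Emb TT H' Finset.univ).card := by
    set D := (Finset.univ : Finset (Equiv.Perm ↥BB)) ×ˢ
      (Fintype.piFinset (fun _ : ↥BB => XK)) with hD
    have hDc : D.card = t ! * a ^ t := by
      rw [hD, Finset.card_product, Finset.card_univ, Fintype.card_perm, hIc,
        Fintype.card_piFinset, Finset.prod_const, Finset.card_univ, hIc]
    rw [← hDc]
    refine Finset.card_le_card_of_injOn
      (fun d => fun p => sg (d.1 p.1) (d.2 p.1 p.2)) ?_ ?_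
    · rintro ⟨τ, β⟩ hd
      have hd' := Finset.mem_coe.mp hd
      have hβ : ∀ i, β i ∈ XK := fun i =>
        Fintype.mem_piFinset.mp (Finset.mem_product.mp hd').2 i
      refine Finset.mem_coe.mpr (mem_Emb.mpr ⟨?_, ?_, fun _ => Finset.mem_univ _⟩)
      · rintro ⟨i, x⟩ ⟨i', x'⟩ h
        have h3 : τ i = τ i' := heqI _ _ (hβK _ (hβ i) x) (hβK _ (hβ i') x') h
        have h4 : i = i' := τ.injective h3
        subst h4
        have h5 : β i x = β i x' := (sg (τ i)).injective h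
        have h6 : x = x' := (mem_Emb.mp (hβ i)).1 h5
        rw [h6]
      · rintro ⟨i, x⟩ ⟨i', x'⟩ ⟨h3, h4⟩
        simp only at h3 h4
        subst h3
        have h5 := (mem_Emb.mp (hβ i)).2.1 x x' h4
        have h6 := SimpleGraph.fromEdgeSet_adj _ |>.mp h5
        rw [hH', SimpleGraph.fromEdgeSet_adj]
        refine ⟨?_, fun h => h6.2 ((sg (τ i)).injective h)⟩
        refine Finset.mem_coe.mpr (Finset.mem_biUnion.mpr ⟨(τ i).1, (τ i).2, ?_⟩)
        rw [id, ← hsg2 (τ i)]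
        exact Finset.mem_image.mpr ⟨_, h6.1, rfl⟩
    · rintro ⟨τ, β⟩ hd ⟨τ', β'⟩ hd' h
      have hd1 := Finset.mem_coe.mp hd
      have hd2 := Finset.mem_coe.mp hd'
      have hβ : ∀ i, β i ∈ XK := fun i =>
        Fintype.mem_piFinset.mp (Finset.mem_product.mp hd1).2 i
      have hβ' : ∀ i, β' i ∈ XK := fun i =>
        Fintype.mem_piFinset.mp (Finset.mem_product.mp hd2).2 i
      have h3 : ∀ (i : ↥BB) (x : ↥(vtx K)), sg (τ i) (β i x) = sg (τ' i) (β' i x) := fun i x =>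
        congrFun h (i, x)
      have h4 : τ = τ' := by
        ext i
        have := heqI _ _ (hβK _ (hβ i) x₀) (hβK _ (hβ' i) x₀) (h3 i x₀)
        rw [this]
      subst h4
      have h5 : β = β' := by
        funext i x
        exact (sg (τ i)).injective (h3 i x)
      rw [h5]
  -- the numerics
  have hN0 : (0 : ℝ) ≤ (N : ℝ) * q := by positivity
  have h3 : t * c ≤ N := by
    have := Fintype.card_le_of_injective j hjinj
    rwa [hZ'c] at this
  have h4 : (t ! : ℝ) * (a : ℝ) ^ t ≤ (((N : ℝ) * q) ^ c) ^ t := by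
    have h5 : ((t ! * a ^ t * (N - t * c)! : ℕ) : ℝ) ≤ ((mm W' W' : ℕ) : ℝ) := by
      exact_mod_cast (Nat.mul_le_mul_right _ h2).trans h1
    have h6 := h5.trans (hHS W' hW'E)
    have h7 : ((N ! : ℕ) : ℝ) = ((N - t * c)! : ℝ) * (N.descFactorial (t * c) : ℝ) := by
      exact_mod_cast (Nat.factorial_mul_descFactorial h3).symm
    have h8 : (0 : ℝ) < ((N - t * c)! : ℝ) := by exact_mod_cast Nat.factorial_pos _
    have h9 : (N.descFactorial (t * c) : ℝ) ≤ (N : ℝ) ^ (t * c) := by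
      exact_mod_cast Nat.descFactorial_le_pow _ _
    rw [hW'c, h7] at h6
    push_cast at h6
    have h10 : (t ! : ℝ) * (a : ℝ) ^ t * ((N - t * c)! : ℝ) ≤
        ((N : ℝ) ^ (t * c) * q ^ (t * c)) * ((N - t * c)! : ℝ) := by
      calc _ ≤ _ := h6
        _ = ((N - t * c)! : ℝ) * ((N.descFactorial (t * c) : ℝ) * q ^ (t * c)) := by ring
        _ ≤ ((N - t * c)! : ℝ) * ((N : ℝ) ^ (t * c) * q ^ (t * c)) := by
            refine mul_le_mul_of_nonneg_left ?_ h8.le
            exact mul_le_mul_of_nonneg_right h9 (by positivity)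
        _ = _ := by ring
    have h11 := le_of_mul_le_mul_right h10 h8
    refine h11.trans (le_of_eq ?_)
    rw [← mul_pow, ← pow_mul, mul_comm t c]
  have h5 : (t : ℝ) * a ≤ 3 * ((N : ℝ) * q) ^ c := by
    have h6 := pow_self_le t
    have h7 : ((t : ℝ) * a) ^ t ≤ (3 * ((N : ℝ) * q) ^ c) ^ t := by
      rw [mul_pow, mul_pow]
      calc (t : ℝ) ^ t * (a : ℝ) ^ t ≤ (3 ^ t * (t ! : ℝ)) * (a : ℝ) ^ t :=
            mul_le_mul_of_nonneg_right h6 (by positivity)
        _ = 3 ^ t * ((t ! : ℝ) * (a : ℝ) ^ t) := by ring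
        _ ≤ 3 ^ t * (((N : ℝ) * q) ^ c) ^ t := mul_le_mul_of_nonneg_left h4 (by positivity)
    exact (pow_le_pow_iff_left₀ (by positivity) (by positivity) ht0).mp h7
  exact h5

/-- The permutations are counted by the images. -/
lemma mm_le_images (E K : Finset (Sym2 U)) :
    mm E K ≤ mm K K * ((intoP E K).image (fun σ => imgP σ K)).card := by
  refine Finset.card_le_mul_card_image _ _ ?_
  intro B hB
  obtain ⟨σ₀, hσ₀, rfl⟩ := Finset.mem_image.mp hB
  refine Finset.card_le_card_of_injOn (fun σ => σ₀⁻¹ * σ) ?_ ?_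
  · intro σ hσ
    have hσ' := (Finset.mem_filter.mp (Finset.mem_coe.mp hσ)).2
    refine Finset.mem_coe.mpr (mem_intoP.mpr fun e he => ?_)
    rw [map_mul_eq]
    have h1 : Sym2.map σ e ∈ imgP σ₀ K := by
      rw [← hσ']
      exact Finset.mem_image_of_mem _ he
    obtain ⟨e', he', h2⟩ := Finset.mem_image.mp h1
    rw [← h2, ← map_mul_eq, inv_mul_cancel, map_one_eq]
    exact he'
  · intro σ _ σ' _ h
    exact mul_left_cancel h

lemma imgP_pEdges (σ : Equiv.Perm U) (y : ℕ → U) (k : ℕ) :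
    imgP σ (pEdges y k) = pEdges (fun i => σ (y i)) k := by
  unfold imgP pEdges
  rw [Finset.image_image]
  refine Finset.image_congr ?_
  intro i _
  simp

/-- The count of closed paths of length `k` when `a^{k+1} ≤ n`. -/
theorem short_count {H : SimpleGraph V₀} {n : ℕ} {q : ℝ} (hn : 0 < n) (hq : 0 < q)
    (hV : Fintype.card V₀ ≤ n) (hyp : ∀ F : H.Subgraph, 1 ≤ expCopies n q F.coe)
    {ι : V₀ → U} (hι : Function.Injective ι) (hU : Fintype.card U = 2 * n)
    (ha : 2 ≤ (n : ℝ) * q) {y : ℕ → U} {k : ℕ} (hy : ClosedP y k)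
    (hal : ((n : ℝ) * q) ^ (k + 1) ≤ n) :
    ((Emb (cycG (pEdges y k)) H Finset.univ).card : ℝ) ≤
      3 * k * 2 ^ (k + 1) * (2 * ((n : ℝ) * q)) ^ k := by
  obtain ⟨K, hKd⟩ : ∃ K, K = pEdges y k := ⟨_, rfl⟩
  rw [← hKd]
  have hK : IsCyc K := hKd ▸ hy.isCyc
  have hKc : K.card = k := hKd ▸ hy.card
  obtain ⟨E, hEd⟩ : ∃ E, E = imgE ι (edgesF H) := ⟨_, rfl⟩
  have hHS : ∀ F ⊆ E, (mm F F : ℝ) ≤ ((Fintype.card U)! : ℝ) * q ^ F.card := by
    intro F hF
    exact self_count hq hV hyp hι (by omega) (hEd ▸ hF)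
  have hE : ∀ W ⊆ E, 1 ≤ (n : ℝ) ^ (vtx W).card * q ^ W.card := by
    intro W hW
    exact one_le_of_sub hn hq hyp hι (hEd ▸ hW)
  obtain ⟨BB, hBBd⟩ : ∃ BB, BB = (intoP E K).image (fun σ => imgP σ K) := ⟨_, rfl⟩
  have hBBim : ∀ B ∈ BB, ∃ σ, σ ∈ intoP E K ∧ imgP σ K = B := by
    intro B hB
    rw [hBBd] at hB
    obtain ⟨σ, hσ, h⟩ := Finset.mem_image.mp hB
    exact ⟨σ, hσ, h⟩
  have hBBE : ∀ B ∈ BB, B ⊆ E := by
    intro B hB e he
    obtain ⟨σ, hσ, rfl⟩ := hBBim B hB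
    obtain ⟨e', he', rfl⟩ := Finset.mem_image.mp he
    exact mem_intoP.mp hσ e' he'
  have hBBc : ∀ B ∈ BB, ∃ y' : ℕ → U, ClosedP y' k ∧ B = pEdges y' k := by
    intro B hB
    obtain ⟨σ, _, rfl⟩ := hBBim B hB
    refine ⟨fun i => σ (y i), hy.comp σ.injective, ?_⟩
    rw [hKd, imgP_pEdges]
  have hpt : ∀ x, (BB.filter (fun B => x ∈ vtx B)).card ≤ 2 ^ (k + 1) := by
    intro x
    have h1 := rigid (A := {x}) (x := x) (χ := fun _ => 0) (l := k) hn hq hE ha hal
      (Finset.mem_singleton_self x) (fun _ _ => rfl) (BB.filter (fun B => x ∈ vtx B)) (by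
        intro B hB
        obtain ⟨h2, h3⟩ := Finset.mem_filter.mp hB
        refine ⟨hBBE B h2, ?_⟩
        obtain ⟨y', hy', rfl⟩ := hBBc B h2
        exact hy'.adm h3)
    simpa using h1
  -- a maximal disjoint family
  obtain ⟨P, hPd⟩ : ∃ P, P = BB.powerset.filter (fun F => ∀ B ∈ F, ∀ B' ∈ F, B ≠ B' →
      Disjoint (vtx B) (vtx B')) := ⟨_, rfl⟩
  have hPne : P.Nonempty := by
    refine ⟨∅, ?_⟩
    rw [hPd]
    simp
  obtain ⟨BB₀, hBB₀, hmax⟩ := Finset.exists_max_image P Finset.card hPne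
  rw [hPd] at hBB₀
  obtain ⟨hBB₀1, hBB₀2⟩ := Finset.mem_filter.mp hBB₀
  have hBB₀sub : BB₀ ⊆ BB := Finset.mem_powerset.mp hBB₀1
  have hcover : ∀ B ∈ BB, ∃ B₀ ∈ BB₀, ∃ x, x ∈ vtx B₀ ∧ x ∈ vtx B := by
    intro B hB
    by_cases hin : B ∈ BB₀
    · obtain ⟨y', hy', rfl⟩ := hBBc B hB
      have hk := hy'.three
      exact ⟨_, hin, y' 0, hy'.mem.mpr ⟨0, by omega, rfl⟩, hy'.mem.mpr ⟨0, by omega, rfl⟩⟩
    · by_contra hcon
      push Not at hcon
      have hmem : insert B BB₀ ∈ P := by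
        rw [hPd]
        refine Finset.mem_filter.mpr ⟨Finset.mem_powerset.mpr
          (Finset.insert_subset hB hBB₀sub), ?_⟩
        intro C hC C' hC' hne
        rcases Finset.mem_insert.mp hC with rfl | hC1
        · rcases Finset.mem_insert.mp hC' with rfl | hC2
          · exact absurd rfl hne
          · exact (Finset.disjoint_left.mpr fun x h1 h2 => hcon C' hC2 x h2 h1)
        · rcases Finset.mem_insert.mp hC' with rfl | hC2
          · exact (Finset.disjoint_left.mpr fun x h1 h2 => hcon C hC1 x h1 h2)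
          · exact hBB₀2 C hC1 C' hC2 hne
      have h1 := hmax _ hmem
      rw [Finset.card_insert_of_notMem hin] at h1
      omega
  have hBBcard : BB.card ≤ BB₀.card * k * 2 ^ (k + 1) := by
    have hsub : BB ⊆ (BB₀.biUnion vtx).biUnion (fun x => BB.filter (fun B => x ∈ vtx B)) := by
      intro B hB
      obtain ⟨B₀, hB₀, x, hx1, hx2⟩ := hcover B hB
      exact Finset.mem_biUnion.mpr ⟨x, Finset.mem_biUnion.mpr ⟨B₀, hB₀, hx1⟩,
        Finset.mem_filter.mpr ⟨hB, hx2⟩⟩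
    have h1 : (BB₀.biUnion vtx).card ≤ BB₀.card * k := by
      refine Finset.card_biUnion_le_card_mul _ _ _ ?_
      intro B hB
      obtain ⟨y', hy', rfl⟩ := hBBc B (hBB₀sub hB)
      exact hy'.vtxCard.le
    calc BB.card ≤ _ := Finset.card_le_card hsub
      _ ≤ (BB₀.biUnion vtx).card * 2 ^ (k + 1) :=
          Finset.card_biUnion_le_card_mul _ _ _ fun x _ => hpt x
      _ ≤ _ := Nat.mul_le_mul_right _ h1
  have hdc := disj_count hq hK hHS BB₀ (fun B hB => hBBim B (hBB₀sub hB)) hBB₀2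
  rw [hU, hKc] at hdc
  -- permutations
  obtain ⟨N, hN⟩ : ∃ N, N = Fintype.card U := ⟨_, rfl⟩
  have hAc : Fintype.card ↥(vtx K) = k := by
    rw [Fintype.card_coe, hK.card, hKc]
  obtain ⟨XK, hXK⟩ : ∃ XK, XK = Emb (cycG K) (SimpleGraph.fromEdgeSet (K : Set (Sym2 U))) Finset.univ :=
    ⟨_, rfl⟩
  rw [← hXK] at hdc
  have hstep2 : mm K K ≤ (N - k)! * XK.card := by
    have h1 := mm_le_emb (F := K) (G := K) (T := cycG K) (j := Subtype.val) Subtype.val_injective
      (fun x y hxy => hxy.2)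
    rwa [hAc, ← hN, ← hXK] at h1
  have hstep1 := mm_le_images E K
  rw [← hBBd] at hstep1
  have hemb : (Emb (cycG K) H Finset.univ).card * (N - k)! ≤ mm E K := by
    have h1 := emb_mul_le_mm (T := cycG K) (H := H) (E := E) (W := K) hι
      (j := fun x : ↥(vtx K) => x.1) Subtype.val_injective
      (by
        intro e he
        induction e using Sym2.ind with
        | _ a b =>
          have hne : a ≠ b := fun h => hK.nd _ he (by simp [h])
          have ha' : a ∈ vtx K := mem_vtx.mpr ⟨_, he, by simp⟩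
          have hb' : b ∈ vtx K := mem_vtx.mpr ⟨_, he, by simp⟩
          exact ⟨⟨a, ha'⟩, ⟨b, hb'⟩, ⟨fun h => hne (congrArg Subtype.val h), he⟩, rfl⟩)
      (by
        intro a b hab
        rw [hEd]
        exact Finset.mem_image.mpr ⟨s(a, b), mem_edgesF.mpr hab, rfl⟩)
    rwa [hAc, ← hN] at h1
  have hf : (0 : ℝ) < ((N - k)! : ℝ) := by exact_mod_cast Nat.factorial_pos _
  have hkey : (Emb (cycG K) H Finset.univ).card * (N - k)! ≤
      (N - k)! * XK.card * (BB₀.card * k * 2 ^ (k + 1)) :=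
    hemb.trans (hstep1.trans (Nat.mul_le_mul hstep2 hBBcard))
  have hkeyR : ((Emb (cycG K) H Finset.univ).card : ℝ) * ((N - k)! : ℝ) ≤
      ((N - k)! : ℝ) * (XK.card : ℝ) * ((BB₀.card : ℝ) * k * 2 ^ (k + 1)) := by
    exact_mod_cast hkey
  have hfinal : ((Emb (cycG K) H Finset.univ).card : ℝ) * ((N - k)! : ℝ) ≤
      (3 * k * 2 ^ (k + 1) * (2 * ((n : ℝ) * q)) ^ k) * ((N - k)! : ℝ) := by
    refine hkeyR.trans ?_
    have e1 : ((N - k)! : ℝ) * (XK.card : ℝ) * ((BB₀.card : ℝ) * k * 2 ^ (k + 1)) =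
        ((BB₀.card : ℝ) * (XK.card : ℝ)) * ((N - k)! * k * 2 ^ (k + 1)) := by ring
    rw [e1]
    have e2 : (3 * (k : ℝ) * 2 ^ (k + 1) * (2 * ((n : ℝ) * q)) ^ k) * ((N - k)! : ℝ) =
        (3 * (2 * ((n : ℝ) * q)) ^ k) * ((N - k)! * k * 2 ^ (k + 1)) := by ring
    rw [e2]
    refine mul_le_mul_of_nonneg_right ?_ (by positivity)
    refine hdc.trans (le_of_eq ?_)
    push_cast
    congr 2
    ring
  exact le_of_mul_le_mul_right hfinal hf

end Vale.Agent.Lib.P064r
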