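import Vale.Agent.Lib.P064.Tok2

/-!
The walk: a forest of strong and weak arcs inside a rigid block, with a potential bounding the
number of weak arcs.
-/

namespace Vale.Agent.Lib.P064r

open Finset SimpleGraph Vale.Agent.Lib.P064
open scoped Classical Nat

set_option linter.unusedSectionVars false
set_option linter.unusedVariables false

universe u

variable {Z : Type u} [Fintype Z]

/-- The number of edges of `F[Y]` touching `T`. -/
noncomputable def eT (F : SimpleGraph Z) (Y T : Finset Z) : ℕ := (cutE F Y T).card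

lemma cutE_mono {F : SimpleGraph Z} {Y T T' : Finset Z} (h : T ⊆ T') :
    cutE F Y T ⊆ cutE F Y T' := by
  intro e he
  rcases mem_cutE.mp he with ⟨h1, h2, a, ha, haT⟩
  exact mem_cutE.mpr ⟨h1, h2, a, ha, h haT⟩

lemma eT_mono {F : SimpleGraph Z} {Y T T' : Finset Z} (h : T ⊆ T') : eT F Y T ≤ eT F Y T' :=
  Finset.card_le_card (cutE_mono h)

lemma cutE_rep {F : SimpleGraph Z} {Y K : Finset Z} {e : Sym2 Z} (he : e ∈ cutE F Y K) :
    ∃ a ∈ K, ∃ y ∈ Y, a ∈ Y ∧ F.Adj a y ∧ e = s(a, y) := by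
  rcases mem_cutE.mp he with ⟨h1, h2, a, ha, haK⟩
  induction e using Sym2.ind with
  | _ u v =>
    have huY := h2 u (Sym2.mem_mk_left u v)
    have hvY := h2 v (Sym2.mem_mk_right u v)
    have hadj : F.Adj u v := h1
    rcases Sym2.mem_iff.mp ha with rfl | rfl
    · exact ⟨a, haK, v, hvY, huY, hadj, rfl⟩
    · exact ⟨a, haK, u, huY, hvY, hadj.symm, Sym2.eq_swap⟩

lemma mem_cutE_of_adj {F : SimpleGraph Z} {Y K : Finset Z} {a y : Z} (ha : a ∈ K) (haY : a ∈ Y)
    (hy : y ∈ Y) (hadj : F.Adj a y) : s(a, y) ∈ cutE F Y K := by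
  refine mem_cutE.mpr ⟨hadj, ?_, a, Sym2.mem_mk_left a y, ha⟩
  intro b hb
  rcases Sym2.mem_iff.mp hb with rfl | rfl
  · exact haY
  · exact hy

section Walk

variable {F : SimpleGraph Z} {Y B : Finset Z} {t : Z → Z → ℝ}

/-- Tokens on the edges of `F[Y]`: the two sides of an edge hold `c` in total and every vertex of
`B` holds at most `Nt`. -/
structure Tok (F : SimpleGraph Z) (Y B : Finset Z) (t : Z → Z → ℝ) (c Nt : ℝ) : Prop where
  nonneg : ∀ a ∈ Y, ∀ b ∈ Y, F.Adj a b → 0 ≤ t a b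
  sum_eq : ∀ a ∈ Y, ∀ b ∈ Y, F.Adj a b → t a b + t b a = c
  cap : ∀ a ∈ B, ∑ b ∈ Y.filter (F.Adj a), t a b ≤ Nt

/-- A set `A` holds at least `c - τ` on every edge of `G`, hence `|G| (c - τ) ≤ |A| Nt`. -/
lemma held {c Nt τ : ℝ} (hT : Tok F Y B t c Nt) (hBY : B ⊆ Y) (hτ : 0 ≤ τ) {A : Finset Z}
    (hA : A ⊆ B) {G : Finset (Sym2 Z)}
    (hG : ∀ e ∈ G, ∃ a ∈ A, ∃ y ∈ Y, F.Adj a y ∧ e = s(a, y) ∧ (y ∉ A → t y a ≤ τ)) :
    (G.card : ℝ) * (c - τ) ≤ (A.card : ℝ) * Nt := by
  set D : Finset (Z × Z) := (A ×ˢ Y).filter (fun d => F.Adj d.1 d.2) with hD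
  have hmemD : ∀ {a b : Z}, (a, b) ∈ D ↔ (a ∈ A ∧ b ∈ Y) ∧ F.Adj a b := by
    intro a b
    simp [hD]
  have hsum : ∑ d ∈ D, t d.1 d.2 ≤ (A.card : ℝ) * Nt := by
    rw [hD, Finset.sum_filter, Finset.sum_product]
    calc ∑ x ∈ A, ∑ y ∈ Y, (if F.Adj (x, y).1 (x, y).2 then t (x, y).1 (x, y).2 else 0)
        = ∑ x ∈ A, ∑ y ∈ Y.filter (F.Adj x), t x y := by
          refine Finset.sum_congr rfl fun x _ => ?_
          rw [Finset.sum_filter]
      _ ≤ ∑ _x ∈ A, Nt := Finset.sum_le_sum fun x hx => hT.cap x (hA hx)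
      _ = _ := by rw [Finset.sum_const, nsmul_eq_mul]
  have hnn : ∀ d ∈ D, 0 ≤ t d.1 d.2 := by
    rintro ⟨a, b⟩ hd
    have h1 := hmemD.mp hd
    exact hT.nonneg a (hBY (hA h1.1.1)) b h1.1.2 h1.2
  set D' : Finset (Z × Z) := D.filter (fun d => s(d.1, d.2) ∈ G) with hD'
  have hfib : ∀ e ∈ G, c - τ ≤ ∑ d ∈ D' with s(d.1, d.2) = e, t d.1 d.2 := by
    intro e he
    obtain ⟨a, ha, y, hy, hadj, rfl, hout⟩ := hG e he
    have hnn' : ∀ d ∈ D'.filter (fun d => s(d.1, d.2) = s(a, y)), 0 ≤ t d.1 d.2 := by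
      intro d hd
      exact hnn d (Finset.mem_filter.mp (Finset.mem_filter.mp hd).1).1
    have hd1 : (a, y) ∈ D'.filter (fun d => s(d.1, d.2) = s(a, y)) := by
      refine Finset.mem_filter.mpr ⟨Finset.mem_filter.mpr ⟨hmemD.mpr ⟨⟨ha, hy⟩, hadj⟩, he⟩, rfl⟩
    have haY := hBY (hA ha)
    have hs := hT.sum_eq a haY y hy hadj
    by_cases hyA : y ∈ A
    · have hd2 : (y, a) ∈ D'.filter (fun d => s(d.1, d.2) = s(a, y)) := by
        refine Finset.mem_filter.mpr ⟨Finset.mem_filter.mpr ⟨hmemD.mpr ⟨⟨hyA, haY⟩, hadj.symm⟩, ?_⟩,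
          Sym2.eq_swap⟩
        have : s(y, a) = s(a, y) := Sym2.eq_swap
        simpa [this] using he
      have hne : (a, y) ≠ (y, a) := by
        intro h
        exact hadj.ne (Prod.ext_iff.mp h).1
      have h3 : ∑ d ∈ ({(a, y), (y, a)} : Finset (Z × Z)), t d.1 d.2 ≤
          ∑ d ∈ D'.filter (fun d => s(d.1, d.2) = s(a, y)), t d.1 d.2 := by
        refine Finset.sum_le_sum_of_subset_of_nonneg ?_ (fun d hd _ => hnn' d hd)
        intro d hd
        rcases Finset.mem_insert.mp hd with rfl | hd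
        · exact hd1
        · rw [Finset.mem_singleton.mp hd]
          exact hd2
      rw [Finset.sum_pair hne] at h3
      simp only at h3
      linarith
    · have h3 := Finset.single_le_sum hnn' hd1
      simp only at h3
      have h4 := hout hyA
      linarith
  have hmaps : ∀ d ∈ D', s(d.1, d.2) ∈ G := fun d hd => (Finset.mem_filter.mp hd).2
  calc (G.card : ℝ) * (c - τ) = ∑ _e ∈ G, (c - τ) := by
        rw [Finset.sum_const, nsmul_eq_mul]
    _ ≤ ∑ e ∈ G, ∑ d ∈ D' with s(d.1, d.2) = e, t d.1 d.2 := Finset.sum_le_sum hfib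
    _ = ∑ d ∈ D', t d.1 d.2 := Finset.sum_fiberwise_of_maps_to hmaps _
    _ ≤ ∑ d ∈ D, t d.1 d.2 :=
        Finset.sum_le_sum_of_subset_of_nonneg (Finset.filter_subset _ _) (fun d hd _ => hnn d hd)
    _ ≤ _ := hsum

/-- A rigid set has a boundary edge whose outer endpoint holds at least `τ`. -/
lemma weak_edge {N c Nt τ : ℝ} (hT : Tok F Y B t c Nt) (hBY : B ⊆ Y) (hc : 0 < c)
    (hNt : Nt ≤ N + 1 / 2) (hτ0 : 0 ≤ τ) (hτ : τ ≤ c / 2) (hτ2 : 8 * Nt * τ ≤ c) {Q : Finset Z}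
    (hQ : Q ⊆ B) (hQne : Q.Nonempty)
    (hrig : (Q.card : ℝ) * N - (eT F Y Q : ℝ) * c ≤ -(Q.card : ℝ)) :
    ∃ x ∈ Y, x ∉ Q ∧ ∃ w ∈ Q, F.Adj x w ∧ τ ≤ t x w := by
  by_contra hcon
  push Not at hcon
  have h1 := held (A := Q) (G := cutE F Y Q) hT hBY hτ0 hQ (by
    intro e he
    obtain ⟨a, ha, y, hy, _, hadj, rfl⟩ := cutE_rep he
    refine ⟨a, ha, y, hy, hadj, rfl, fun hyQ => ?_⟩
    exact (hcon y hy hyQ a ha hadj.symm).le)
  change ((eT F Y Q : ℕ) : ℝ) * (c - τ) ≤ _ at h1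
  set e : ℝ := (eT F Y Q : ℝ) with he
  set q : ℝ := (Q.card : ℝ) with hq
  have he0 : 0 ≤ e := by rw [he]; positivity
  have hq1 : 1 ≤ q := by
    rw [hq]
    exact_mod_cast Finset.card_pos.mpr hQne
  -- `e c / 2 ≤ q Nt`
  have h2 : e * (c / 2) ≤ q * Nt := by
    have : e * (c / 2) ≤ e * (c - τ) := mul_le_mul_of_nonneg_left (by linarith) he0
    linarith
  have h3 : e * τ ≤ q / 4 := by
    -- `e τ c ≤ 2 q Nt τ ≤ q c / 4`
    have h4 : e * τ * c ≤ (q / 4) * c := by
      have h5 : (e * (c / 2)) * τ ≤ (q * Nt) * τ := mul_le_mul_of_nonneg_right h2 hτ0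
      have h6 : q * (8 * Nt * τ) ≤ q * c := mul_le_mul_of_nonneg_left hτ2 (by linarith)
      nlinarith
    exact le_of_mul_le_mul_right h4 hc
  have h7 : q * Nt ≤ q * (N + 1 / 2) := mul_le_mul_of_nonneg_left hNt (by linarith)
  nlinarith

/-- A set closed under strong arcs. -/
def Closed (F : SimpleGraph Z) (Y : Finset Z) (t : Z → Z → ℝ) (τ : ℝ) (X : Finset Z) : Prop :=
  ∀ a ∈ X, ∀ b ∈ Y, F.Adj a b → τ ≤ t a b → b ∈ X

/-- A forest on `X`: every vertex of `X ∩ B` outside `Rt` has a parent in `X`, joined by a strong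
arc, or by a weak arc if it lies in `Wk`. -/
structure Forest (F : SimpleGraph Z) (B : Finset Z) (t : Z → Z → ℝ) (τs τw : ℝ) (X : Finset Z)
    (p : Z → Z) (Wk Rt : Finset Z) (ρ : Z → ℕ) : Prop where
  wk_sub : Wk ⊆ X ∩ B
  rt_sub : Rt ⊆ X ∩ B
  disj : Disjoint Wk Rt
  root : ∀ w ∈ Rt, p w = w
  par : ∀ w ∈ X, w ∈ B → w ∉ Rt → p w ∈ X ∧ F.Adj (p w) w ∧ (p w ∈ B → ρ (p w) < ρ w)
  strong : ∀ w ∈ X, w ∈ B → w ∉ Rt → w ∉ Wk → τs ≤ t (p w) w
  weak : ∀ w ∈ Wk, τw ≤ t (p w) w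

section Add

variable {τs τw : ℝ} {X : Finset Z} {p : Z → Z} {Wk Rt : Finset Z} {ρ : Z → ℕ}

lemma Forest.add_strong (h : Forest F B t τs τw X p Wk Rt ρ) {u w : Z} (hu : u ∈ X) (hw : w ∉ X)
    (hadj : F.Adj u w) (hs : τs ≤ t u w) :
    Forest F B t τs τw (insert w X) (Function.update p w u) Wk Rt
      (Function.update ρ w (X.sup ρ + 1)) := by
  have hnew : ∀ {v}, v ∈ X → v ≠ w := fun hv h => hw (h ▸ hv)
  refine ⟨?_, ?_, h.disj, ?_, ?_, ?_, ?_⟩
  · intro v hv
    have := h.wk_sub hv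
    rcases Finset.mem_inter.mp this with ⟨h1, h2⟩
    exact Finset.mem_inter.mpr ⟨Finset.mem_insert_of_mem h1, h2⟩
  · intro v hv
    have := h.rt_sub hv
    rcases Finset.mem_inter.mp this with ⟨h1, h2⟩
    exact Finset.mem_inter.mpr ⟨Finset.mem_insert_of_mem h1, h2⟩
  · intro v hv
    have hvX := (Finset.mem_inter.mp (h.rt_sub hv)).1
    rw [Function.update_of_ne (hnew hvX)]
    exact h.root v hv
  · intro v hv hvB hvR
    rcases Finset.mem_insert.mp hv with rfl | hvX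
    · rw [Function.update_self]
      refine ⟨Finset.mem_insert_of_mem hu, hadj, fun _ => ?_⟩
      rw [Function.update_of_ne (hnew hu), Function.update_self]
      exact Nat.lt_succ_of_le (Finset.le_sup hu)
    · have hne := hnew hvX
      rw [Function.update_of_ne hne]
      obtain ⟨h1, h2, h3⟩ := h.par v hvX hvB hvR
      refine ⟨Finset.mem_insert_of_mem h1, h2, fun h4 => ?_⟩
      rw [Function.update_of_ne (hnew h1), Function.update_of_ne hne]
      exact h3 h4
  · intro v hv hvB hvR hvW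
    rcases Finset.mem_insert.mp hv with rfl | hvX
    · rw [Function.update_self]
      exact hs
    · rw [Function.update_of_ne (hnew hvX)]
      exact h.strong v hvX hvB hvR hvW
  · intro v hv
    have hvX := (Finset.mem_inter.mp (h.wk_sub hv)).1
    rw [Function.update_of_ne (hnew hvX)]
    exact h.weak v hv

lemma Forest.add_weak (h : Forest F B t τs τw X p Wk Rt ρ) {u w : Z} (hu : u ∈ X) (hw : w ∉ X)
    (hwB : w ∈ B) (hadj : F.Adj u w) (hs : τw ≤ t u w) :
    Forest F B t τs τw (insert w X) (Function.update p w u) (insert w Wk) Rt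
      (Function.update ρ w (X.sup ρ + 1)) := by
  have hnew : ∀ {v}, v ∈ X → v ≠ w := fun hv h => hw (h ▸ hv)
  refine ⟨?_, ?_, ?_, ?_, ?_, ?_, ?_⟩
  · intro v hv
    rcases Finset.mem_insert.mp hv with rfl | hv
    · exact Finset.mem_inter.mpr ⟨Finset.mem_insert_self _ _, hwB⟩
    · have := h.wk_sub hv
      rcases Finset.mem_inter.mp this with ⟨h1, h2⟩
      exact Finset.mem_inter.mpr ⟨Finset.mem_insert_of_mem h1, h2⟩
  · intro v hv
    have := h.rt_sub hv
    rcases Finset.mem_inter.mp this with ⟨h1, h2⟩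
    exact Finset.mem_inter.mpr ⟨Finset.mem_insert_of_mem h1, h2⟩
  · rw [Finset.disjoint_insert_left]
    refine ⟨fun hwR => hw (Finset.mem_inter.mp (h.rt_sub hwR)).1, h.disj⟩
  · intro v hv
    have hvX := (Finset.mem_inter.mp (h.rt_sub hv)).1
    rw [Function.update_of_ne (hnew hvX)]
    exact h.root v hv
  · intro v hv hvB hvR
    rcases Finset.mem_insert.mp hv with rfl | hvX
    · rw [Function.update_self]
      refine ⟨Finset.mem_insert_of_mem hu, hadj, fun _ => ?_⟩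
      rw [Function.update_of_ne (hnew hu), Function.update_self]
      exact Nat.lt_succ_of_le (Finset.le_sup hu)
    · have hne := hnew hvX
      rw [Function.update_of_ne hne]
      obtain ⟨h1, h2, h3⟩ := h.par v hvX hvB hvR
      refine ⟨Finset.mem_insert_of_mem h1, h2, fun h4 => ?_⟩
      rw [Function.update_of_ne (hnew h1), Function.update_of_ne hne]
      exact h3 h4
  · intro v hv hvB hvR hvW
    rcases Finset.mem_insert.mp hv with rfl | hvX
    · exact absurd (Finset.mem_insert_self _ _) hvW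
    · rw [Function.update_of_ne (hnew hvX)]
      exact h.strong v hvX hvB hvR (fun h' => hvW (Finset.mem_insert_of_mem h'))
  · intro v hv
    rcases Finset.mem_insert.mp hv with rfl | hv
    · rw [Function.update_self]
      exact hs
    · have hvX := (Finset.mem_inter.mp (h.wk_sub hv)).1
      rw [Function.update_of_ne (hnew hvX)]
      exact h.weak v hv

/-- Every forest extends to a closed set with no new weak arcs or roots. -/
lemma exists_closure :
    ∀ (k : ℕ) (X : Finset Z) (p : Z → Z) (ρ : Z → ℕ), (Y \ X).card = k → X ⊆ Y → Y \ B ⊆ X →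
      Forest F B t τs τw X p Wk Rt ρ →
      ∃ (X' : Finset Z) (p' : Z → Z) (ρ' : Z → ℕ), X ⊆ X' ∧ X' ⊆ Y ∧ Closed F Y t τs X' ∧
        Forest F B t τs τw X' p' Wk Rt ρ' := by
  intro k
  induction k using Nat.strong_induction_on with
  | _ k ih =>
    intro X p ρ hk hXY hYBX hF
    by_cases hcl : Closed F Y t τs X
    · exact ⟨X, p, ρ, Finset.Subset.refl _, hXY, hcl, hF⟩
    · unfold Closed at hcl
      push Not at hcl
      obtain ⟨a, ha, b, hb, hadj, hs, hbX⟩ := hcl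
      have hF' := hF.add_strong ha hbX hadj hs
      have hlt : (Y \ insert b X).card < k := by
        rw [← hk]
        refine Finset.card_lt_card ⟨?_, ?_⟩
        · intro z hz
          rcases Finset.mem_sdiff.mp hz with ⟨h1, h2⟩
          exact Finset.mem_sdiff.mpr ⟨h1, fun h3 => h2 (Finset.mem_insert_of_mem h3)⟩
        · intro h
          have := h (Finset.mem_sdiff.mpr ⟨hb, hbX⟩)
          exact (Finset.mem_sdiff.mp this).2 (Finset.mem_insert_self _ _)
      obtain ⟨X', p', ρ', h1, h2, h3, h4⟩ := ih _ hlt (insert b X) _ _ rfl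
        (Finset.insert_subset hb hXY) (hYBX.trans (Finset.subset_insert _ _)) hF'
      exact ⟨X', p', ρ', (Finset.subset_insert _ _).trans h1, h2, h3, h4⟩

end Add

/-- The potential. -/
noncomputable def Phi (F : SimpleGraph Z) (Y : Finset Z) (N c θ θ' E' : ℝ) (Q : Finset Z) : ℝ :=
  (eT F Y Q : ℝ) / E' + ((Q.card : ℝ) * N - (eT F Y Q : ℝ) * c + (Q.card : ℝ) +
    θ * N * (eT F Y Q : ℝ)) / (θ' * N)

/-- The numerical form of non-resonance used by the walk. -/
def PerElt (N c θ θ' E' : ℝ) : Prop :=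
  ∀ s e : ℕ, 1 ≤ s → -(θ * N * (e : ℝ)) - (s : ℝ) / 2 ≤ (s : ℝ) * N - (e : ℝ) * c →
    1 ≤ (e : ℝ) / E' + ((s : ℝ) * N - (e : ℝ) * c + (s : ℝ) + θ * N * (e : ℝ)) / (θ' * N)

lemma Phi_empty (N c θ θ' E' : ℝ) : Phi F Y N c θ θ' E' ∅ = 0 := by
  have h : eT F Y ∅ = 0 := by
    unfold eT
    rw [Finset.card_eq_zero]
    refine Finset.eq_empty_of_forall_notMem fun e he => ?_
    rcases mem_cutE.mp he with ⟨_, _, a, _, ha⟩
    simp at ha
  unfold Phi
  rw [h]
  simp

lemma Phi_le {N c θ θ' E' : ℝ} (hN : 0 < N) (hθ' : 0 < θ') {Q : Finset Z}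
    (hrig : (Q.card : ℝ) * N - (eT F Y Q : ℝ) * c ≤ -(Q.card : ℝ)) :
    Phi F Y N c θ θ' E' Q ≤ (1 / E' + θ / θ') * (eT F Y Q : ℝ) := by
  unfold Phi
  set e : ℝ := (eT F Y Q : ℝ)
  have h1 : 0 < θ' * N := by positivity
  have h2 : ((Q.card : ℝ) * N - e * c + (Q.card : ℝ) + θ * N * e) / (θ' * N) ≤
      (θ * N * e) / (θ' * N) := by
    refine div_le_div_of_nonneg_right ?_ h1.le
    linarith
  have h3 : (θ * N * e) / (θ' * N) = θ / θ' * e := by
    field_simp
  have h4 : e / E' = 1 / E' * e := by ring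
  rw [h3] at h2
  rw [h4]
  linarith

/-- The main recursion: from a closed set, at most `Phi` further weak arcs are needed. -/
lemma cover {N c Nt θ θ' E' τw : ℝ} (hT : Tok F Y B t c Nt) (hBY : B ⊆ Y) (hc : 0 < c)
    (hN : 0 < N) (hθ0 : 0 ≤ θ) (hθ' : 0 < θ') (hNt : Nt ≤ N + 1 / 2) (hτw0 : 0 ≤ τw)
    (hτw : τw ≤ c / 2) (hτw2 : 8 * Nt * τw ≤ c) (hP : PerElt N c θ θ' E')
    (hrigid : ∀ T, T ⊆ B → T.Nonempty → T ≠ B →
      (T.card : ℝ) * N - (eT F Y T : ℝ) * c ≤ -(T.card : ℝ)) {Rt : Finset Z} :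
    ∀ (k : ℕ) (X : Finset Z) (p : Z → Z) (Wk : Finset Z) (ρ : Z → ℕ), (Y \ X).card = k → X ⊆ Y →
      Y \ B ⊆ X → Y \ X ≠ B → Closed F Y t (θ * N) X →
      Forest F B t (θ * N) τw X p Wk Rt ρ →
      ∃ (p' : Z → Z) (Wk' : Finset Z) (ρ' : Z → ℕ), Forest F B t (θ * N) τw Y p' Wk' Rt ρ' ∧
        (Wk'.card : ℝ) ≤ (Wk.card : ℝ) + Phi F Y N c θ θ' E' (Y \ X) := by
  intro k
  induction k using Nat.strong_induction_on with
  | _ k ih =>
    intro X p Wk ρ hk hXY hYBX hne hcl hF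
    by_cases hXeq : Y \ X = ∅
    · have hYX : Y ⊆ X := Finset.sdiff_eq_empty_iff_subset.mp hXeq
      have hXY' : X = Y := Finset.Subset.antisymm hXY hYX
      subst hXY'
      refine ⟨p, Wk, ρ, hF, ?_⟩
      rw [hXeq, Phi_empty]
      simp
    -- the complement
    obtain ⟨Q, hQdef⟩ : ∃ Q, Q = Y \ X := ⟨_, rfl⟩
    rw [← hQdef] at hXeq hne ⊢
    have hQne : Q.Nonempty := Finset.nonempty_iff_ne_empty.mpr hXeq
    have hmemQ : ∀ {z}, z ∈ Q ↔ z ∈ Y ∧ z ∉ X := by
      intro z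
      rw [hQdef, Finset.mem_sdiff]
    have hQB : Q ⊆ B := by
      intro z hz
      rcases hmemQ.mp hz with ⟨h1, h2⟩
      by_contra h3
      exact h2 (hYBX (Finset.mem_sdiff.mpr ⟨h1, h3⟩))
    have hτs0 : 0 ≤ θ * N := by positivity
    obtain ⟨x, hxY, hxQ, w, hwQ, hadj, hweak⟩ := weak_edge hT hBY hc hNt hτw0 hτw hτw2 hQB hQne
      (hrigid Q hQB hQne hne)
    have hxX : x ∈ X := by
      by_contra h
      exact hxQ (hmemQ.mpr ⟨hxY, h⟩)
    have hwX : w ∉ X := (hmemQ.mp hwQ).2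
    have hwB := hQB hwQ
    have hwY := (hmemQ.mp hwQ).1
    have hF1 := hF.add_weak hxX hwX hwB hadj hweak
    obtain ⟨X', p', ρ', hX1, hX2, hcl', hF'⟩ := exists_closure (F := F) (Y := Y) (B := B) (t := t)
      (τs := θ * N) (τw := τw) (Wk := insert w Wk) (Rt := Rt) _ (insert w X) _ _ rfl
      (Finset.insert_subset hwY hXY) (hYBX.trans (Finset.subset_insert _ _)) hF1
    have hXX' : X ⊆ X' := (Finset.subset_insert _ _).trans hX1
    have hwX' : w ∈ X' := hX1 (Finset.mem_insert_self _ _)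
    -- the pieces
    obtain ⟨A, hAdef⟩ : ∃ A, A = X' \ X := ⟨_, rfl⟩
    obtain ⟨Q', hQ'def⟩ : ∃ Q', Q' = Y \ X' := ⟨_, rfl⟩
    have hmemA : ∀ {z}, z ∈ A ↔ z ∈ X' ∧ z ∉ X := by
      intro z
      rw [hAdef, Finset.mem_sdiff]
    have hmemQ' : ∀ {z}, z ∈ Q' ↔ z ∈ Y ∧ z ∉ X' := by
      intro z
      rw [hQ'def, Finset.mem_sdiff]
    have hAB : A ⊆ B := by
      intro z hz
      rcases hmemA.mp hz with ⟨h1, h2⟩
      exact hQB (hmemQ.mpr ⟨hX2 h1, h2⟩)
    have hQ'Q : Q' ⊆ Q := by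
      intro z hz
      rcases hmemQ'.mp hz with ⟨h1, h2⟩
      exact hmemQ.mpr ⟨h1, fun h3 => h2 (hXX' h3)⟩
    have hcard : Q.card = Q'.card + A.card := by
      have h1 : Q = Q' ∪ A := by
        ext z
        constructor
        · intro hz
          rcases hmemQ.mp hz with ⟨h1, h2⟩
          by_cases h3 : z ∈ X'
          · exact Finset.mem_union_right _ (hmemA.mpr ⟨h3, h2⟩)
          · exact Finset.mem_union_left _ (hmemQ'.mpr ⟨h1, h3⟩)
        · intro hz
          rcases Finset.mem_union.mp hz with h | h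
          · exact hQ'Q h
          · rcases hmemA.mp h with ⟨h1, h2⟩
            exact hmemQ.mpr ⟨hX2 h1, h2⟩
      rw [h1, Finset.card_union_of_disjoint]
      rw [Finset.disjoint_left]
      intro z hz hz'
      exact (hmemQ'.mp hz).2 (hmemA.mp hz').1
    have hAcard : 1 ≤ A.card := Finset.card_pos.mpr ⟨w, hmemA.mpr ⟨hwX', hwX⟩⟩
    -- own edges
    obtain ⟨own, hown⟩ : ∃ own, own = cutE F Y Q \ cutE F Y Q' := ⟨_, rfl⟩
    have hecard : eT F Y Q = eT F Y Q' + own.card := by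
      unfold eT
      rw [hown, add_comm, Finset.card_sdiff_add_card_eq_card (cutE_mono hQ'Q)]
    have hheld := held (A := A) (G := own) hT hBY hτs0 hAB (by
      intro e he
      rw [hown] at he
      rcases Finset.mem_sdiff.mp he with ⟨h1, h2⟩
      obtain ⟨a, ha, y, hy, haY, hadj', rfl⟩ := cutE_rep h1
      have haA : a ∈ A := by
        refine hmemA.mpr ⟨?_, (hmemQ.mp ha).2⟩
        by_contra h3
        exact h2 (mem_cutE_of_adj (hmemQ'.mpr ⟨haY, h3⟩) haY hy hadj')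
      refine ⟨a, haA, y, hy, hadj', rfl, fun hyA => ?_⟩
      have hyX : y ∈ X := by
        by_contra h3
        by_cases h4 : y ∈ X'
        · exact hyA (hmemA.mpr ⟨h4, h3⟩)
        · apply h2
          have h5 : s(a, y) = s(y, a) := Sym2.eq_swap
          rw [h5]
          exact mem_cutE_of_adj (hmemQ'.mpr ⟨hy, h4⟩) hy haY hadj'.symm
      by_contra h3
      push Not at h3
      exact (hmemA.mp haA).2 (hcl y hyX a haY hadj'.symm h3.le))
    -- the per-element inequality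
    have hs1 : (A.card : ℝ) * Nt ≤ (A.card : ℝ) * (N + 1 / 2) :=
      mul_le_mul_of_nonneg_left hNt (by positivity)
    have hP1 := hP A.card own.card hAcard (by nlinarith)
    -- recursion
    have hlt : (Y \ X').card < k := by
      rw [← hk, ← hQdef, ← hQ'def, hcard]
      omega
    have hne' : Y \ X' ≠ B := by
      rw [← hQ'def]
      intro h
      apply hne
      exact Finset.Subset.antisymm hQB (h ▸ hQ'Q)
    obtain ⟨p'', Wk'', ρ'', hF'', hbd⟩ := ih _ hlt X' p' (insert w Wk) ρ' rfl hX2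
      (hYBX.trans hXX') hne' hcl' hF'
    refine ⟨p'', Wk'', ρ'', hF'', hbd.trans ?_⟩
    rw [← hQ'def]
    have hWk : ((insert w Wk).card : ℝ) ≤ (Wk.card : ℝ) + 1 := by
      exact_mod_cast Finset.card_insert_le _ _
    have hPhi : Phi F Y N c θ θ' E' Q = Phi F Y N c θ θ' E' Q' +
        ((own.card : ℝ) / E' + ((A.card : ℝ) * N - (own.card : ℝ) * c + (A.card : ℝ) +
          θ * N * (own.card : ℝ)) / (θ' * N)) := by
      unfold Phi
      rw [hecard, hcard]
      push_cast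
      ring
    rw [hPhi]
    linarith

/-- The result of the walk: a spanning forest with few weak arcs and at most one root. -/
theorem walk {N c Nt θ θ' E' τw : ℝ} (hT : Tok F Y B t c Nt) (hBY : B ⊆ Y) (hBne : B.Nonempty)
    (hc : 0 < c) (hN : 0 < N) (hθ0 : 0 ≤ θ) (hθ' : 0 < θ') (hNt : Nt ≤ N + 1 / 2) (hτw0 : 0 ≤ τw)
    (hτw : τw ≤ c / 2) (hτw2 : 8 * Nt * τw ≤ c) (hτs : θ * N ≤ c / 2) (hE' : 0 < E')
    (hP : PerElt N c θ θ' E')
    (hrigid : ∀ T, T ⊆ B → T.Nonempty → T ≠ B →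
      (T.card : ℝ) * N - (eT F Y T : ℝ) * c ≤ -(T.card : ℝ)) :
    ∃ (p : Z → Z) (Wk Rt : Finset Z) (ρ : Z → ℕ), Forest F B t (θ * N) τw Y p Wk Rt ρ ∧
      ((Rt = ∅ ∧ (Wk.card : ℝ) ≤ (1 / E' + θ / θ') * (eT F Y B : ℝ)) ∨
        (Rt.card = 1 ∧ (Wk = ∅ ∨ (Wk.card : ℝ) + 1 ≤ (1 / E' + θ / θ') * (eT F Y B : ℝ)))) := by
  have hθE : 0 ≤ 1 / E' + θ / θ' := by positivity
  -- the trivial forest on the base
  have hF0 : Forest F B t (θ * N) τw (Y \ B) id ∅ ∅ (fun _ => 0) := by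
    refine ⟨by simp, by simp, by simp, by simp, ?_, ?_, by simp⟩
    · intro w hw hwB
      exact absurd hwB (Finset.mem_sdiff.mp hw).2
    · intro w hw hwB
      exact absurd hwB (Finset.mem_sdiff.mp hw).2
  obtain ⟨X₀, p₀, ρ₀, h01, h02, h03, h04⟩ := exists_closure (F := F) (Y := Y) (B := B) (t := t)
    (τs := θ * N) (τw := τw) (Wk := ∅) (Rt := ∅) _ (Y \ B) _ _ rfl Finset.sdiff_subset
    (Finset.Subset.refl _) hF0
  by_cases hX₀ : Y \ X₀ = B
  · -- no strong arc enters the block: a root is needed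
    have hbase : X₀ = Y \ B := by
      apply Finset.Subset.antisymm _ h01
      intro z hz
      refine Finset.mem_sdiff.mpr ⟨h02 hz, fun hzB => ?_⟩
      rw [← hX₀] at hzB
      exact (Finset.mem_sdiff.mp hzB).2 hz
    subst hbase
    have hclB : Closed F Y t (θ * N) (Y \ B) := h03
    -- the minimal set with no strong arc entering
    set CC : Finset (Finset Z) := B.powerset.filter (fun S => S.Nonempty ∧
      ∀ a ∈ Y, a ∉ S → ∀ b ∈ S, F.Adj a b → t a b < θ * N) with hCC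
    have hCCne : CC.Nonempty := by
      refine ⟨B, Finset.mem_filter.mpr ⟨Finset.mem_powerset.mpr (Finset.Subset.refl _), hBne, ?_⟩⟩
      intro a ha haB b hb hadj
      by_contra h
      push Not at h
      exact (Finset.mem_sdiff.mp (hclB a (Finset.mem_sdiff.mpr ⟨ha, haB⟩) b (hBY hb) hadj h)).2 hb
    obtain ⟨S, hSCC, hSmin⟩ := Finset.exists_min_image CC Finset.card hCCne
    rcases Finset.mem_filter.mp hSCC with ⟨hS1, hSne, hSco⟩
    have hSB : S ⊆ B := Finset.mem_powerset.mp hS1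
    obtain ⟨r, hr⟩ := hSne
    have hrB := hSB hr
    have hrY := hBY hrB
    have hrX : r ∉ Y \ B := fun h => (Finset.mem_sdiff.mp h).2 hrB
    -- the forest with the root
    have hF1 : Forest F B t (θ * N) τw (insert r (Y \ B)) id ∅ {r} (fun _ => 0) := by
      refine ⟨by simp, ?_, by simp, by simp, ?_, ?_, by simp⟩
      · intro z hz
        rw [Finset.mem_singleton.mp hz]
        exact Finset.mem_inter.mpr ⟨Finset.mem_insert_self _ _, hrB⟩
      · intro w hw hwB hwR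
        rcases Finset.mem_insert.mp hw with rfl | h
        · exact absurd (Finset.mem_singleton_self _) hwR
        · exact absurd hwB (Finset.mem_sdiff.mp h).2
      · intro w hw hwB hwR _
        rcases Finset.mem_insert.mp hw with rfl | h
        · exact absurd (Finset.mem_singleton_self _) hwR
        · exact absurd hwB (Finset.mem_sdiff.mp h).2
    obtain ⟨X₁, p₁, ρ₁, h11, h12, h13, h14⟩ := exists_closure (F := F) (Y := Y) (B := B) (t := t)
      (τs := θ * N) (τw := τw) (Wk := ∅) (Rt := {r}) _ (insert r (Y \ B)) _ _ rfl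
      (Finset.insert_subset hrY Finset.sdiff_subset) (Finset.subset_insert _ _) hF1
    have hrX₁ : r ∈ X₁ := h11 (Finset.mem_insert_self _ _)
    -- `S` lies in the closure
    have hSX₁ : S ⊆ X₁ := by
      intro z hz
      by_contra hzX
      set S' := S \ X₁ with hS'
      have hS'CC : S' ∈ CC := by
        refine Finset.mem_filter.mpr ⟨Finset.mem_powerset.mpr (Finset.sdiff_subset.trans hSB),
          ⟨z, Finset.mem_sdiff.mpr ⟨hz, hzX⟩⟩, ?_⟩
        intro a ha haS' b hb hadj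
        rcases Finset.mem_sdiff.mp hb with ⟨hb1, hb2⟩
        by_cases haS : a ∈ S
        · have haX : a ∈ X₁ := by
            by_contra h
            exact haS' (Finset.mem_sdiff.mpr ⟨haS, h⟩)
          by_contra h
          push Not at h
          exact hb2 (h13 a haX b (hBY (hSB hb1)) hadj h)
        · exact hSco a ha haS b hb1 hadj
      have hlt : S'.card < S.card := by
        refine Finset.card_lt_card ⟨Finset.sdiff_subset, fun h => ?_⟩
        exact (Finset.mem_sdiff.mp (h hr)).2 hrX₁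
      exact absurd (hSmin S' hS'CC) (not_le.mpr hlt)
    by_cases hXY₁ : X₁ = Y
    · subst hXY₁
      exact ⟨p₁, ∅, {r}, ρ₁, h14, Or.inr ⟨Finset.card_singleton _, Or.inl rfl⟩⟩
    -- some vertices remain
    have hQne : (Y \ X₁).Nonempty := by
      rw [Finset.nonempty_iff_ne_empty]
      intro h
      exact hXY₁ (Finset.Subset.antisymm h12 (Finset.sdiff_eq_empty_iff_subset.mp h))
    have hQB : Y \ X₁ ⊆ B := by
      intro z hz
      rcases Finset.mem_sdiff.mp hz with ⟨h1, h2⟩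
      by_contra h3
      exact h2 (h11 (Finset.mem_insert_of_mem (Finset.mem_sdiff.mpr ⟨h1, h3⟩)))
    have hQneB : Y \ X₁ ≠ B := by
      intro h
      have : r ∈ Y \ X₁ := h ▸ hrB
      exact (Finset.mem_sdiff.mp this).2 hrX₁
    obtain ⟨p', Wk', ρ', hF', hbd⟩ := cover hT hBY hc hN hθ0 hθ' hNt hτw0 hτw hτw2 hP hrigid _ X₁
      p₁ ∅ ρ₁ rfl h12 ((Finset.subset_insert _ _).trans h11) hQneB h13 h14
    refine ⟨p', Wk', {r}, ρ', hF', Or.inr ⟨Finset.card_singleton _, Or.inr ?_⟩⟩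
    have hPhi := Phi_le (F := F) (Y := Y) (N := N) (c := c) (θ := θ) (E' := E') hN hθ'
      (hrigid _ hQB hQne hQneB)
    -- the set `S` is proper
    have hSneB : S ≠ B := by
      intro h
      obtain ⟨z, hz⟩ := hQne
      have hzB := hQB hz
      rw [← h] at hzB
      exact (Finset.mem_sdiff.mp hz).2 (hSX₁ hzB)
    have hSrig := hrigid S hSB ⟨r, hr⟩ hSneB
    have hheld := held (τ := θ * N) (A := S) (G := cutE F Y S) hT hBY (by positivity) hSB (by
      intro e he
      obtain ⟨a, ha, y, hy, haY, hadj, rfl⟩ := cutE_rep he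
      exact ⟨a, ha, y, hy, hadj, rfl, fun hyS => (hSco y hy hyS a ha hadj.symm).le⟩)
    have hS1' : 1 ≤ S.card := Finset.card_pos.mpr ⟨r, hr⟩
    have hs1 : (S.card : ℝ) * Nt ≤ (S.card : ℝ) * (N + 1 / 2) :=
      mul_le_mul_of_nonneg_left hNt (by positivity)
    change ((eT F Y S : ℕ) : ℝ) * (c - θ * N) ≤ _ at hheld
    have hP1 := hP S.card (eT F Y S) hS1' (by nlinarith)
    have hSbudget : 1 ≤ (1 / E' + θ / θ') * (eT F Y S : ℝ) := by
      have h1 : 0 < θ' * N := by positivity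
      have h2 : ((S.card : ℝ) * N - (eT F Y S : ℝ) * c + (S.card : ℝ) + θ * N * (eT F Y S : ℝ)) /
          (θ' * N) ≤ (θ * N * (eT F Y S : ℝ)) / (θ' * N) := by
        refine div_le_div_of_nonneg_right ?_ h1.le
        linarith
      have h3 : (θ * N * (eT F Y S : ℝ)) / (θ' * N) = θ / θ' * (eT F Y S : ℝ) := by
        field_simp
      have h4 : (eT F Y S : ℝ) / E' = 1 / E' * (eT F Y S : ℝ) := by ring
      rw [h3] at h2
      rw [h4] at hP1
      linarith
    -- the edges at `S` and at the rest are different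
    have hdisj : Disjoint (cutE F Y S) (cutE F Y (Y \ X₁)) := by
      rw [Finset.disjoint_left]
      intro e he he'
      obtain ⟨a, ha, y, hy, haY, hadj, rfl⟩ := cutE_rep he
      obtain ⟨a', ha', y', hy', ha'Y, hadj', heq⟩ := cutE_rep he'
      have hna' : a' ∉ X₁ := (Finset.mem_sdiff.mp ha').2
      have haX : a ∈ X₁ := hSX₁ ha
      -- the other end of the edge is `a'`
      have hya' : y = a' := by
        rcases Sym2.eq_iff.mp heq with ⟨h1, _⟩ | ⟨h1, h2⟩
        · exact absurd (h1 ▸ haX) hna'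
        · exact h2
      subst hya'
      have h5 : t a y < θ * N := by
        by_contra h
        push Not at h
        exact hna' (h13 a haX y hy hadj h)
      have h6 : t y a < θ * N := hSco y hy (fun h => hna' (hSX₁ h)) a ha hadj.symm
      have h7 := hT.sum_eq a haY y hy hadj
      linarith
    have hsum : eT F Y S + eT F Y (Y \ X₁) ≤ eT F Y B := by
      unfold eT
      rw [← Finset.card_union_of_disjoint hdisj]
      exact Finset.card_le_card (Finset.union_subset (cutE_mono hSB) (cutE_mono hQB))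
    have hsumR : (eT F Y S : ℝ) + (eT F Y (Y \ X₁) : ℝ) ≤ (eT F Y B : ℝ) := by
      exact_mod_cast hsum
    have h8 : (1 / E' + θ / θ') * ((eT F Y S : ℝ) + (eT F Y (Y \ X₁) : ℝ)) ≤
        (1 / E' + θ / θ') * (eT F Y B : ℝ) := mul_le_mul_of_nonneg_left hsumR hθE
    simp only [Finset.card_empty, Nat.cast_zero, zero_add] at hbd
    rw [mul_add] at h8
    linarith
  · -- a strong arc enters the block: no root
    obtain ⟨p', Wk', ρ', hF', hbd⟩ := cover hT hBY hc hN hθ0 hθ' hNt hτw0 hτw hτw2 hP hrigid _ X₀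
      p₀ ∅ ρ₀ rfl h02 h01 hX₀ h03 h04
    refine ⟨p', Wk', ∅, ρ', hF', Or.inl ⟨rfl, hbd.trans ?_⟩⟩
    simp only [Finset.card_empty, Nat.cast_zero, zero_add]
    by_cases hQ : (Y \ X₀).Nonempty
    · have hQB : Y \ X₀ ⊆ B := by
        intro z hz
        rcases Finset.mem_sdiff.mp hz with ⟨h1, h2⟩
        by_contra h3
        exact h2 (h01 (Finset.mem_sdiff.mpr ⟨h1, h3⟩))
      refine (Phi_le hN hθ' (hrigid _ hQB hQ hX₀)).trans ?_
      refine mul_le_mul_of_nonneg_left ?_ hθE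
      exact_mod_cast eT_mono hQB
    · rw [Finset.not_nonempty_iff_eq_empty] at hQ
      rw [hQ, Phi_empty]
      positivity

end Walk

end Vale.Agent.Lib.P064r
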